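import Vale.Agent.P207.H662.Rel2

/-!
# P207, block QF: the ladder algebra of the functions on the unit tangent bundle
-/

open Finset

set_option linter.unusedSectionVars false

noncomputable section

namespace Vale.Agent.P207.H662

namespace Sys

variable {m : ℕ} {A : Type*} [CommRing A] [Algebra ℝ A] (S : Sys m A)

/-- an invariant integral -/
structure IsInt (I : A →ₗ[ℝ] ℝ) : Prop where
  X : ∀ f, I (S.X f) = 0
  v : ∀ i f, I (S.v i f) = 0
  h : ∀ i f, I (S.h i f) = 0
  pos : ∀ f, 0 ≤ I (f * f)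

/-- components of the field `V r + H s` in the directions of `Q` -/
def fld (Q : Fin m → Fin m → A) (r s : A) (i : Fin m) : A := ∑ j, Q i j * (S.v j r + S.h j s)

variable {S} {Q : Fin m → Fin m → A} {κ q : ℝ} {I : A →ₗ[ℝ] ℝ}

theorem ibp {a b : Fin m → Derivation ℝ A A} (ha : ∀ i f, I (a i f) = 0)
    (hd : ∀ j, ∑ i, a i (Q i j) = 0) (f g : A) :
    I (∑ i, ∑ j, Q i j * (a i f * b j g)) = - I (f * op Q a b g) := by
  have h1 : ∀ i j, I (Q i j * (a i f * b j g)) =
      - I (Q i j * (f * a i (b j g))) - I (f * (b j g * a i (Q i j))) := by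
    intro i j
    have h2 := ha i (Q i j * (f * b j g))
    rw [Derivation.leibniz, Derivation.leibniz] at h2
    simp only [smul_eq_mul] at h2
    have h3 : Q i j * (f * a i (b j g) + b j g * a i f) + f * b j g * a i (Q i j) =
        Q i j * (f * a i (b j g)) + Q i j * (a i f * b j g) + f * (b j g * a i (Q i j)) := by
      ring
    rw [h3, map_add, map_add] at h2
    linarith
  have h4 : ∑ i, ∑ j, f * (b j g * a i (Q i j)) = 0 := by
    rw [sum_comm]
    refine sum_eq_zero fun j _ => ?_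
    rw [← mul_sum, ← mul_sum, hd, mul_zero, mul_zero]
  have h5 : f * op Q a b g = ∑ i, ∑ j, Q i j * (f * a i (b j g)) := by
    change f * ∑ i, ∑ j, Q i j * a i (b j g) = _
    rw [mul_sum]
    refine sum_congr rfl fun i _ => ?_
    rw [mul_sum]
    exact sum_congr rfl fun j _ => by ring
  have h6 : I (∑ i, ∑ j, Q i j * (a i f * b j g)) = - I (∑ i, ∑ j, Q i j * (f * a i (b j g)))
      - I (∑ i, ∑ j, f * (b j g * a i (Q i j))) := by
    simp only [map_sum, h1, sum_sub_distrib, sum_neg_distrib]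
  rw [h6, h4, map_zero, h5, sub_zero]

namespace IsProj

variable (hQ : S.IsProj Q κ q) (hI : S.IsInt I)
include hQ hI

theorem int_v_v (f g : A) : I (∑ i, ∑ j, Q i j * (S.v i f * S.v j g)) = I (f * S.Dl Q g) := by
  rw [ibp hI.v hQ.div]
  change - I (f * op Q S.v S.v g) = I (f * -(op Q S.v S.v g))
  rw [mul_neg, map_neg]

theorem int_v_h (f g : A) : I (∑ i, ∑ j, Q i j * (S.v i f * S.h j g)) = - I (f * S.El Q g) :=
  ibp hI.v hQ.div f g

theorem int_h_h (f g : A) : I (∑ i, ∑ j, Q i j * (S.h i f * S.h j g)) = I (f * S.Sl Q g) := by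
  rw [ibp hI.h (fun j => sum_eq_zero fun i _ => hQ.h i i j)]
  change - I (f * op Q S.h S.h g) = I (f * -(op Q S.h S.h g))
  rw [mul_neg, map_neg]

theorem int_h_v (f g : A) :
    I (∑ i, ∑ j, Q i j * (S.h i f * S.v j g)) = - I (f * (S.El Q g + q • S.X g)) := by
  rw [ibp hI.h (fun j => sum_eq_zero fun i _ => hQ.h i i j)]
  change - I (f * ∑ i, ∑ j, Q i j * S.h i (S.v j g)) = _
  rw [hQ.sum_h_v]

omit hI in
theorem swap (F G : Fin m → A) :
    ∑ i, ∑ j, Q i j * (F i * G j) = ∑ i, ∑ j, Q i j * (G i * F j) := by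
  rw [sum_comm]
  exact sum_congr rfl fun i _ => sum_congr rfl fun j _ => by rw [hQ.symm j i]; ring

theorem Dl_symm (f g : A) : I (S.Dl Q f * g) = I (f * S.Dl Q g) := by
  rw [mul_comm, ← hQ.int_v_v hI, ← hQ.int_v_v hI, hQ.swap]

theorem Sl_symm (f g : A) : I (S.Sl Q f * g) = I (f * S.Sl Q g) := by
  rw [mul_comm, ← hQ.int_h_h hI, ← hQ.int_h_h hI, hQ.swap]

theorem El_adj (f g : A) : I (S.El Q f * g) = I (f * (S.El Q g + q • S.X g)) := by
  have h1 := hQ.int_v_h hI g f
  have h2 := hQ.int_h_v hI f g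
  rw [hQ.swap] at h1
  rw [mul_comm]
  linarith

omit hI in
theorem fld_mul_fld (r s r' s' : A) :
    ∑ i, S.fld Q r s i * S.fld Q r' s' i =
      ∑ i, ∑ j, Q i j * (S.v i r * S.v j r') + ∑ i, ∑ j, Q i j * (S.v i r * S.h j s')
      + ∑ i, ∑ j, Q i j * (S.v i r' * S.h j s) + ∑ i, ∑ j, Q i j * (S.h i s * S.h j s') := by
  have h1 : ∑ i, S.fld Q r s i * S.fld Q r' s' i =
      ∑ j, ∑ k, Q j k * ((S.v j r + S.h j s) * (S.v k r' + S.h k s')) := by
    unfold fld
    simp only [sum_mul_sum]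
    rw [sum_comm]
    refine sum_congr rfl fun j _ => ?_
    rw [sum_comm]
    refine sum_congr rfl fun k _ => ?_
    rw [← hQ.idem j k, sum_mul]
    refine sum_congr rfl fun i _ => ?_
    rw [hQ.symm j i]; ring
  rw [h1, hQ.swap (fun i => S.v i r') (fun j => S.h j s)]
  simp only [← sum_add_distrib]
  exact sum_congr rfl fun i _ => sum_congr rfl fun j _ => by ring

/-- the inner product of two fields -/
theorem int_fld_fld (r s r' s' : A) :
    I (∑ i, S.fld Q r s i * S.fld Q r' s' i) =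
      I (S.Dl Q r * r') - I (r * S.El Q s') - I (r' * S.El Q s) + I (S.Sl Q s * s') := by
  rw [hQ.fld_mul_fld, map_add, map_add, map_add, hQ.int_v_v hI, hQ.int_v_h hI, hQ.int_v_h hI,
    hQ.int_h_h hI, ← hQ.Dl_symm hI, ← hQ.Sl_symm hI]
  ring

omit hI in
/-- the geodesic derivative of a field -/
theorem X_fld {r s : A} (hs : s ∈ S.B) (i : Fin m) :
    S.X (S.fld Q r s i) = S.fld Q (S.X r - κ • s) (S.X s - r) i := by
  have hX : ∀ j, S.X (S.h j s) = S.h j (S.X s) - S.v j s - 3 * ∑ k, S.P j k * S.v k s := by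
    intro j
    rw [S.Xh]
    simp [hs _ _]
  have hv : ∀ j, S.X (S.v j r) = S.v j (S.X r) - S.h j r := by
    intro j; rw [S.vX]; ring
  have h1 : S.X (S.fld Q r s i) = ∑ j, (Q i j * (S.v j (S.X r) - S.h j r + S.h j (S.X s)
      - S.v j s) - Q i j * (3 * ∑ k, S.P j k * S.v k s)) := by
    unfold fld
    rw [map_sum]
    refine sum_congr rfl fun j _ => ?_
    rw [hQ.X_mul, map_add, hX, hv]; ring
  have h2 : ∑ j, Q i j * (3 * ∑ k, S.P j k * S.v k s) = (κ - 1) • ∑ k, Q i k * S.v k s := by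
    have e : ∀ k, (κ - 1) • (Q i k * S.v k s) = ∑ j, 3 * (Q i j * S.P j k) * S.v k s := by
      intro k
      rw [← smul_mul_assoc, ← hQ.P, mul_sum, sum_mul]
    rw [smul_sum, sum_congr rfl fun k _ => e k, sum_comm]
    refine sum_congr rfl fun j _ => ?_
    rw [mul_sum, mul_sum]
    exact sum_congr rfl fun k _ => by ring
  rw [h1, sum_sub_distrib, h2, smul_sum, ← sum_sub_distrib]
  unfold fld
  refine sum_congr rfl fun j _ => ?_
  rw [map_sub, map_sub, Derivation.map_smul, mul_add, mul_sub, mul_sub, mul_smul_comm, sub_smul,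
    one_smul]
  ring

end IsProj

/-! ### the ladder algebra -/

variable (S)

theorem op_mem_aux {φ : A →ₗ[ℝ] A} (h : ∀ f ∈ S.B, φ f ∈ S.B) : ∀ f ∈ S.B, φ f ∈ S.B := h

/-- the inner product on the functions of the unit tangent bundle -/
def ipB (I : A →ₗ[ℝ] ℝ) : S.B →ₗ[ℝ] S.B →ₗ[ℝ] ℝ :=
  LinearMap.mk₂ ℝ (fun f g => I ((f : A) * (g : A)))
    (by intro f g k; simp [add_mul]) (by intro c f g; simp)
    (by intro f g k; simp [mul_add]) (by intro c f g; simp)

theorem ipB_apply (I : A →ₗ[ℝ] ℝ) (f g : S.B) : S.ipB I f g = I ((f : A) * (g : A)) := rfl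

/-- the geodesic vector field -/
def XB : S.B →ₗ[ℝ] S.B := (S.X : A →ₗ[ℝ] A).restrict (fun _ hf => S.X_mem hf)

@[simp] theorem coe_XB (f : S.B) : (S.XB f : A) = S.X (f : A) := rfl

variable {S} (hQ : S.IsProj Q κ q) (hI : S.IsInt I)

/-- the operators of one eigenvalue -/
def lad1 : Lad1 S.B (S.ipB I) S.XB κ q where
  Δ := (S.Dl Q).restrict (fun _ hf => hQ.Dl_mem hf)
  E := (S.El Q).restrict (fun _ hf => hQ.El_mem hf)
  S := (S.Sl Q).restrict (fun _ hf => hQ.Sl_mem hf)
  Δ_symm := fun f g => hQ.Dl_symm hI f g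
  S_symm := fun f g => hQ.Sl_symm hI f g
  E_adj := fun f g => hQ.El_adj hI f g
  X_Δ := fun f => Subtype.ext (hQ.X_Dl (f : A))
  X_E := fun f => Subtype.ext (hQ.X_El f.2)
  X_S := fun f => Subtype.ext (hQ.X_Sl f.2)
  pos := by
    intro r s
    have h1 := hQ.int_fld_fld hI (r : A) (s : A) (r : A) (s : A)
    have h2 : 0 ≤ I (∑ i, S.fld Q (r : A) (s : A) i * S.fld Q (r : A) (s : A) i) := by
      rw [map_sum]
      exact sum_nonneg fun i _ => hI.pos _
    rw [h1] at h2
    change 0 ≤ I (S.Dl Q r * r) - 2 * I (r * S.El Q s) + I (S.Sl Q s * s)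
    linarith

variable (S)

/-- **the ladder algebra of the functions on the unit tangent bundle** -/
def lad (hI : S.IsInt I) : Lad S.B where
  ip := S.ipB I
  symm := by intro f g; rw [ipB_apply, ipB_apply, mul_comm]
  nonneg := fun f => hI.pos f
  X := S.XB
  skew := by
    intro f g
    rw [ipB_apply, ipB_apply, coe_XB, coe_XB]
    have h := hI.X ((f : A) * (g : A))
    rw [Derivation.leibniz, map_add, smul_eq_mul, smul_eq_mul] at h
    rw [mul_comm (S.X (f : A))]
    linarith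
  e := m - S.d
  d := S.d
  L1 := lad1 S.isProj_Q hI
  L2 := lad1 S.isProj_P hI
  deg2 := by
    intro f
    refine Subtype.ext ?_
    have h := S.leaf.degree_rel (f := (f : A)) (by
      intro i k
      change S.rl i k (f : A) = 0
      rw [rl_apply]
      simp [show ∀ a b, S.r a b (f : A) = 0 from f.2])
    simp only [leaf_Del] at h
    exact h
  deg := by
    intro f
    refine Subtype.ext ?_
    have h := S.tot.degree_rel (f := (f : A)) f.2
    simp only [tot_Del] at h
    have h0 : (m : ℝ) - S.d + S.d = m := by ring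
    rw [h0]
    exact h
  comm := fun f => Subtype.ext (S.Dl_comm f.2)
  comm21 := fun f => Subtype.ext (S.Dl_Sl (f : A))

end Sys

end Vale.Agent.P207.H662
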