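import Mathlib

/-!
# P207, block QF: the abstract ladder algebra on the functions of the unit tangent bundle

`W` = smooth functions on the unit tangent bundle, `ip f g = ∫ f g`, `X` = geodesic vector field;
for `κ = 1, 4` (index `0, 1`): `Δ_κ = - ∑ V_i V_i = V* V`, `E_κ = ∑ V_i H_i = - V* H`,
`S_κ = - ∑ H_i H_i = H* H` (sums over the eigenspace of the Jacobi operator `K_v`).
-/

noncomputable section

namespace Vale.Agent.P207.H662

/-- One eigenvalue `κ` of the Jacobi operator, multiplicity `q`: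
`Δ = V* V`, `E = - V* H`, `S = H* H`. -/
structure Lad1 (W : Type*) [AddCommGroup W] [Module ℝ W] (ip : W →ₗ[ℝ] W →ₗ[ℝ] ℝ)
    (X : W →ₗ[ℝ] W) (κ q : ℝ) where
  Δ : W →ₗ[ℝ] W
  E : W →ₗ[ℝ] W
  S : W →ₗ[ℝ] W
  Δ_symm : ∀ f g, ip (Δ f) g = ip f (Δ g)
  S_symm : ∀ f g, ip (S f) g = ip f (S g)
  E_adj : ∀ f g, ip (E f) g = ip f (E g + q • X g)
  X_Δ : ∀ f, X (Δ f) = Δ (X f) + (2 : ℝ) • E f + q • X f
  X_E : ∀ f, X (E f) = E (X f) + κ • Δ f + S f
  X_S : ∀ f, X (S f) = S (X f) + κ • ((2 : ℝ) • E f + q • X f)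
  /-- `|V r + H s|² ≥ 0` -/
  pos : ∀ r s, 0 ≤ ip (Δ r) r - 2 * ip r (E s) + ip (S s) s

/-- The ladder algebra of a rank one space: indices `L1` for `κ = 1`, multiplicity `e`, `L2` for
`κ = 4`, multiplicity `d`. -/
structure Lad (W : Type*) [AddCommGroup W] [Module ℝ W] where
  ip : W →ₗ[ℝ] W →ₗ[ℝ] ℝ
  symm : ∀ f g, ip f g = ip g f
  nonneg : ∀ f, 0 ≤ ip f f
  X : W →ₗ[ℝ] W
  skew : ∀ f g, ip (X f) g = - ip f (X g)
  e : ℝ
  d : ℝ
  L1 : Lad1 W ip X 1 e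
  L2 : Lad1 W ip X 4 d
  /-- the leafwise degree relation -/
  deg2 : ∀ f, L2.Δ (L2.Δ (X f)) - (2 : ℝ) • L2.Δ (X (L2.Δ f)) + X (L2.Δ (L2.Δ f)) =
    (2 : ℝ) • (L2.Δ (X f) + X (L2.Δ f)) + (d * (d - 2)) • X f
  /-- the degree relation, `Δ = Δ_1 + Δ_2` -/
  deg : ∀ f, (L1.Δ + L2.Δ) ((L1.Δ + L2.Δ) (X f)) -
      (2 : ℝ) • (L1.Δ + L2.Δ) (X ((L1.Δ + L2.Δ) f)) + X ((L1.Δ + L2.Δ) ((L1.Δ + L2.Δ) f)) =
    (2 : ℝ) • ((L1.Δ + L2.Δ) (X f) + X ((L1.Δ + L2.Δ) f)) + ((e + d) * (e + d - 2)) • X f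
  comm : ∀ f, L1.Δ (L2.Δ f) = L2.Δ (L1.Δ f)
  comm21 : ∀ f, L2.Δ (L1.S f) = L1.S (L2.Δ f)

section Lad1

variable {W : Type*} [AddCommGroup W] [Module ℝ W] {ip : W →ₗ[ℝ] W →ₗ[ℝ] ℝ}
    {X : W →ₗ[ℝ] W} {κ q : ℝ} (L : Lad1 W ip X κ q)

namespace Lad1

/-- `C = S - κ Δ`, commutes with `X` -/
def C : W →ₗ[ℝ] W := L.S - κ • L.Δ

theorem C_apply (f : W) : L.C f = L.S f - κ • L.Δ f := rfl

theorem X_C (f : W) : X (L.C f) = L.C (X f) := by
  rw [C_apply, C_apply, map_sub, map_smul, L.X_S, L.X_Δ]; module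

/-- `|V r + H s|²` -/
def nsq (r s : W) : ℝ := ip (L.Δ r) r - 2 * ip r (L.E s) + ip (L.S s) s

theorem nsq_nonneg (r s : W) : 0 ≤ L.nsq r s := L.pos r s

/-- `⟨V a + H b, V c + H e⟩` -/
def inn (a b c e : W) : ℝ := ip (L.Δ a) c - ip a (L.E e) - ip c (L.E b) + ip (L.S b) e

/-- the `κ`-part of the quadratic form of the test field `y = V F + H G`:
`2⟨Z, y⟩ - |X y|² - κ |y|²`, `Z = V X f - 2 H f`, `X y = V (X F - κ G) + H (X G - F)` -/
def qf (f F G : W) : ℝ :=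
  2 * L.inn (X f) (-(2 : ℝ) • f) F G - L.nsq (X F - κ • G) (X G - F) - κ * L.nsq F G

theorem C_symm (f g : W) : ip (L.C f) g = ip f (L.C g) := by
  simp only [C_apply, map_sub, map_smul, LinearMap.sub_apply, LinearMap.smul_apply, L.Δ_symm,
    L.S_symm]

end Lad1

end Lad1

namespace Lad1

variable {W : Type*} [AddCommGroup W] [Module ℝ W] {ip : W →ₗ[ℝ] W →ₗ[ℝ] ℝ}
    {X : W →ₗ[ℝ] W} {κ q : ℝ} (L : Lad1 W ip X κ q)

theorem Δ_X (f : W) : L.Δ (X f) = X (L.Δ f) - (2 : ℝ) • L.E f - q • X f := by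
  rw [L.X_Δ]; module

theorem E_X (f : W) : L.E (X f) = X (L.E f) - κ • L.Δ f - L.S f := by
  rw [L.X_E]; module

theorem S_X (f : W) : L.S (X f) = X (L.S f) - κ • ((2 : ℝ) • L.E f + q • X f) := by
  rw [L.X_S]; module

/-- `⟨V F + H G, V a + H b⟩ = ⟨F, V*(V a + H b)⟩ + ⟨G, H*(V a + H b)⟩` -/
theorem inn_eq (hs : ∀ f g, ip f g = ip g f) (F G a b : W) :
    L.inn F G a b = ip F (L.Δ a - L.E b) + ip G (L.S b - L.E a - q • X a) := by
  rw [inn, L.Δ_symm, L.S_symm, hs a (L.E G), L.E_adj]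
  simp only [map_sub, map_add, map_smul, smul_eq_mul]
  ring

theorem inn_symm (hs : ∀ f g, ip f g = ip g f) (a b c e : W) :
    L.inn a b c e = L.inn c e a b := by
  unfold inn
  rw [L.Δ_symm, hs a (L.Δ c), L.S_symm, hs b (L.S e)]; ring

theorem inn_self (a b : W) : L.inn a b a b = L.nsq a b := by
  unfold inn nsq; ring

/-- the geodesic derivative of the field `V a + H b` is `V (X a - κ b) + H (X b - a)`:
it is skew -/
theorem inn_skew (hs : ∀ f g, ip f g = ip g f) (hX : ∀ f g, ip (X f) g = - ip f (X g))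
    (a b c e : W) :
    L.inn (X a - κ • b) (X b - a) c e = - L.inn a b (X c - κ • e) (X e - c) := by
  rw [L.inn_eq hs, L.inn_eq hs]
  simp only [map_sub, map_smul, LinearMap.sub_apply, LinearMap.smul_apply, smul_eq_mul,
    L.Δ_X, L.E_X, L.S_X, hX, map_add]
  ring

/-- **the master formula** (helper733): with `r = f + X F`, `s = X G`. -/
theorem master (hs : ∀ f g, ip f g = ip g f)
    (hX : ∀ f g, ip (X f) g = - ip f (X g)) (f F G : W) :
    L.qf f F G = ip (L.Δ f) f - q * ip f f - L.nsq (f + X F) (X G)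
      + q * ip (f + X F) (f + X F) - κ * q * ip (X G) (X G) - 2 * ip (f + X F) (L.C G) := by
  have e1 : L.qf f F G = L.inn F G (X f + X (f + X F) - (2 * κ) • X G)
      (-(2 : ℝ) • f + X (X G) - (2 : ℝ) • (f + X F)) := by
    have h1 := L.inn_skew hs hX F G (X F - κ • G) (X G - F)
    rw [L.inn_self] at h1
    unfold qf
    rw [h1, ← L.inn_self F G, L.inn_symm hs (X f), L.inn_eq hs, L.inn_eq hs, L.inn_eq hs,
      L.inn_eq hs]
    simp only [map_sub, map_smul, map_add, smul_eq_mul]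
    ring
  set r := f + X F with hr
  set s := X G with hsd
  have hXF : X F = r - f := by rw [hr]; abel
  have e2 : L.Δ (X f + X r - (2 * κ) • s) - L.E (-(2 : ℝ) • f + X s - (2 : ℝ) • r) =
      X (L.Δ f - q • f + L.Δ r - q • r - L.E s) + L.C s := by
    simp only [map_sub, map_smul, map_add, L.Δ_X, L.E_X, C_apply]
    module
  have e3 : L.S (-(2 : ℝ) • f + X s - (2 : ℝ) • r) - L.E (X f + X r - (2 * κ) • s) -
      q • X (X f + X r - (2 * κ) • s) =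
      X ((κ * q) • s + L.S s - L.E f - q • X f - L.E r - q • X r) - L.C (f + r) := by
    simp only [map_sub, map_smul, map_add, L.S_X, L.E_X, C_apply]
    module
  have e4 : ip F (L.C s) = - ip (r - f) (L.C G) := by
    rw [hsd, ← L.X_C, ← hXF, hX]; ring
  have e5 : ∀ u, ip F (X u) = - ip (r - f) u := by
    intro u; rw [← hXF, hX]; ring
  have e6 : ∀ u, ip G (X u) = - ip s u := by
    intro u; rw [hsd, hX]; ring
  rw [e1, L.inn_eq hs, e2, e3, map_add, map_sub (ip G), e4, e5, e6, nsq]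
  have e7 : ip G (L.C (f + r)) = ip (f + r) (L.C G) := by rw [← L.C_symm, hs]
  have e8 : ∀ g, ip s (L.E g) + q * ip s (X g) = ip g (L.E s) := by
    intro g
    rw [hs g, L.E_adj, map_add, map_smul, smul_eq_mul]
  have e9 := e8 f
  have e10 := e8 r
  have e11 : ip r (L.Δ f) = ip f (L.Δ r) := by rw [← L.Δ_symm, hs]
  have e12 : ip (L.Δ f) f = ip f (L.Δ f) := hs _ _
  have e13 : ip (L.Δ r) r = ip r (L.Δ r) := hs _ _
  have e14 : ip (L.S s) s = ip s (L.S s) := hs _ _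
  have e15 : ip r f = ip f r := hs _ _
  rw [e7, e12, e13, e14]
  simp only [map_sub, map_smul, map_add, LinearMap.sub_apply, LinearMap.add_apply, smul_eq_mul]
  rw [e11, e15]
  linear_combination e9 + e10

end Lad1

namespace Lad

variable {W : Type*} [AddCommGroup W] [Module ℝ W] (L : Lad W)

/-- the total Laplacian of the fibre -/
def D : W →ₗ[ℝ] W := L.L1.Δ + L.L2.Δ

theorem D_apply (f : W) : L.D f = L.L1.Δ f + L.L2.Δ f := rfl

/-- `Λ = - Casimir` -/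
def Lam : W →ₗ[ℝ] W := - L.X.comp L.X + L.L1.C + L.L2.C

/-- `Λ_L = - leaf Casimir` -/
def LamL : W →ₗ[ℝ] W := - L.X.comp L.X + L.L2.C

theorem Lam_apply (f : W) : L.Lam f = - L.X (L.X f) + L.L1.C f + L.L2.C f := rfl

theorem LamL_apply (f : W) : L.LamL f = - L.X (L.X f) + L.L2.C f := rfl

theorem X_Lam (f : W) : L.X (L.Lam f) = L.Lam (L.X f) := by
  rw [Lam_apply, Lam_apply, map_add, map_add, map_neg, L.L1.X_C, L.L2.X_C]

theorem X_LamL (f : W) : L.X (L.LamL f) = L.LamL (L.X f) := by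
  rw [LamL_apply, LamL_apply, map_add, map_neg, L.L2.X_C]

theorem C2_eq (f : W) : L.L2.C f = (1 / 2 : ℝ) • (L.X (L.X (L.L2.Δ f)) -
    (2 : ℝ) • L.X (L.L2.Δ (L.X f)) + L.L2.Δ (L.X (L.X f))) - (8 : ℝ) • L.L2.Δ f := by
  rw [Lad1.C_apply]
  have h1 := L.L2.X_Δ f
  have h2 := L.L2.X_Δ (L.X f)
  have h3 := L.L2.X_E f
  have h4 : L.L2.Δ (L.X (L.X f)) = L.X (L.L2.Δ (L.X f)) - (2 : ℝ) • L.L2.E (L.X f) -
    L.d • L.X (L.X f) := by rw [h2]; module
  have h5 : L.X (L.X (L.L2.Δ f)) = L.X (L.L2.Δ (L.X f)) + (2 : ℝ) • L.X (L.L2.E f) +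
    L.d • L.X (L.X f) := by rw [h1, map_add, map_add, map_smul, map_smul]
  rw [h4, h5, h3]
  module

theorem C1_eq (f : W) : L.L1.C f = (1 / 2 : ℝ) • (L.X (L.X (L.L1.Δ f)) -
    (2 : ℝ) • L.X (L.L1.Δ (L.X f)) + L.L1.Δ (L.X (L.X f))) - (2 : ℝ) • L.L1.Δ f := by
  rw [Lad1.C_apply]
  have h1 := L.L1.X_Δ f
  have h2 := L.L1.X_Δ (L.X f)
  have h3 := L.L1.X_E f
  have h4 : L.L1.Δ (L.X (L.X f)) = L.X (L.L1.Δ (L.X f)) - (2 : ℝ) • L.L1.E (L.X f) -
    L.e • L.X (L.X f) := by rw [h2]; module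
  have h5 : L.X (L.X (L.L1.Δ f)) = L.X (L.L1.Δ (L.X f)) + (2 : ℝ) • L.X (L.L1.E f) +
    L.e • L.X (L.X f) := by rw [h1, map_add, map_add, map_smul, map_smul]
  rw [h4, h5, h3]
  module

/-- `[Δ_2, Λ_L] = 0` -/
theorem D2_LamL (f : W) : L.L2.Δ (L.LamL f) = L.LamL (L.L2.Δ f) := by
  have h1 := L.deg2 (L.X f)
  have h2 := congrArg L.X (L.deg2 f)
  simp only [map_add, map_sub, map_smul] at h2
  rw [LamL_apply, LamL_apply, C2_eq, C2_eq]
  simp only [map_add, map_sub, map_smul, map_neg]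
  linear_combination (norm := module) (1 / 2 : ℝ) • h1 - (1 / 2 : ℝ) • h2

theorem D2_C1 (f : W) : L.L2.Δ (L.L1.C f) = L.L1.C (L.L2.Δ f) := by
  rw [Lad1.C_apply, Lad1.C_apply, map_sub, map_smul, L.comm21, ← L.comm]

/-- `[Δ_2, Λ] = 0` -/
theorem D2_Lam (f : W) : L.L2.Δ (L.Lam f) = L.Lam (L.L2.Δ f) := by
  have h1 := L.D2_LamL f
  have h2 := L.D2_C1 f
  rw [LamL_apply, LamL_apply] at h1
  rw [Lam_apply, Lam_apply]
  have e : L.L2.Δ (-L.X (L.X f) + L.L1.C f + L.L2.C f) =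
      L.L2.Δ (-L.X (L.X f) + L.L2.C f) + L.L2.Δ (L.L1.C f) := by
    simp only [map_add]; abel
  rw [e, h1, h2]; abel

/-- `[Δ, Λ] = 0` -/
theorem D_Lam (f : W) : L.D (L.Lam f) = L.Lam (L.D f) := by
  have h1 := L.deg (L.X f)
  have h2 := congrArg L.X (L.deg f)
  have hc := L.comm f
  simp only [map_add, map_sub, map_smul, LinearMap.add_apply] at h1 h2
  rw [D_apply, D_apply, Lam_apply, Lam_apply, C2_eq, C2_eq, C1_eq, C1_eq]
  simp only [map_add, map_sub, map_smul, map_neg]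
  linear_combination (norm := module) (1 / 2 : ℝ) • h1 - (1 / 2 : ℝ) • h2 - (6 : ℝ) • hc

theorem D1_Lam (f : W) : L.L1.Δ (L.Lam f) = L.Lam (L.L1.Δ f) := by
  have h1 := L.D_Lam f
  have h2 := L.D2_Lam f
  rw [D_apply, D_apply, map_add, h2] at h1
  exact add_right_cancel h1

end Lad

end Vale.Agent.P207.H662
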