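import Vale.Agent.P207.H662.QF2

/-!
# P207, block QF: the exact formula of `Q_y(k)` for `y = V_1 F_1 + H_1 G_1 + V_2 F_2 + H_2 G_2`
-/

open Finset

set_option linter.unusedSectionVars false

noncomputable section

namespace Vale.Agent.P207.H662

open Vale.Agent.P207.H442 Vale.Agent.P207

variable {m : ℕ} {A : Type*} [CommRing A] [Algebra ℝ A] {C : FrCalc (m + 1) A}
  {k : Fin (m + 1) → Fin (m + 1) → A} {I : A →ₗ[ℝ] ℝ} {d : ℝ}

namespace Sys

variable (S : Sys m A)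

theorem split_PQ (w : Fin m → A) (i : Fin m) :
    ∑ j, S.Qc i j * w j + ∑ j, S.P i j * w j = w i := by
  rw [← sum_add_distrib]
  have : ∀ j, S.Qc i j * w j + S.P i j * w j = w j * kr i j 1 := by
    intro j; rw [Qc_apply]; ring
  rw [sum_congr rfl fun j _ => this j, sum_mul_kr_left i (fun j => w j) (fun _ => (1 : A)),
    mul_one]

theorem cross (a b c e : A) : ∑ i, S.fld S.P a b i * S.fld S.Qc c e i = 0 := by
  unfold fld
  simp only [sum_mul_sum]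
  rw [sum_comm]
  refine sum_eq_zero fun j _ => ?_
  rw [sum_comm]
  refine sum_eq_zero fun l _ => ?_
  have h1 : ∀ i, S.P i j * (S.v j a + S.h j b) * (S.Qc i l * (S.v l c + S.h l e)) =
      (S.P j i * S.Qc i l) * ((S.v j a + S.h j b) * (S.v l c + S.h l e)) := by
    intro i; rw [S.Psymm j i]; ring
  rw [sum_congr rfl fun i _ => h1 i, ← sum_mul, S.P_Qc, zero_mul]

theorem P_fldP (a b : A) (i : Fin m) : ∑ j, S.P i j * S.fld S.P a b j = S.fld S.P a b i := by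
  unfold fld
  simp only [mul_sum]
  rw [sum_comm]
  refine sum_congr rfl fun l _ => ?_
  rw [← S.Pidem i l, sum_mul]
  exact sum_congr rfl fun j _ => by ring

theorem P_fldQ (a b : A) (i : Fin m) : ∑ j, S.P i j * S.fld S.Qc a b j = 0 := by
  unfold fld
  simp only [mul_sum]
  rw [sum_comm]
  refine sum_eq_zero fun l _ => ?_
  have h1 : ∀ j, S.P i j * (S.Qc j l * (S.v l a + S.h l b)) =
      (S.P i j * S.Qc j l) * (S.v l a + S.h l b) := fun j => by ring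
  rw [sum_congr rfl fun j _ => h1 j, ← sum_mul, S.P_Qc, zero_mul]

/-- product of two sums of fields -/
theorem sum_fld_mul (a b c e a' b' c' e' : A) :
    ∑ i, (S.fld S.Qc a b i + S.fld S.P c e i) * (S.fld S.Qc a' b' i + S.fld S.P c' e' i) =
      ∑ i, S.fld S.Qc a b i * S.fld S.Qc a' b' i + ∑ i, S.fld S.P c e i * S.fld S.P c' e' i := by
  have h1 := S.cross c e a' b'
  have h2 := S.cross c' e' a b
  have h3 : ∀ i, (S.fld S.Qc a b i + S.fld S.P c e i) *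
      (S.fld S.Qc a' b' i + S.fld S.P c' e' i) =
      S.fld S.Qc a b i * S.fld S.Qc a' b' i + S.fld S.P c e i * S.fld S.P c' e' i +
      S.fld S.P c e i * S.fld S.Qc a' b' i + S.fld S.P c' e' i * S.fld S.Qc a b i := by
    intro i; ring
  rw [sum_congr rfl fun i _ => h3 i, sum_add_distrib, sum_add_distrib, sum_add_distrib, h1, h2]
  ring

end Sys

/-- the test field `y = V_1 F_1 + H_1 G_1 + V_2 F_2 + H_2 G_2`, `y_0 = 0` -/
def Rk1.yF (h : Rk1 C d) (F1 G1 F2 G2 : A) : Fin (m + 1) → A :=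
  Fin.cons 0 (fun i => h.sys.fld h.sys.Qc F1 G1 i + h.sys.fld h.sys.P F2 G2 i)

@[simp] theorem Rk1.yF_zero (h : Rk1 C d) (F1 G1 F2 G2 : A) : h.yF F1 G1 F2 G2 0 = 0 := rfl

@[simp] theorem Rk1.yF_succ (h : Rk1 C d) (F1 G1 F2 G2 : A) (i : Fin m) :
    h.yF F1 G1 F2 G2 i.succ = h.sys.fld h.sys.Qc F1 G1 i + h.sys.fld h.sys.P F2 G2 i := rfl

/-- `Z = V X f - 2 H f` -/
theorem Rk1.Zf_succ (h : Rk1 C d) (hk : C.T2 k) (hs : ∀ i j, k i j = k j i) (i : Fin m) :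
    Kat.Zf C k i.succ =
      h.sys.fld h.sys.Qc (C.H 0 (fk k)) (-(2 : ℝ) • fk k) i +
      h.sys.fld h.sys.P (C.H 0 (fk k)) (-(2 : ℝ) • fk k) i := by
  have e1 : h.sys.fld h.sys.Qc (C.H 0 (fk k)) (-(2 : ℝ) • fk k) i +
      h.sys.fld h.sys.P (C.H 0 (fk k)) (-(2 : ℝ) • fk k) i =
      C.V i.succ 0 (C.H 0 (fk k)) + C.H i.succ (-(2 : ℝ) • fk k) :=
    h.sys.split_PQ (fun j => h.sys.v j (C.H 0 (fk k)) + h.sys.h j (-(2 : ℝ) • fk k)) i
  have e2 : C.V i.succ 0 (C.H 0 (fk k)) = C.H 0 (k 0 i.succ) + C.H i.succ (fk k) := by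
    rw [FrCalc.VH, ac_zero_zero, v_fk hk hs]
  rw [e1, e2, Kat.Zf, k00_eq k, Derivation.map_smul, Derivation.map_smul]
  module

variable (h : Rk1 C d) (hI : C.IsInt I) (hp : ∀ f, 0 ≤ I (f * f))

/-- the ladder algebra of the frame calculus -/
def Rk1.lad : Lad h.sys.B := h.sys.lad (h.isInt hI hp)

/-- `f = k(v,v)/2` as a function on the unit tangent bundle -/
def Rk1.fB (hk : C.T2 k) : h.sys.B := ⟨fk k, fun i j => r_fk hk i j⟩

/-- **the exact formula of `Q_y(k)`** -/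
theorem Rk1.Qf_eq (hk : C.T2 k) (hs : ∀ i j, k i j = k j i) (F1 G1 F2 G2 : h.sys.B) :
    Kat.Qf C I k (h.yF F1 G1 F2 G2) = (m + 1 : ℝ) *
      ((h.lad hI hp).L1.qf (h.fB hk) F1 G1 + (h.lad hI hp).L2.qf (h.fB hk) F2 G2 -
        (m + 2 : ℝ) * (h.lad hI hp).ip (h.fB hk) (h.fB hk)) + (1 / 2) * I (trk k * trk k) := by
  have hIS : h.sys.IsInt I := h.isInt hI hp
  -- inner products of fields
  have innQ : ∀ a b c e : h.sys.B, I (∑ i, h.sys.fld h.sys.Qc a b i * h.sys.fld h.sys.Qc c e i) =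
      (h.lad hI hp).L1.inn a b c e := fun a b c e => h.sys.isProj_Q.int_fld_fld hIS _ _ _ _
  have innP : ∀ a b c e : h.sys.B, I (∑ i, h.sys.fld h.sys.P a b i * h.sys.fld h.sys.P c e i) =
      (h.lad hI hp).L2.inn a b c e := fun a b c e => h.sys.isProj_P.int_fld_fld hIS _ _ _ _
  -- the term with `Z`
  have eZ : I (∑ i, Kat.Zf C k i * h.yF F1 G1 F2 G2 i) =
      (h.lad hI hp).L1.inn ((h.lad hI hp).X (h.fB hk)) (-(2 : ℝ) • h.fB hk) F1 G1 +
      (h.lad hI hp).L2.inn ((h.lad hI hp).X (h.fB hk)) (-(2 : ℝ) • h.fB hk) F2 G2 := by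
    rw [Fin.sum_univ_succ, h.yF_zero, mul_zero, zero_add]
    simp only [h.Zf_succ hk hs, h.yF_succ]
    rw [h.sys.sum_fld_mul, map_add, ← innQ, ← innP]
    rfl
  -- the derivative
  have hXQ : ∀ i, h.sys.X (h.sys.fld h.sys.Qc (F1 : A) (G1 : A) i) =
      h.sys.fld h.sys.Qc (h.sys.X F1 - (1 : ℝ) • (G1 : A)) (h.sys.X G1 - F1) i :=
    fun i => h.sys.isProj_Q.X_fld G1.2 i
  have hXP : ∀ i, h.sys.X (h.sys.fld h.sys.P (F2 : A) (G2 : A) i) =
      h.sys.fld h.sys.P (h.sys.X F2 - (4 : ℝ) • (G2 : A)) (h.sys.X G2 - F2) i :=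
    fun i => h.sys.isProj_P.X_fld G2.2 i
  have eX : I (∑ i, C.H 0 (h.yF F1 G1 F2 G2 i) * C.H 0 (h.yF F1 G1 F2 G2 i)) =
      (h.lad hI hp).L1.nsq ((h.lad hI hp).X F1 - (1 : ℝ) • G1) ((h.lad hI hp).X G1 - F1) +
      (h.lad hI hp).L2.nsq ((h.lad hI hp).X F2 - (4 : ℝ) • G2) ((h.lad hI hp).X G2 - F2) := by
    rw [Fin.sum_univ_succ, h.yF_zero, map_zero, mul_zero, zero_add]
    have h1 : ∀ i : Fin m, C.H 0 (h.yF F1 G1 F2 G2 i.succ) =
        h.sys.fld h.sys.Qc (h.sys.X F1 - (1 : ℝ) • (G1 : A)) (h.sys.X G1 - F1) i +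
        h.sys.fld h.sys.P (h.sys.X F2 - (4 : ℝ) • (G2 : A)) (h.sys.X G2 - F2) i := by
      intro i
      rw [h.yF_succ, map_add]
      exact congrArg₂ _ (hXQ i) (hXP i)
    simp only [h1]
    rw [h.sys.sum_fld_mul, map_add, ← Lad1.inn_self, ← Lad1.inn_self, ← innQ, ← innP]
    rfl
  -- the Jacobi operator
  have eK : I (∑ i, ∑ j, Kat.Kf C i j * h.yF F1 G1 F2 G2 i * h.yF F1 G1 F2 G2 j) =
      (h.lad hI hp).L1.nsq F1 G1 + 4 * (h.lad hI hp).L2.nsq F2 G2 := by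
    have h1 : ∑ i, ∑ j, Kat.Kf C i j * h.yF F1 G1 F2 G2 i * h.yF F1 G1 F2 G2 j =
        ∑ i : Fin m, ∑ j : Fin m, Kc C i j * h.yF F1 G1 F2 G2 i.succ *
          h.yF F1 G1 F2 G2 j.succ := by
      rw [Fin.sum_univ_succ]
      simp only [h.yF_zero, mul_zero, zero_mul, sum_const_zero, zero_add]
      refine sum_congr rfl fun i _ => ?_
      rw [Fin.sum_univ_succ, h.yF_zero, mul_zero, zero_add]
      refine sum_congr rfl fun j _ => ?_
      have : Kat.Kf C i.succ j.succ = Kc C i j := by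
        unfold Kat.Kf Kc; rw [C.R_anti]; ring
      rw [this]
    have h2 : ∀ i : Fin m, ∑ j : Fin m, Kc C i j * h.yF F1 G1 F2 G2 i.succ *
          h.yF F1 G1 F2 G2 j.succ =
        h.yF F1 G1 F2 G2 i.succ * h.yF F1 G1 F2 G2 i.succ +
        3 * (h.yF F1 G1 F2 G2 i.succ * h.sys.fld h.sys.P (F2 : A) (G2 : A) i) := by
      intro i
      have h3 : ∑ j : Fin m, Kc C i j * h.yF F1 G1 F2 G2 j.succ =
          h.yF F1 G1 F2 G2 i.succ + 3 * h.sys.fld h.sys.P (F2 : A) (G2 : A) i := by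
        have h4 : ∀ j : Fin m, Kc C i j * h.yF F1 G1 F2 G2 j.succ =
            kr i j (h.yF F1 G1 F2 G2 j.succ) + 3 * (h.sys.P i j * h.sys.fld h.sys.Qc (F1 : A) (G1 : A) j)
            + 3 * (h.sys.P i j * h.sys.fld h.sys.P (F2 : A) (G2 : A) j) := by
          intro j
          rw [K_eq, add_mul, kr_mul, one_mul]
          have : Pc C i j = h.sys.P i j := rfl
          rw [this, h.yF_succ]
          change _ + 3 * h.sys.P i j * (h.sys.fld h.sys.Qc (F1 : A) (G1 : A) j +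
            h.sys.fld h.sys.P (F2 : A) (G2 : A) j) = _
          ring
        rw [sum_congr rfl fun j _ => h4 j, sum_add_distrib, sum_add_distrib, sum_kr_left,
          ← mul_sum, ← mul_sum, h.sys.P_fldQ, h.sys.P_fldP]
        ring
      have h5 : ∀ j : Fin m, Kc C i j * h.yF F1 G1 F2 G2 i.succ * h.yF F1 G1 F2 G2 j.succ =
          h.yF F1 G1 F2 G2 i.succ * (Kc C i j * h.yF F1 G1 F2 G2 j.succ) := fun j => by ring
      rw [sum_congr rfl fun j _ => h5 j, ← mul_sum, h3]; ring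
    have h6 : ∑ i : Fin m, h.yF F1 G1 F2 G2 i.succ * h.sys.fld h.sys.P (F2 : A) (G2 : A) i =
        ∑ i, h.sys.fld h.sys.P (F2 : A) (G2 : A) i * h.sys.fld h.sys.P (F2 : A) (G2 : A) i := by
      have h7 := h.sys.cross (F2 : A) (G2 : A) (F1 : A) (G1 : A)
      have h8 : ∀ i : Fin m, h.yF F1 G1 F2 G2 i.succ * h.sys.fld h.sys.P (F2 : A) (G2 : A) i =
          h.sys.fld h.sys.P (F2 : A) (G2 : A) i * h.sys.fld h.sys.Qc (F1 : A) (G1 : A) i +
          h.sys.fld h.sys.P (F2 : A) (G2 : A) i * h.sys.fld h.sys.P (F2 : A) (G2 : A) i := by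
        intro i
        change (h.sys.fld h.sys.Qc (F1 : A) (G1 : A) i + h.sys.fld h.sys.P (F2 : A) (G2 : A) i) * _ = _
        ring
      rw [sum_congr rfl fun i _ => h8 i, sum_add_distrib, h7, zero_add]
    have h9 : ∑ i : Fin m, h.yF F1 G1 F2 G2 i.succ * h.yF F1 G1 F2 G2 i.succ =
        ∑ i, h.sys.fld h.sys.Qc (F1 : A) (G1 : A) i * h.sys.fld h.sys.Qc (F1 : A) (G1 : A) i +
        ∑ i, h.sys.fld h.sys.P (F2 : A) (G2 : A) i * h.sys.fld h.sys.P (F2 : A) (G2 : A) i :=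
      h.sys.sum_fld_mul _ _ _ _ _ _ _ _
    have h10 : ∀ x : A, I (3 * x) = 3 * I x := by
      intro x
      rw [show (3 : A) = algebraMap ℝ A 3 from (map_ofNat (algebraMap ℝ A) 3).symm,
        ← Algebra.smul_def, map_smul, smul_eq_mul]
    rw [h1, sum_congr rfl fun i _ => h2 i, sum_add_distrib, ← mul_sum, h6, h9, map_add, map_add,
      h10, innQ, innP, Lad1.inn_self, Lad1.inn_self]
    ring
  have e00 : I (k 0 0 * k 0 0) = 4 * I (fk k * fk k) := by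
    rw [k00_eq k, smul_mul_smul_comm, map_smul, smul_eq_mul]; norm_num
  have eip : (h.lad hI hp).ip (h.fB hk) (h.fB hk) = I (fk k * fk k) := rfl
  rw [Kat.Qf, Kat.Qint, map_add, map_sub, map_sub, map_smul, map_smul, eZ, eX, eK, e00]
  have e1 : I ((∑ i, k i i) * ∑ i, k i i) = I (trk k * trk k) := rfl
  rw [e1, int_ksq hI hk hs, eip, Lad1.qf, Lad1.qf]
  simp only [smul_eq_mul]
  push_cast
  ring

end Vale.Agent.P207.H662
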