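import Vale.Agent.P207.H662.Scale
import Vale.Agent.P207.H469.KPr

/-!
# P207, block QF: scaling of the leaf sum and of the K-types
-/

open Finset

set_option linter.unusedSectionVars false

noncomputable section

namespace Vale.Agent.P207.H662

open Vale.Agent.P207.H442 Vale.Agent.P207.H469 Vale.Agent.P207

/-! ### scaling of the leaf sum -/

section Sc

variable {n : ℕ} {A : Type*} [CommRing A] [Algebra ℝ A] (C : FrCalc n A) {b c₀ : ℝ}

theorem sc_Ro (c : ℝ) (k : F2 n A) : Ro (sc C c) k = (c * c) • Ro C k := by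
  funext p q
  rw [Pi.smul_apply, Pi.smul_apply, Ro_apply, Ro_apply, smul_sum]
  refine sum_congr rfl fun a _ => ?_
  rw [smul_sum]
  exact sum_congr rfl fun e _ => by rw [sc_R, smul_mul_assoc]

theorem sc_Tm (hb : 0 < b) (k : F2 n A) : Tm (sc C (2 / b)) 2 k = Tm C b k := by
  have hb' : b ≠ 0 := hb.ne'
  rw [Tm_apply, Tm_apply, sc_Ro]
  simp only [smul_add, smul_sub, smul_smul]
  congr 1
  · congr 1
    · congr 1
      field_simp
    · congr 1
      field_simp
  · congr 1
    field_simp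

theorem NN_sc (hb : 0 < b) : NN n 2 (2 / b * (2 / b) * c₀) = NN n b c₀ := by
  have hb' : b ≠ 0 := hb.ne'
  unfold NN
  field_simp

theorem sc_k20 (hb : 0 < b) (k : F2 n A) :
    k20 (sc C (2 / b)) 2 (2 / b * (2 / b) * c₀) k = k20 C b c₀ k := by
  rw [k20_apply, k20_apply, sc_Tm C hb, NN_sc hb]

theorem sc_k22 (hb : 0 < b) (k : F2 n A) :
    k22 (sc C (2 / b)) 2 (2 / b * (2 / b) * c₀) k = k22 C b c₀ k := by
  rw [k22_apply, k22_apply, sc_Tm C hb, NN_sc hb]

variable {C}

theorem sc_RankOne (h : RankOne C b c₀) :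
    RankOne (sc C (2 / b)) 2 (2 / b * (2 / b) * c₀) where
  pos := by norm_num
  npos := by rw [NN_sc h.pos]; exact h.npos
  ein i j := by
    rw [sc_Ric, h.ein]
    split_ifs
    · rw [smul_neg, smul_smul]
    · rw [smul_zero]
  tt k hk := by rw [sc_Tm C h.pos, sc_Tm C h.pos, NN_sc h.pos, h.tt k hk]

end Sc

end Vale.Agent.P207.H662
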