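import Vale.Agent.P207.H662.Inst
import Vale.Agent.P207.H442.Int

/-!
# P207, block QF: the structure `Sys` from the frame calculus of a rank one space
-/

open Finset

set_option linter.unusedSectionVars false

noncomputable section

namespace Vale.Agent.P207.H662

open Vale.Agent.P207.H442

variable {m : ℕ} {A : Type*} [CommRing A] [Algebra ℝ A] (C : FrCalc (m + 1) A)

/-- the Jacobi operator of `e_0` on the other indices (positive) -/
def Kc (i j : Fin m) : A := C.R 0 i.succ 0 j.succ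

/-- the projection onto the eigenvalue `4`: `K = 1 + 3 P` -/
def Pc (i j : Fin m) : A := (1 / 3 : ℝ) • (Kc C i j - kr i j 1)

/-- the components `R_{0ijk}` -/
def Tc (i j k : Fin m) : A := C.R 0 i.succ j.succ k.succ

/-- The frame calculus of a locally symmetric space whose Jacobi operators have the eigenvalues
`4` (multiplicity `d`) and `1` (multiplicity `m - d`). -/
structure Rk1 (d : ℝ) : Prop where
  par : C.Par
  ein : ∀ i j, C.Ric i j = - kr i j (algebraMap ℝ A (m + 3 * d))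
  idem : ∀ i k, ∑ j, Pc C i j * Pc C j k = Pc C i k
  leaf : ∀ l i j, ∑ k, Pc C l k * (Tc C i k j + Tc C j k i) = 0

section

variable {C}

theorem succ_ne (i : Fin m) : i.succ ≠ 0 := Fin.succ_ne_zero i

theorem ac_succ_succ (a b i : Fin m) (T : Fin (m + 1) → A) :
    ac a.succ b.succ T i.succ = kr b i (T a.succ) - kr a i (T b.succ) := by
  unfold ac kr
  simp only [Fin.succ_inj]

theorem ac_succ_succ_zero (a b : Fin m) (T : Fin (m + 1) → A) :
    ac a.succ b.succ T 0 = 0 := by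
  unfold ac
  simp

theorem ac_zero_succ (a i : Fin m) (T : Fin (m + 1) → A) :
    ac a.succ 0 T i.succ = - kr a i (T 0) := by
  unfold ac kr
  simp only [Fin.succ_inj, if_neg (succ_ne i).symm, zero_sub]

theorem ac_zero_zero (a : Fin m) (T : Fin (m + 1) → A) :
    ac a.succ 0 T 0 = T a.succ := by
  unfold ac
  simp

theorem R_self' (i j k : Fin (m + 1)) : C.R i j k k = 0 := by
  rw [C.R_pair]; exact FrCalc.R_self k i j

theorem Kc_symm (i j : Fin m) : Kc C i j = Kc C j i := C.R_pair _ _ _ _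

theorem K_eq (i j : Fin m) : Kc C i j = kr i j 1 + 3 * Pc C i j := by
  have h : (3 : A) * Pc C i j = Kc C i j - kr i j 1 := by
    unfold Pc
    rw [show (3 : A) = algebraMap ℝ A 3 from (map_ofNat (algebraMap ℝ A) 3).symm,
      ← Algebra.smul_def, smul_smul]
    norm_num
  rw [h]; ring

theorem Pc_symm (i j : Fin m) : Pc C i j = Pc C j i := by
  unfold Pc; rw [Kc_symm, kr_comm]

theorem Tc_anti (i j k : Fin m) : Tc C i j k = - Tc C i k j := C.R_skew _ _ _ _

theorem v_K (k i j : Fin m) : C.V k.succ 0 (Kc C i j) = Tc C i k j + Tc C j k i := by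
  unfold Kc Tc
  rw [C.VR, ac_zero_zero, ac_zero_succ, ac_zero_zero, ac_zero_succ, FrCalc.R_self, R_self',
    kr_zero, kr_zero, C.R_pair k.succ i.succ 0 j.succ]
  ring

theorem v_T (l i j k : Fin m) : C.V l.succ 0 (Tc C i j k) =
    C.R l.succ i.succ j.succ k.succ - kr l j (Kc C i k) + kr l k (Kc C i j) := by
  unfold Kc Tc
  rw [C.VR, ac_zero_zero, ac_zero_succ, ac_zero_succ, ac_zero_succ, FrCalc.R_self, kr_zero,
    C.R_skew 0 i.succ j.succ 0, kr_neg]
  ring

theorem v_P (k i j : Fin m) : C.V k.succ 0 (Pc C i j) =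
    (1 / 3 : ℝ) • (Tc C i k j + Tc C j k i) := by
  unfold Pc
  rw [Derivation.map_smul, map_sub, v_K, Sys.map_kr_one, sub_zero]

variable {d : ℝ} (h : Rk1 C d)
include h

theorem Rk1.sum_K : ∑ i, Kc C i i = algebraMap ℝ A (m + 3 * d) := by
  have h1 := h.ein 0 0
  have e0 : C.Ric 0 0 = C.R 0 0 0 0 + ∑ i : Fin m, C.R 0 i.succ i.succ 0 := by
    rw [FrCalc.Ric, Fin.sum_univ_succ]
  rw [e0, FrCalc.R_self, zero_add] at h1
  have h2 : ∀ i : Fin m, Kc C i i = - C.R 0 i.succ i.succ 0 := fun i => C.R_skew _ _ _ _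
  rw [sum_congr rfl fun i _ => h2 i, sum_neg_distrib, h1]
  simp [kr]

theorem Rk1.sum_P : ∑ i, Pc C i i = algebraMap ℝ A d := by
  unfold Pc
  rw [← smul_sum, sum_sub_distrib, h.sum_K]
  have : ∑ i : Fin m, kr i i (1 : A) = algebraMap ℝ A m := by simp [kr]
  rw [this, ← map_sub, Algebra.smul_def, ← map_mul]
  congr 1
  ring

theorem Rk1.sum_PP : ∑ i, ∑ j, Pc C i j * Pc C i j = algebraMap ℝ A d := by
  rw [← h.sum_P]
  refine sum_congr rfl fun i _ => ?_
  rw [← h.idem i i]
  exact sum_congr rfl fun j _ => by rw [Pc_symm (C := C) j i]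

theorem Rk1.Tric (k : Fin m) : ∑ i, Tc C i i k = 0 := by
  have h1 := h.ein 0 k.succ
  have e0 : C.Ric 0 k.succ = C.R 0 0 0 k.succ + ∑ i : Fin m, C.R 0 i.succ i.succ k.succ := by
    rw [FrCalc.Ric, Fin.sum_univ_succ]
  rw [e0, FrCalc.R_self, zero_add] at h1
  refine (show ∑ i, Tc C i i k = _ from h1).trans ?_
  unfold kr
  rw [if_neg (succ_ne k).symm, neg_zero]

theorem Rk1.TP (k : Fin m) : ∑ i, ∑ j, Pc C i j * Tc C i j k = 0 := by
  have h1 : C.V k.succ 0 (∑ i, ∑ j, Pc C i j * Pc C i j) = 0 := by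
    rw [h.sum_PP]; exact Derivation.map_algebraMap _ _
  have h2 : C.V k.succ 0 (∑ i, ∑ j, Pc C i j * Pc C i j) =
      (2 / 3 : ℝ) • (∑ i, ∑ j, Pc C i j * (Tc C i k j + Tc C j k i)) := by
    rw [map_sum, smul_sum]
    refine sum_congr rfl fun i _ => ?_
    rw [map_sum, smul_sum]
    refine sum_congr rfl fun j _ => ?_
    rw [Derivation.leibniz, v_P, smul_eq_mul, mul_smul_comm, ← two_smul ℝ, smul_smul]
    norm_num
  have h3 : ∑ i, ∑ j, Pc C i j * (Tc C i k j + Tc C j k i) =
      - ((2 : ℝ) • ∑ i, ∑ j, Pc C i j * Tc C i j k) := by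
    simp only [mul_add, sum_add_distrib]
    have e1 : ∑ i, ∑ j, Pc C i j * Tc C i k j = - ∑ i, ∑ j, Pc C i j * Tc C i j k := by
      rw [← sum_neg_distrib]
      refine sum_congr rfl fun i _ => ?_
      rw [← sum_neg_distrib]
      exact sum_congr rfl fun j _ => by rw [Tc_anti (C := C) i k j]; ring
    have e2 : ∑ i, ∑ j, Pc C i j * Tc C j k i = - ∑ i, ∑ j, Pc C i j * Tc C i j k := by
      rw [← e1, sum_comm]
      exact sum_congr rfl fun i _ => sum_congr rfl fun j _ => by rw [Pc_symm (C := C) j i]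
    rw [e1, e2, two_smul]; ring
  rw [h1, h3] at h2
  have h4 : ∑ i, ∑ j, Pc C i j * Tc C i j k =
      -(3 / 4 : ℝ) • ((2 / 3 : ℝ) • (-((2 : ℝ) • ∑ i, ∑ j, Pc C i j * Tc C i j k))) := by
    module
  rw [h4, ← h2, smul_zero]

theorem Rk1.sum_v_T (i j : Fin m) : ∑ k : Fin m, C.V k.succ 0 (Tc C i k j) =
    kr i j (algebraMap ℝ A (m + 3 * d)) - (m : ℝ) • Kc C i j := by
  have h1 := h.ein i.succ j.succ
  have e0 : C.Ric i.succ j.succ = C.R i.succ 0 0 j.succ +
      ∑ k : Fin m, C.R i.succ k.succ k.succ j.succ := by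
    rw [FrCalc.Ric, Fin.sum_univ_succ]
  have e1 : C.R i.succ 0 0 j.succ = - Kc C i j := by
    unfold Kc
    rw [C.R_anti]
  have e2 : ∑ k : Fin m, C.R k.succ i.succ k.succ j.succ =
      kr i j (algebraMap ℝ A (m + 3 * d)) - Kc C i j := by
    have e3 : ∀ k : Fin m, C.R k.succ i.succ k.succ j.succ =
        - C.R i.succ k.succ k.succ j.succ := fun k => C.R_anti _ _ _ _
    rw [sum_congr rfl fun k _ => e3 k, sum_neg_distrib]
    have e4 : ∑ k : Fin m, C.R i.succ k.succ k.succ j.succ =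
        - kr i j (algebraMap ℝ A (m + 3 * d)) + Kc C i j := by
      have h2 : kr i.succ j.succ (algebraMap ℝ A (m + 3 * d)) =
          kr i j (algebraMap ℝ A (m + 3 * d)) := by
        unfold kr; simp only [Fin.succ_inj]
      rw [← h2, ← h1, e0, e1]; ring
    rw [e4]; ring
  simp only [v_T, sum_add_distrib, sum_sub_distrib]
  rw [e2]
  have e5 : ∑ k : Fin m, kr k k (Kc C i j) = (m : ℝ) • Kc C i j := by
    simp [kr, ← Nat.cast_smul_eq_nsmul ℝ]
  rw [e5, sum_kr_right]
  ring

theorem Rk1.vvP (i j : Fin m) : ∑ k : Fin m, C.V k.succ 0 (C.V k.succ 0 (Pc C i j)) =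
    - ((2 * m : ℝ) • Pc C i j) + (2 * d) • kr i j 1 := by
  have h1 : ∑ k : Fin m, C.V k.succ 0 (C.V k.succ 0 (Pc C i j)) = (1 / 3 : ℝ) •
      (∑ k : Fin m, C.V k.succ 0 (Tc C i k j) + ∑ k : Fin m, C.V k.succ 0 (Tc C j k i)) := by
    rw [← sum_add_distrib, smul_sum]
    refine sum_congr rfl fun k _ => ?_
    rw [v_P, Derivation.map_smul, map_add]
  have h2 : kr i j (algebraMap ℝ A (m + 3 * d)) = (m + 3 * d) • kr i j (1 : A) := by
    rw [kr_eq, Algebra.smul_def]; ring
  have h3 : Kc C i j = kr i j 1 + (3 : ℝ) • Pc C i j := by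
    rw [K_eq, Algebra.smul_def, map_ofNat]
  rw [h1, h.sum_v_T, h.sum_v_T, kr_comm j i, Kc_symm (C := C) j i, h2, h3]
  module

/-- **the structure `Sys` of the frame calculus** -/
def Rk1.sys : Sys m A where
  X := C.H 0
  v i := C.V i.succ 0
  h i := C.H i.succ
  r i j := C.V i.succ j.succ
  P := Pc C
  T := Tc C
  d := d
  vX := by
    intro i f
    rw [FrCalc.VH, ac_zero_zero]
  vh := by
    intro i j f
    rw [FrCalc.VH, ac_zero_succ]; ring
  vv := by
    intro i j f
    rw [FrCalc.VV, ac_zero_succ, ac_zero_zero, FrCalc.V_self, kr_zero]; ring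
  rX := by
    intro i j f
    rw [FrCalc.VH, ac_succ_succ_zero, add_zero]
  rv := by
    intro i j k f
    rw [FrCalc.VV, ac_succ_succ, ac_succ_succ_zero]; ring
  rh := by
    intro i j k f
    rw [FrCalc.VH, ac_succ_succ]; ring
  Xh := by
    intro i f
    have h1 : ∑ k, ∑ l, C.R 0 i.succ k l * C.V k l f =
        - ((2 : ℝ) • ∑ j, Kc C i j * C.V j.succ 0 f) +
        ∑ j : Fin m, ∑ k : Fin m, Tc C i j k * C.V j.succ k.succ f := by
      rw [Fin.sum_univ_succ, Fin.sum_univ_succ]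
      have e1 : ∀ k : Fin m, ∑ l, C.R 0 i.succ k.succ l * C.V k.succ l f =
          C.R 0 i.succ k.succ 0 * C.V k.succ 0 f +
          ∑ l : Fin m, C.R 0 i.succ k.succ l.succ * C.V k.succ l.succ f :=
        fun k => Fin.sum_univ_succ _
      rw [sum_congr rfl fun k _ => e1 k, sum_add_distrib, FrCalc.V_self, mul_zero, zero_add]
      have e2 : ∀ l : Fin m, C.R 0 i.succ 0 l.succ * C.V 0 l.succ f =
          - (Kc C i l * C.V l.succ 0 f) := by
        intro l; rw [C.V_swap 0 l.succ]; unfold Kc; ring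
      have e3 : ∀ l : Fin m, C.R 0 i.succ l.succ 0 * C.V l.succ 0 f =
          - (Kc C i l * C.V l.succ 0 f) := by
        intro l; rw [C.R_skew 0 i.succ l.succ 0]; unfold Kc; ring
      rw [sum_congr rfl fun l _ => e2 l, sum_congr rfl fun l _ => e3 l, sum_neg_distrib, two_smul]
      unfold Tc
      ring
    have h2 : ∑ j, Kc C i j * C.V j.succ 0 f = C.V i.succ 0 f +
        3 * ∑ j, Pc C i j * C.V j.succ 0 f := by
      have e1 : ∀ j, Kc C i j * C.V j.succ 0 f = kr i j (C.V j.succ 0 f) +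
          3 * (Pc C i j * C.V j.succ 0 f) := by
        intro j; rw [K_eq, add_mul, kr_mul, one_mul]; ring
      rw [sum_congr rfl fun j _ => e1 j, sum_add_distrib, sum_kr_left, mul_sum]
    rw [FrCalc.HH, h1, h2, smul_add, smul_neg, smul_smul]
    norm_num
    ring
  Psymm := Pc_symm
  Pidem := h.idem
  Ptr := h.sum_P
  XP := by
    intro i j
    unfold Pc Kc
    rw [Derivation.map_smul, map_sub, h.par, Sys.map_kr_one, sub_zero, smul_zero]
  hP := by
    intro k i j
    unfold Pc Kc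
    rw [Derivation.map_smul, map_sub, h.par, Sys.map_kr_one, sub_zero, smul_zero]
  rP := by
    intro a b i j
    have h1 : ∀ (p q : Fin m) (x y : A), kr p q (x - y) = kr p q x - kr p q y := by
      intro p q x y; unfold kr; split_ifs <;> simp
    have h1' : ∀ (p q : Fin m) (c : ℝ) (x : A), kr p q (c • x) = c • kr p q x := by
      intro p q c x; unfold kr; split_ifs <;> simp
    have h2 : kr b i (kr a j (1 : A)) - kr a i (kr b j 1) + kr b j (kr i a 1) -
        kr a j (kr i b 1) = 0 := by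
      rw [kr_comm i a, kr_comm i b, kr_eq b i, kr_eq a i (kr b j 1), kr_eq b j (kr a i 1),
        kr_eq a j (kr b i 1)]
      ring
    have h3 : C.V a.succ b.succ (Kc C i j) = kr b i (Kc C a j) - kr a i (Kc C b j)
        + kr b j (Kc C i a) - kr a j (Kc C i b) := by
      unfold Kc
      rw [C.VR, ac_succ_succ_zero, ac_succ_succ, ac_succ_succ_zero, ac_succ_succ]
      ring
    unfold Pc
    rw [Derivation.map_smul, map_sub, Sys.map_kr_one, h3]
    simp only [h1', h1]
    rw [← smul_sub, ← smul_add, ← smul_sub]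
    congr 1
    linear_combination h2
  vP := fun k i j => v_P k i j
  leafP := by
    intro l i j
    have e1 : ∀ k, Pc C l k * C.V k.succ 0 (Pc C i j) =
        (1 / 3 : ℝ) • (Pc C l k * (Tc C i k j + Tc C j k i)) := by
      intro k; rw [v_P, mul_smul_comm]
    rw [sum_congr rfl fun k _ => e1 k, ← smul_sum, h.leaf, smul_zero]
  Tanti := Tc_anti
  Tric := h.Tric
  TP := h.TP
  vvP := h.vvP

/-- the integral -/
theorem Rk1.isInt {I : A →ₗ[ℝ] ℝ} (hI : C.IsInt I) (hp : ∀ f, 0 ≤ I (f * f)) :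
    h.sys.IsInt I where
  X := hI.hor 0
  v i := hI.ver i.succ 0
  h i := hI.hor i.succ
  pos := hp

end

end Vale.Agent.P207.H662
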