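import Mathlib

/-!
# P207, block QF: the spherical calculus (tangential derivatives on a family of spheres)

Abstract form of the operators `X = H_0`, `D_i = ∑ P_ij V_j`, `H_i`, and the rotations.
Main result: `[Δ, [Δ, X]] = 2 (Δ X + X Δ) + d (d - 2) X` on invariant functions.
-/

open Finset

noncomputable section

namespace Vale.Agent.P207.H662

/-- Tangential calculus: `P` is a projection which is constant for all operators involved. -/
structure Leaf (m : ℕ) (A : Type*) [CommRing A] [Algebra ℝ A] where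
  X : A →ₗ[ℝ] A
  D : Fin m → A →ₗ[ℝ] A
  H : Fin m → A →ₗ[ℝ] A
  r : Fin m → Fin m → A →ₗ[ℝ] A
  P : Fin m → Fin m → A
  d : ℝ
  Psymm : ∀ i j, P i j = P j i
  Ptr : ∀ f, ∑ i, P i i * f = d • f
  PD : ∀ i f, ∑ j, P i j * D j f = D i f
  PH : ∀ i f, ∑ j, P i j * H j f = H i f
  DP : ∀ k i j f, D k (P i j * f) = P i j * D k f
  HP : ∀ k i j f, H k (P i j * f) = P i j * H k f
  DX : ∀ i f, D i (X f) = X (D i f) + H i f
  DH : ∀ i j f, D i (H j f) = H j (D i f) - P i j * X f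
  DD : ∀ i j f, D i (D j f) = D j (D i f) + r j i f
  rD : ∀ i j k f, r i j (D k f) = D k (r i j f) + P j k * D i f - P i k * D j f
  rH : ∀ i j k f, r i j (H k f) = H k (r i j f) + P j k * H i f - P i k * H j f

namespace Leaf

variable {m : ℕ} {A : Type*} [CommRing A] [Algebra ℝ A] (L : Leaf m A)

/-- the (positive) Laplacian -/
def Del : A →ₗ[ℝ] A := -∑ i, (L.D i).comp (L.D i)

theorem Del_apply (f : A) : L.Del f = -∑ i, L.D i (L.D i f) := by
  simp [Del]

/-- the mixed operator `∑ D_i H_i` -/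
def E : A →ₗ[ℝ] A := ∑ i, (L.D i).comp (L.H i)

theorem E_apply (f : A) : L.E f = ∑ i, L.D i (L.H i f) := by
  simp [E]

theorem Del_X (f : A) : L.Del (L.X f) = L.X (L.Del f) - (2 : ℝ) • L.E f - L.d • L.X f := by
  rw [Del_apply, Del_apply, E_apply, ← L.Ptr (L.X f), map_neg, map_sum, Finset.smul_sum,
    ← sum_neg_distrib, ← sum_neg_distrib, ← sum_sub_distrib, ← sum_sub_distrib]
  refine sum_congr rfl fun i _ => ?_
  rw [L.DX, map_add, L.DX, L.DH, two_smul]
  ring

theorem D_E (j : Fin m) {f : A} (hf : ∀ i k, L.r i k f = 0) :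
    L.D j (L.E f) = L.E (L.D j f) - L.D j (L.X f) + L.H j f - L.d • L.H j f := by
  have e0 : L.D j (L.E f) = ∑ i, (L.D i (L.H i (L.D j f)) - L.P j i * L.D i (L.X f)
      + (L.P j i * L.H i f - L.P i i * L.H j f)) := by
    rw [E_apply, map_sum]
    refine sum_congr rfl fun i _ => ?_
    rw [L.DD j i, L.DH j i, map_sub, L.DP, L.rH, hf, map_zero]
    ring
  rw [e0, sum_add_distrib, sum_sub_distrib, sum_sub_distrib, L.PD, L.PH, L.Ptr, ← E_apply]
  ring

theorem sum_D_E_D {f : A} (hf : ∀ i k, L.r i k f = 0) :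
    ∑ j, L.D j (L.E (L.D j f)) = - L.E (L.Del f) - ∑ i, L.D i (L.X (L.D i f)) := by
  have hr : ∀ i j, L.r i j (L.D j f) = L.P j j * L.D i f - L.P i j * L.D j f := by
    intro i j; rw [L.rD, hf, map_zero]; ring
  have e1 : ∀ i j, L.D j (L.D i (L.H i (L.D j f))) = L.D i (L.H i (L.D j (L.D j f)))
      - L.P j i * L.D i (L.X (L.D j f))
      + (L.H i (L.r i j (L.D j f)) + (L.P j i * L.H i (L.D j f) - L.P i i * L.H j (L.D j f))) := by
    intro i j
    rw [L.DD j i, L.DH j i, map_sub, L.DP, L.rH]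
    ring
  have e2 : ∑ j, ∑ i, L.H i (L.r i j (L.D j f)) =
      L.d • ∑ i, L.H i (L.D i f) - ∑ i, L.H i (L.D i f) := by
    rw [sum_comm, smul_sum, ← sum_sub_distrib]
    refine sum_congr rfl fun i _ => ?_
    rw [← map_sum]
    have : ∑ j, L.r i j (L.D j f) = L.d • L.D i f - L.D i f := by
      rw [sum_congr rfl fun j _ => hr i j, sum_sub_distrib, L.Ptr, L.PD]
    rw [this, map_sub, map_smul]
  have e3 : ∑ j, ∑ i, (L.P j i * L.H i (L.D j f) - L.P i i * L.H j (L.D j f)) =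
      ∑ i, L.H i (L.D i f) - L.d • ∑ i, L.H i (L.D i f) := by
    rw [smul_sum, ← sum_sub_distrib]
    refine sum_congr rfl fun j _ => ?_
    rw [sum_sub_distrib, L.PH, L.Ptr]
  have e4 : ∑ j, ∑ i, L.P j i * L.D i (L.X (L.D j f)) = ∑ i, L.D i (L.X (L.D i f)) := by
    have h1 : ∀ j, ∑ i, L.P j i * L.D i (L.X (L.D j f)) = L.D j (L.X (L.D j f)) :=
      fun j => L.PD j _
    exact sum_congr rfl fun j _ => h1 j
  have e5 : ∑ j, ∑ i, L.D i (L.H i (L.D j (L.D j f))) = - L.E (L.Del f) := by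
    rw [E_apply, Del_apply, sum_comm, ← sum_neg_distrib]
    refine sum_congr rfl fun i _ => ?_
    rw [map_neg, map_neg, neg_neg, map_sum, map_sum]
  calc ∑ j, L.D j (L.E (L.D j f)) = ∑ j, ∑ i, L.D j (L.D i (L.H i (L.D j f))) := by
        refine sum_congr rfl fun j _ => ?_
        rw [E_apply, map_sum]
    _ = ∑ j, ∑ i, L.D i (L.H i (L.D j (L.D j f))) - ∑ j, ∑ i, L.P j i * L.D i (L.X (L.D j f))
      + (∑ j, ∑ i, L.H i (L.r i j (L.D j f)) +
        ∑ j, ∑ i, (L.P j i * L.H i (L.D j f) - L.P i i * L.H j (L.D j f))) := by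
        simp only [← sum_sub_distrib, ← sum_add_distrib]
        exact sum_congr rfl fun j _ => sum_congr rfl fun i _ => e1 i j
    _ = _ := by rw [e2, e3, e4, e5]; ring

theorem Del_E {f : A} (hf : ∀ i k, L.r i k f = 0) :
    L.Del (L.E f) = L.E (L.Del f) - (2 : ℝ) • L.Del (L.X f) + (L.d - 2) • L.E f := by
  have e1 : ∑ i, L.D i (L.X (L.D i f)) = - L.Del (L.X f) - L.E f := by
    rw [Del_apply, E_apply, neg_neg, ← sum_sub_distrib]
    refine sum_congr rfl fun i _ => ?_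
    rw [L.DX i f, map_add]; ring
  have e2 : ∑ j, L.D j (L.D j (L.E f)) = ∑ j, L.D j (L.E (L.D j f)) - ∑ j, L.D j (L.D j (L.X f))
      + L.E f - L.d • L.E f := by
    rw [E_apply L f, smul_sum, ← sum_sub_distrib, ← sum_add_distrib, ← sum_sub_distrib]
    refine sum_congr rfl fun j _ => ?_
    rw [← E_apply, L.D_E j hf, map_sub, map_add, map_sub, map_smul]
  rw [Del_apply, e2, L.sum_D_E_D hf, e1, Del_apply L (L.X f), sub_smul, two_smul, two_smul]
  ring

/-- **the degree relation** -/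
theorem degree_rel {f : A} (hf : ∀ i k, L.r i k f = 0) :
    L.Del (L.Del (L.X f)) - (2 : ℝ) • L.Del (L.X (L.Del f)) + L.X (L.Del (L.Del f)) =
      (2 : ℝ) • (L.Del (L.X f) + L.X (L.Del f)) + (L.d * (L.d - 2)) • L.X f := by
  have h1 := L.Del_X f
  have h2 := L.Del_X (L.Del f)
  have h3 := L.Del_E hf
  have h4 : L.Del (L.Del (L.X f)) = L.Del (L.X (L.Del f)) - (2 : ℝ) • L.Del (L.E f) -
      L.d • L.Del (L.X f) := by
    rw [h1, map_sub, map_sub, map_smul, map_smul]
    rw [← h1]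
  have h5 : L.E f = (1 / 2 : ℝ) • (L.X (L.Del f) - L.d • L.X f - L.Del (L.X f)) := by
    rw [h1]; module
  rw [h4, h3, h2]
  rw [h5]
  module

end Leaf

end Vale.Agent.P207.H662
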