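import Vale.Agent.P207.H747.Comp

/-!
# P207, block QF: pointwise facts on the curvature tensor in components (eigenvalues `1`, `4`)
-/

open scoped RealInnerProductSpace
open Finset Module

set_option linter.unusedSectionVars false

noncomputable section

namespace Vale.Agent.P207.H662

open Vale.Agent.P207.H747 Vale.Agent.P207.H747.ACT

section Vec

variable {V : Type*} [NormedAddCommGroup V] [InnerProductSpace ℝ V] [FiniteDimensional ℝ V]
  {S : ACT V} {v : V}

/-- the projection on the eigenspace of `4` -/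
def p4 (S : ACT V) (v z : V) : V := (1 / 3 : ℝ) • (S.K v z - z)

theorem K_orth (v z : V) : ⟪S.K v z, v⟫ = 0 := S.K_inner_self v z

theorem decomp' (h : S.Nrm 2) (hv : ‖v‖ = 1) {z : V} (hz : ⟪z, v⟫ = 0) :
    ∃ x y : V, S.K v x = x ∧ S.K v y = (4 : ℝ) • y ∧ z = x + y ∧ p4 S v z = y := by
  have h1 := h.decomp hv z
  rw [hz, zero_smul, zero_add] at h1
  have k1 : S.K v (pr1 S 2 v z) = pr1 S 2 v z := by
    rw [h.K_pr1 hv z]; norm_num
  have k2 : S.K v (pr2 S 2 v z) = (4 : ℝ) • pr2 S 2 v z := by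
    rw [h.K_pr2 hv z]; norm_num
  generalize pr1 S 2 v z = x at h1 k1
  generalize pr2 S 2 v z = y at h1 k2
  refine ⟨x, y, k1, k2, h1, ?_⟩
  unfold p4
  rw [h1, map_add, k1, k2]
  module

theorem K_p4 (h : S.Nrm 2) (hv : ‖v‖ = 1) {z : V} (hz : ⟪z, v⟫ = 0) :
    S.K v (p4 S v z) = (4 : ℝ) • p4 S v z := by
  obtain ⟨x, y, hx, hy, hz', hp⟩ := decomp' h hv hz
  rw [hp, hy]

theorem orth_v4 {y : V} (hy : S.K v y = (4 : ℝ) • y) : ⟪y, v⟫ = 0 :=
  orth_of_eig (by norm_num) hy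

theorem orth_v1 {x : V} (hx : S.K v x = x) : ⟪x, v⟫ = 0 :=
  orth_of_eig (α := 1) one_ne_zero (by rw [one_smul, hx])

theorem orth_14 {x y : V} (hx : S.K v x = x) (hy : S.K v y = (4 : ℝ) • y) : ⟪x, y⟫ = 0 := by
  have h := S.K_symm v x y
  rw [hx, hy, inner_smul_right] at h
  linarith

/-- the leaf condition -/
theorem leaf_cond (h : S.Nrm 2) (hv : ‖v‖ = 1) {u a b : V} (hu : S.K v u = (4 : ℝ) • u)
    (ha : ⟪a, v⟫ = 0) (hb : ⟪b, v⟫ = 0) :
    ⟪S.R v a u, b⟫ + ⟪S.R v b u, a⟫ = 0 := by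
  obtain ⟨x, y, hx, hy, hz, -⟩ := decomp' h hv ha
  obtain ⟨x', y', hx', hy', hz', -⟩ := decomp' h hv hb
  have e1 : ∀ {x y : V}, S.K v x = x → S.K v y = (4 : ℝ) • y →
      S.R v (x + y) u = (1 / 2 : ℝ) • S.R v u x + -(4 * ⟪y, u⟫) • v := by
    intro x y hx hy
    rw [map_add, LinearMap.add_apply, h.rho_xy hv hx hu, h.rho_yy hv hy hu]
  have e2 : ∀ {x x' y' : V}, S.K v x = x → S.K v x' = x' → S.K v y' = (4 : ℝ) • y' →
      ⟪S.R v u x, x' + y'⟫ = ⟪S.R v u x, x'⟫ := by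
    intro x x' y' hx hx' hy'
    rw [inner_add_right, orth_14 (h.K_rho_yx hv hx hu) hy', add_zero]
  have hv1 : ∀ {x y : V}, S.K v x = x → S.K v y = (4 : ℝ) • y → ⟪v, x + y⟫ = 0 := by
    intro x y hx hy
    rw [inner_add_right, real_inner_comm, orth_v1 hx, real_inner_comm, orth_v4 hy, add_zero]
  rw [hz, hz', e1 hx hy, e1 hx' hy']
  simp only [inner_add_left, inner_smul_left, RCLike.conj_to_real]
  rw [hv1 hx hy, hv1 hx' hy', e2 hx hx' hy', e2 hx' hx hy, S.skew v u x x',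
    real_inner_comm]
  ring

/-- the projection as a linear map -/
def p4L (S : ACT V) (v : V) : V →ₗ[ℝ] V := (1 / 12 : ℝ) • (S.K v ∘ₗ S.K v - S.K v)

theorem p4L_apply (v z : V) : p4L S v z = (1 / 12 : ℝ) • (S.K v (S.K v z) - S.K v z) := rfl

theorem p4L_isProj (h : S.Nrm 2) (hv : ‖v‖ = 1) :
    LinearMap.IsProj (End.eigenspace (S.K v) 4) (p4L S v) where
  map_mem z := by
    rw [End.mem_eigenspace_iff, p4L_apply, map_smul, map_sub]
    have h1 := h.cubic hv z
    have h2 : S.K v (S.K v (S.K v z)) = (5 : ℝ) • S.K v (S.K v z) - (4 : ℝ) • S.K v z := by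
      rw [← sub_eq_zero, ← h1]
      norm_num
      abel
    rw [h2]
    module
  map_id z hz := by
    rw [End.mem_eigenspace_iff] at hz
    rw [p4L_apply, hz, map_smul, hz]
    module

theorem p4L_eq (h : S.Nrm 2) (hv : ‖v‖ = 1) {z : V} (hz : ⟪z, v⟫ = 0) :
    p4L S v z = p4 S v z := by
  obtain ⟨x, y, hx, hy, hz', hp⟩ := decomp' h hv hz
  rw [hp, p4L_apply, hz', map_add, hx, hy, map_add, hx, map_smul, hy]
  module

end Vec

section Comp

variable {m : ℕ} {S : ACT (En (m + 1))}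

/-- components of the curvature tensor -/
def rc (S : ACT (En (m + 1))) (i j k l : Fin (m + 1)) : ℝ := S.R (ee i) (ee j) (ee k) l

/-- components of the projection -/
def pc (S : ACT (En (m + 1))) (i j : Fin m) : ℝ :=
  (1 / 3) * (rc S 0 i.succ 0 j.succ - if i = j then 1 else 0)

theorem norm_e0 : ‖(ee 0 : En (m + 1))‖ = 1 := by simp

theorem inner_e (i j : Fin (m + 1)) : ⟪(ee i : En (m + 1)), ee j⟫ = if i = j then 1 else 0 := by
  rw [inner_ee]
  simp [eq_comm]

theorem inner_e_succ (i : Fin m) : ⟪(ee i.succ : En (m + 1)), ee 0⟫ = 0 := by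
  rw [inner_e, if_neg (Fin.succ_ne_zero i)]

theorem p4_succ (i j : Fin m) : p4 S (ee 0) (ee i.succ) j.succ = pc S i j := by
  unfold p4 pc rc
  rw [K_apply]
  simp [eq_comm]

theorem p4_zero (i : Fin m) : p4 S (ee 0) (ee i.succ) 0 = 0 := by
  have h1 : ⟪p4 S (ee 0) (ee i.succ), ee 0⟫ = 0 := by
    unfold p4
    rw [inner_smul_left, inner_sub_left, K_orth, inner_e_succ]; simp
  rwa [inner_ee] at h1

theorem p4_sum (i : Fin m) : p4 S (ee 0) (ee i.succ) = ∑ j : Fin m, pc S i j • ee j.succ := by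
  rw [en_sum (p4 S (ee 0) (ee i.succ)), Fin.sum_univ_succ, p4_zero, zero_smul, zero_add]
  exact sum_congr rfl fun j _ => by rw [p4_succ]

theorem pc_symm (i j : Fin m) : pc S i j = pc S j i := by
  have h1 : rc S 0 i.succ 0 j.succ = rc S 0 j.succ 0 i.succ := by
    have h2 := S.K_symm (ee 0) (ee i.succ) (ee j.succ)
    rw [K_apply, K_apply, inner_ee, real_inner_comm, inner_ee] at h2
    exact h2
  unfold pc
  rw [h1]
  simp only [eq_comm]

theorem pc_idem (h : S.Nrm 2) (i k : Fin m) : ∑ j, pc S i j * pc S j k = pc S i k := by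
  have h1 := K_p4 h norm_e0 (inner_e_succ i)
  have h2 : ∀ j k : Fin m, S.K (ee 0) (ee j.succ) k.succ = 3 * pc S j k +
      if j = k then 1 else 0 := by
    intro j k
    unfold pc rc
    rw [K_apply]; ring
  have h3 := congrArg (fun z : En (m + 1) => z k.succ) h1
  simp only at h3
  rw [p4_sum, map_sum] at h3
  simp only [map_smul] at h3
  have h4 : (∑ j : Fin m, pc S i j • S.K (ee 0) (ee j.succ)) k.succ =
      ∑ j : Fin m, pc S i j * (3 * pc S j k + if j = k then 1 else 0) := by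
    have : ∀ z : En (m + 1), z k.succ = (EuclideanSpace.proj k.succ : En (m + 1) →L[ℝ] ℝ) z :=
      fun z => rfl
    rw [this, map_sum]
    refine sum_congr rfl fun j _ => ?_
    rw [map_smul, ← this, h2, smul_eq_mul]
  have h5 : ((4 : ℝ) • ∑ j : Fin m, pc S i j • (ee j.succ : En (m + 1))) k.succ =
      4 * pc S i k := by
    rw [← p4_sum, PiLp.smul_apply, p4_succ, smul_eq_mul]
  rw [h4, h5] at h3
  simp only [mul_add, sum_add_distrib, mul_ite, mul_one, mul_zero, sum_ite_eq', mem_univ,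
    if_true] at h3
  have h6 : ∑ j, pc S i j * (3 * pc S j k) = 3 * ∑ j, pc S i j * pc S j k := by
    rw [mul_sum]; exact sum_congr rfl fun j _ => by ring
  rw [h6] at h3
  linarith

theorem pc_leaf (h : S.Nrm 2) (l i j : Fin m) :
    ∑ k, pc S l k * (rc S 0 i.succ k.succ j.succ + rc S 0 j.succ k.succ i.succ) = 0 := by
  have h1 := leaf_cond h norm_e0 (K_p4 h norm_e0 (inner_e_succ l)) (inner_e_succ i)
    (inner_e_succ j)
  rw [p4_sum] at h1
  simp only [map_sum, map_smul, sum_inner, inner_smul_left, RCLike.conj_to_real, inner_ee] at h1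
  rw [← sum_add_distrib] at h1
  rw [← h1]
  exact sum_congr rfl fun k _ => by unfold rc; ring

theorem pc_trace (h : S.Nrm 2) :
    ∑ i, pc S i i = finrank ℝ (End.eigenspace (S.K (ee 0)) 4) := by
  have h1 := (p4L_isProj h norm_e0).trace
  rw [← h1, LinearMap.trace_eq_matrix_trace ℝ (EuclideanSpace.basisFun (Fin (m + 1)) ℝ).toBasis,
    Matrix.trace, Fin.sum_univ_succ]
  have h2 : ∀ i : Fin (m + 1), (LinearMap.toMatrix (EuclideanSpace.basisFun (Fin (m + 1)) ℝ).toBasis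
      (EuclideanSpace.basisFun (Fin (m + 1)) ℝ).toBasis (p4L S (ee 0))).diag i =
      p4L S (ee 0) (ee i) i := by
    intro i
    rw [Matrix.diag_apply, LinearMap.toMatrix_apply]
    simp
  rw [h2]
  have h3 : p4L S (ee 0) (ee 0 : En (m + 1)) = 0 := by
    rw [p4L_apply, K_self]; simp
  rw [h3]
  simp only [h2]
  rw [PiLp.zero_apply, zero_add]
  refine sum_congr rfl fun i _ => ?_
  rw [p4L_eq h norm_e0 (inner_e_succ i), p4_succ]

end Comp

end Vale.Agent.P207.H662
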