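import Vale.Agent.P207.H662.FrS
import Vale.Agent.P207.Kat.Q

/-!
# P207, block QF: `Q_y(k)` in terms of scalar functions on the unit tangent bundle
-/

open Finset

set_option linter.unusedSectionVars false

noncomputable section

namespace Vale.Agent.P207.H662

open Vale.Agent.P207.H442

variable {m : ℕ} {A : Type*} [CommRing A] [Algebra ℝ A] {C : FrCalc (m + 1) A}
  {k : Fin (m + 1) → Fin (m + 1) → A} {I : A →ₗ[ℝ] ℝ}

/-! ### the function `f = k(v,v) / 2` -/

section fk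

variable (hk : C.T2 k) (hs : ∀ i j, k i j = k j i)

theorem v_k00 (hk : C.T2 k) (hs : ∀ i j, k i j = k j i) (i : Fin m) :
    C.V i.succ 0 (k 0 0) = (2 : ℝ) • k 0 i.succ := by
  rw [hk, ac_zero_zero, ac_zero_zero, hs i.succ 0, two_smul]

theorem v_k0 (hk : C.T2 k) (i j : Fin m) :
    C.V j.succ 0 (k 0 i.succ) = k j.succ i.succ - kr j i (k 0 0) := by
  rw [hk, ac_zero_zero, ac_zero_succ]; ring

theorem v_kij (hk : C.T2 k) (i j l : Fin m) :
    C.V l.succ 0 (k i.succ j.succ) = - kr l i (k 0 j.succ) - kr l j (k i.succ 0) := by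
  rw [hk, ac_zero_succ, ac_zero_succ]; ring

/-- `f = k(v,v)/2` -/
def fk (k : Fin (m + 1) → Fin (m + 1) → A) : A := (1 / 2 : ℝ) • k 0 0

theorem k00_eq (k : Fin (m + 1) → Fin (m + 1) → A) : k 0 0 = (2 : ℝ) • fk k := by
  unfold fk; rw [smul_smul]; norm_num

/-- the trace -/
def trk (k : Fin (m + 1) → Fin (m + 1) → A) : A := ∑ i, k i i

theorem sum_k (k : Fin (m + 1) → Fin (m + 1) → A) :
    ∑ i : Fin m, k i.succ i.succ = trk k - k 0 0 := by
  unfold trk; rw [Fin.sum_univ_succ]; ring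

theorem r_k00 (hk : C.T2 k) (i j : Fin m) : C.V i.succ j.succ (k 0 0) = 0 := by
  rw [hk, ac_succ_succ_zero, ac_succ_succ_zero, add_zero]

theorem r_fk (hk : C.T2 k) (i j : Fin m) : C.V i.succ j.succ (fk k) = 0 := by
  unfold fk; rw [Derivation.map_smul, r_k00 hk, smul_zero]

theorem v_fk (hk : C.T2 k) (hs : ∀ i j, k i j = k j i) (i : Fin m) :
    C.V i.succ 0 (fk k) = k 0 i.succ := by
  unfold fk; rw [Derivation.map_smul, v_k00 hk hs, smul_smul]; norm_num

theorem T0_tr (hk : C.T2 k) (a b : Fin (m + 1)) : C.V a b (trk k) = 0 := by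
  unfold trk
  rw [map_sum]
  simp only [hk a b]
  exact sum_ac_ac a b k

/-- `- ∑ V_i V_i f = 2 n f - tr k` -/
theorem sum_vv_fk (hk : C.T2 k) (hs : ∀ i j, k i j = k j i) :
    ∑ i : Fin m, C.V i.succ 0 (C.V i.succ 0 (fk k)) = trk k - (2 * (m + 1) : ℝ) • fk k := by
  simp only [v_fk hk hs, v_k0 hk]
  rw [sum_sub_distrib, sum_k]
  have : ∑ i : Fin m, kr i i (k 0 0) = (m : ℝ) • k 0 0 := by
    simp [kr, ← Nat.cast_smul_eq_nsmul ℝ]
  rw [this, k00_eq k]
  module

end fk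

/-! ### integrals -/

section Int

variable (hI : C.IsInt I)

theorem ibp_v (hI : C.IsInt I) (a b : Fin (m + 1)) (f g : A) :
    I (C.V a b f * g) = - I (f * C.V a b g) := hI.V_mul a b f g

/-- `∫ f tr k = (1/2n) ∫ (tr k)²` -/
theorem int_f_tr (hI : C.IsInt I) (hk : C.T2 k) (hs : ∀ i j, k i j = k j i) :
    2 * (m + 1 : ℝ) * I (fk k * trk k) = I (trk k * trk k) := by
  have h1 : I ((∑ i : Fin m, C.V i.succ 0 (C.V i.succ 0 (fk k))) * trk k) = 0 := by
    rw [sum_mul, map_sum]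
    refine sum_eq_zero fun i _ => ?_
    rw [ibp_v hI, T0_tr hk, mul_zero, map_zero, neg_zero]
  rw [sum_vv_fk hk hs, sub_mul, map_sub, smul_mul_assoc, map_smul, smul_eq_mul] at h1
  linarith

/-- `∫ ∑ k_0i² = 2 n ∫ f² - ∫ f tr k` -/
theorem int_k0 (hI : C.IsInt I) (hk : C.T2 k) (hs : ∀ i j, k i j = k j i) :
    I (∑ i : Fin m, k 0 i.succ * k 0 i.succ) =
      2 * (m + 1 : ℝ) * I (fk k * fk k) - I (fk k * trk k) := by
  have h1 : I (fk k * ∑ i : Fin m, C.V i.succ 0 (C.V i.succ 0 (fk k))) =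
      - I (∑ i : Fin m, k 0 i.succ * k 0 i.succ) := by
    rw [mul_sum, map_sum, map_sum, ← sum_neg_distrib]
    refine sum_congr rfl fun i _ => ?_
    have h2 := ibp_v hI i.succ 0 (fk k) (C.V i.succ 0 (fk k))
    rw [v_fk hk hs] at h2 ⊢
    linarith
  rw [sum_vv_fk hk hs, mul_sub, map_sub, mul_smul_comm, map_smul, smul_eq_mul] at h1
  linarith

theorem int_kij (hI : C.IsInt I) (hk : C.T2 k) (hs : ∀ i j, k i j = k j i) :
    I (∑ i : Fin m, ∑ j : Fin m, k i.succ j.succ * k i.succ j.succ) =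
      I (k 0 0 * (trk k - k 0 0)) + (m + 1 : ℝ) * I (∑ i : Fin m, k 0 i.succ * k 0 i.succ) := by
  have h1 : ∀ i j : Fin m, C.V j.succ 0 (k 0 i.succ * k i.succ j.succ) =
      k i.succ j.succ * k i.succ j.succ - kr j i (k 0 0 * k i.succ j.succ)
      - kr j i (k 0 i.succ * k 0 j.succ) - k 0 i.succ * k 0 i.succ := by
    intro i j
    have h2 : kr j j (k i.succ 0) = k 0 i.succ := by
      rw [hs 0 i.succ]; simp [kr]
    rw [Derivation.leibniz, v_k0 hk, v_kij hk, h2, smul_eq_mul, smul_eq_mul, mul_sub, mul_neg,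
      mul_kr, mul_sub, mul_kr, hs j.succ i.succ, mul_comm (k i.succ j.succ) (k 0 0)]
    ring
  have h2 : I (∑ i : Fin m, ∑ j : Fin m, C.V j.succ 0 (k 0 i.succ * k i.succ j.succ)) = 0 := by
    rw [map_sum]
    refine sum_eq_zero fun i _ => ?_
    rw [map_sum]
    exact sum_eq_zero fun j _ => hI.ver _ _ _
  simp only [h1, sum_sub_distrib, sum_kr_right, sum_const, card_univ, Fintype.card_fin,
    ← Nat.cast_smul_eq_nsmul ℝ] at h2
  rw [← mul_sum, sum_k, ← smul_sum] at h2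
  simp only [map_sub, map_smul, smul_eq_mul] at h2
  linarith

/-- **`∫ |k|² = 2 n (n + 2) ∫ f² - (1/2) ∫ (tr k)²`** -/
theorem int_ksq (hI : C.IsInt I) (hk : C.T2 k) (hs : ∀ i j, k i j = k j i) :
    I (∑ i, ∑ j, k i j * k i j) = 2 * (m + 1 : ℝ) * (m + 3) * I (fk k * fk k) -
      (1 / 2) * I (trk k * trk k) := by
  have e0 : ∑ i, ∑ j, k i j * k i j = k 0 0 * k 0 0 +
      (2 : ℝ) • (∑ i : Fin m, k 0 i.succ * k 0 i.succ) +
      ∑ i : Fin m, ∑ j : Fin m, k i.succ j.succ * k i.succ j.succ := by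
    rw [Fin.sum_univ_succ, Fin.sum_univ_succ]
    have e1 : ∀ i : Fin m, ∑ j, k i.succ j * k i.succ j = k 0 i.succ * k 0 i.succ +
        ∑ j : Fin m, k i.succ j.succ * k i.succ j.succ := by
      intro i
      rw [Fin.sum_univ_succ, hs i.succ 0]
    rw [sum_congr rfl fun i _ => e1 i, sum_add_distrib, two_smul]
    ring
  have e1 : k 0 0 * k 0 0 = (4 : ℝ) • (fk k * fk k) := by
    rw [k00_eq k, smul_mul_smul_comm]; norm_num
  have e2 : k 0 0 * (trk k - k 0 0) = (2 : ℝ) • (fk k * trk k) - (4 : ℝ) • (fk k * fk k) := by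
    rw [mul_sub, e1]
    congr 1
    rw [k00_eq k, smul_mul_assoc]
  have e3 := int_kij hI hk hs
  have e4 := int_k0 hI hk hs
  have e5 := int_f_tr hI hk hs
  rw [e0, map_add, map_add, map_smul, e3, e2, e1, e4]
  simp only [map_sub, map_smul, smul_eq_mul]
  linear_combination (-(1 : ℝ) / 2) * e5

end Int

end Vale.Agent.P207.H662
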