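import Vale.Agent.P207.H662.Sys

/-!
# P207, block QF: the relations between `X`, `Δ_κ`, `∑ V H`, `∑ H H`
-/

open Finset

set_option linter.unusedSectionVars false

noncomputable section

namespace Vale.Agent.P207.H662

theorem eq_zero_of_eq_neg {A : Type*} [AddCommGroup A] [Module ℝ A] {x : A} (h : x = -x) :
    x = 0 := by
  have h1 : (2 : ℝ) • x = 0 := by
    rw [two_smul]
    nth_rewrite 2 [h]
    exact add_neg_cancel x
  have h2 : x = (1 / 2 : ℝ) • ((2 : ℝ) • x) := by module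
  rw [h2, h1, smul_zero]

namespace Sys

variable {m : ℕ} {A : Type*} [CommRing A] [Algebra ℝ A] (S : Sys m A)

/-- An equivariant parallel projection commuting with the Jacobi operator `K = 1 + 3 P`,
`Q K = κ Q`, of trace `q`. -/
structure IsProj (Q : Fin m → Fin m → A) (κ q : ℝ) : Prop where
  symm : ∀ i j, Q i j = Q j i
  idem : ∀ i k, ∑ j, Q i j * Q j k = Q i k
  tr : ∑ i, Q i i = algebraMap ℝ A q
  X : ∀ i j, S.X (Q i j) = 0
  h : ∀ k i j, S.h k (Q i j) = 0
  r : ∀ a b i j, S.r a b (Q i j) = kr b i (Q a j) - kr a i (Q b j) + kr b j (Q i a) - kr a j (Q i b)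
  P : ∀ i k, 3 * ∑ j, Q i j * S.P j k = (κ - 1) • Q i k
  div : ∀ j, ∑ i, S.v i (Q i j) = 0
  T : ∀ k, ∑ i, ∑ j, Q i j * S.T i j k = 0

/-- the second order operator `∑ Q_ij a_i b_j` -/
def op (Q : Fin m → Fin m → A) (a b : Fin m → Derivation ℝ A A) : A →ₗ[ℝ] A where
  toFun f := ∑ i, ∑ j, Q i j * a i (b j f)
  map_add' := by intro f g; simp [mul_add, sum_add_distrib]
  map_smul' := by
    intro c f
    simp only [Derivation.map_smul, mul_smul_comm, ← smul_sum, RingHom.id_apply]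

/-- `Δ_Q = - ∑ Q_ij V_i V_j` -/
def Dl (Q : Fin m → Fin m → A) : A →ₗ[ℝ] A := - op Q S.v S.v

/-- `E_Q = ∑ Q_ij V_i H_j` -/
def El (Q : Fin m → Fin m → A) : A →ₗ[ℝ] A := op Q S.v S.h

/-- `S_Q = - ∑ Q_ij H_i H_j` -/
def Sl (Q : Fin m → Fin m → A) : A →ₗ[ℝ] A := - op Q S.h S.h

theorem Dl_apply (Q : Fin m → Fin m → A) (f : A) :
    S.Dl Q f = - ∑ i, ∑ j, Q i j * S.v i (S.v j f) := rfl

theorem El_apply (Q : Fin m → Fin m → A) (f : A) :
    S.El Q f = ∑ i, ∑ j, Q i j * S.v i (S.h j f) := rfl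

theorem Sl_apply (Q : Fin m → Fin m → A) (f : A) :
    S.Sl Q f = - ∑ i, ∑ j, Q i j * S.h i (S.h j f) := rfl

variable {S} {Q : Fin m → Fin m → A} {κ q : ℝ}

theorem T_self (j i : Fin m) : S.T j i i = 0 :=
  eq_zero_of_eq_neg (S.Tanti j i i)

theorem sum_anti (hs : ∀ i j, Q i j = Q j i) (k : Fin m) : ∑ i, ∑ j, Q i j * S.T k i j = 0 := by
  refine eq_zero_of_eq_neg ?_
  conv_lhs => rw [sum_comm]
  simp only [← sum_neg_distrib]
  refine sum_congr rfl fun i _ => sum_congr rfl fun j _ => ?_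
  rw [S.Tanti k j i, hs j i]; ring

theorem h_v (i j : Fin m) (f : A) : S.h i (S.v j f) = S.v j (S.h i f) + kr j i (S.X f) := by
  rw [S.vh]; ring

namespace IsProj

variable (hQ : S.IsProj Q κ q)
include hQ

theorem X_mul (i j : Fin m) (f : A) : S.X (Q i j * f) = Q i j * S.X f := by
  rw [Derivation.leibniz, hQ.X]; simp

theorem h_mul (k i j : Fin m) (f : A) : S.h k (Q i j * f) = Q i j * S.h k f := by
  rw [Derivation.leibniz, hQ.h]; simp

theorem tr_mul (f : A) : ∑ i, Q i i * f = q • f := by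
  rw [← sum_mul, hQ.tr, Algebra.smul_def]

theorem sum_kr (f : A) : ∑ i, ∑ j, Q i j * kr j i f = q • f := by
  rw [← hQ.tr_mul f]
  exact sum_congr rfl fun i _ => sum_mul_kr_right i (fun j => Q i j) (fun _ => f)

theorem sum_h_v (f : A) : ∑ i, ∑ j, Q i j * S.h i (S.v j f) = S.El Q f + q • S.X f := by
  rw [← hQ.sum_kr (S.X f), El_apply]
  have e : ∑ i, ∑ j, Q i j * S.v i (S.h j f) = ∑ i, ∑ j, Q i j * S.v j (S.h i f) := by
    rw [sum_comm]
    exact sum_congr rfl fun i _ => sum_congr rfl fun j _ => by rw [hQ.symm j i]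
  rw [e, ← sum_add_distrib]
  refine sum_congr rfl fun i _ => ?_
  rw [← sum_add_distrib]
  refine sum_congr rfl fun j _ => ?_
  rw [h_v]; ring

/-- `[X, Δ_Q] = 2 E_Q + q X` -/
theorem X_Dl (f : A) : S.X (S.Dl Q f) = S.Dl Q (S.X f) + (2 : ℝ) • S.El Q f + q • S.X f := by
  have e1 : S.X (S.Dl Q f) = - ∑ i, ∑ j, Q i j * S.X (S.v i (S.v j f)) := by
    rw [Dl_apply, map_neg, map_sum]
    congr 1
    refine sum_congr rfl fun i _ => ?_
    rw [map_sum]
    exact sum_congr rfl fun j _ => hQ.X_mul i j _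
  have e2 : ∑ i, ∑ j, Q i j * S.v i (S.v j (S.X f)) = ∑ i, ∑ j, Q i j * S.X (S.v i (S.v j f)) +
      (∑ i, ∑ j, Q i j * S.h i (S.v j f) + ∑ i, ∑ j, Q i j * S.v i (S.h j f)) := by
    rw [← sum_add_distrib, ← sum_add_distrib]
    refine sum_congr rfl fun i _ => ?_
    rw [← sum_add_distrib, ← sum_add_distrib]
    refine sum_congr rfl fun j _ => ?_
    rw [S.vX j, map_add, S.vX i]; ring
  rw [e1, Dl_apply, e2, hQ.sum_h_v, ← El_apply, two_smul]
  ring

theorem sum_PQ (G : Fin m → Fin m → A) :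
    ∑ i, ∑ j, Q i j * (3 * ∑ k, S.P j k * G i k) = (κ - 1) • ∑ i, ∑ k, Q i k * G i k := by
  rw [smul_sum]
  refine sum_congr rfl fun i _ => ?_
  have e : ∀ k, (κ - 1) • (Q i k * G i k) = ∑ j, 3 * (Q i j * S.P j k) * G i k := by
    intro k
    rw [← smul_mul_assoc, ← hQ.P, mul_sum, sum_mul]
  rw [smul_sum, sum_congr rfl fun k _ => e k, sum_comm]
  refine sum_congr rfl fun j _ => ?_
  rw [mul_sum, mul_sum]
  exact sum_congr rfl fun k _ => by ring

theorem sum_vP (G : Fin m → A) :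
    ∑ i, ∑ j, Q i j * (3 * ∑ k, G k * S.v i (S.P j k)) = 0 := by
  have e1 : ∀ k, ∑ i, ∑ j, Q i j * (S.T j i k + S.T k i j) = 0 := by
    intro k
    have h1 : ∑ i, ∑ j, Q i j * S.T j i k = 0 := by
      rw [← hQ.T k, sum_comm]
      exact sum_congr rfl fun i _ => sum_congr rfl fun j _ => by rw [hQ.symm j i]
    have h2 := sum_anti (S := S) hQ.symm k
    simp only [mul_add, sum_add_distrib, h1, h2, add_zero]
  have e2 : ∀ i j, Q i j * (3 * ∑ k, G k * S.v i (S.P j k)) =
      ∑ k, G k * (Q i j * (S.T j i k + S.T k i j)) := by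
    intro i j
    rw [mul_sum, mul_sum]
    refine sum_congr rfl fun k _ => ?_
    rw [S.vP i j k]
    have h3 : (3 : A) * ((1 / 3 : ℝ) • (S.T j i k + S.T k i j)) = S.T j i k + S.T k i j := by
      rw [mul_smul_comm, show (3 : A) = algebraMap ℝ A 3 from (map_ofNat (algebraMap ℝ A) 3).symm, ← Algebra.smul_def, smul_smul]
      norm_num
    calc Q i j * (3 * (G k * (1 / 3 : ℝ) • (S.T j i k + S.T k i j))) =
        G k * (Q i j * (3 * ((1 / 3 : ℝ) • (S.T j i k + S.T k i j)))) := by ring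
      _ = _ := by rw [h3]
  have e3 : ∑ i, ∑ j, ∑ k, G k * (Q i j * (S.T j i k + S.T k i j)) =
      ∑ k, G k * ∑ i, ∑ j, Q i j * (S.T j i k + S.T k i j) := by
    simp only [mul_sum]
    rw [sum_congr rfl fun i _ => sum_comm, sum_comm]
  rw [sum_congr rfl fun i _ => sum_congr rfl fun j _ => e2 i j, e3]
  simp [e1]

/-- `[X, E_Q] = κ Δ_Q + S_Q` on functions of the unit tangent bundle -/
theorem X_El {f : A} (hf : f ∈ S.B) :
    S.X (S.El Q f) = S.El Q (S.X f) + κ • S.Dl Q f + S.Sl Q f := by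
  have e1 : S.X (S.El Q f) = ∑ i, ∑ j, Q i j * S.X (S.v i (S.h j f)) := by
    rw [El_apply, map_sum]
    refine sum_congr rfl fun i _ => ?_
    rw [map_sum]
    exact sum_congr rfl fun j _ => hQ.X_mul i j _
  have hX : ∀ j, S.X (S.h j f) = S.h j (S.X f) - S.v j f - 3 * ∑ k, S.P j k * S.v k f := by
    intro j
    rw [S.Xh]
    simp [hf _ _]
  have e2 : ∀ i j, S.X (S.v i (S.h j f)) = S.v i (S.h j (S.X f)) - S.v i (S.v j f)
      - 3 * ∑ k, S.P j k * S.v i (S.v k f) - 3 * ∑ k, S.v k f * S.v i (S.P j k)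
      - S.h i (S.h j f) := by
    intro i j
    have h1 : S.X (S.v i (S.h j f)) = S.v i (S.X (S.h j f)) - S.h i (S.h j f) := by
      rw [S.vX]; ring
    have h3 : S.v i (3 * ∑ k, S.P j k * S.v k f) =
        3 * ∑ k, S.P j k * S.v i (S.v k f) + 3 * ∑ k, S.v k f * S.v i (S.P j k) := by
      rw [show (3 : A) = algebraMap ℝ A 3 from (map_ofNat (algebraMap ℝ A) 3).symm, ← Algebra.smul_def, ← Algebra.smul_def,
        ← Algebra.smul_def, Derivation.map_smul, ← smul_add, map_sum, ← sum_add_distrib]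
      congr 1
      refine sum_congr rfl fun k _ => ?_
      rw [Derivation.leibniz, smul_eq_mul, smul_eq_mul]
    rw [h1, hX, map_sub, map_sub, h3]; ring
  have e3 := hQ.sum_PQ (fun i k => S.v i (S.v k f))
  have e4 := hQ.sum_vP (fun k => S.v k f)
  rw [e1]
  simp only [e2, mul_sub, sum_sub_distrib]
  rw [e3, e4, El_apply, Dl_apply, Sl_apply, sub_smul, one_smul, smul_neg]
  ring

/-- `[X, S_Q] = κ (2 E_Q + q X)` on functions of the unit tangent bundle -/
theorem X_Sl {f : A} (hf : f ∈ S.B) :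
    S.X (S.Sl Q f) = S.Sl Q (S.X f) + κ • ((2 : ℝ) • S.El Q f + q • S.X f) := by
  have e1 : S.X (S.Sl Q f) = - ∑ i, ∑ j, Q i j * S.X (S.h i (S.h j f)) := by
    rw [Sl_apply, map_neg, map_sum]
    congr 1
    refine sum_congr rfl fun i _ => ?_
    rw [map_sum]
    exact sum_congr rfl fun j _ => hQ.X_mul i j _
  have hX : ∀ j, S.X (S.h j f) = S.h j (S.X f) - S.v j f - 3 * ∑ k, S.P j k * S.v k f := by
    intro j
    rw [S.Xh]
    simp [hf _ _]
  have hT : ∀ i j, (1 / 2 : ℝ) • ∑ k, ∑ l, S.T i k l * S.r k l (S.h j f) =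
      ∑ k, S.T i k j * S.h k f := by
    intro i j
    have h1 : ∀ k l, S.T i k l * S.r k l (S.h j f) = S.T i k l * kr l j (S.h k f) -
        S.T i k l * kr k j (S.h l f) := by
      intro k l
      rw [S.rh, hf k l, map_zero]; ring
    have h2 : ∑ k, ∑ l, S.T i k l * kr l j (S.h k f) = ∑ k, S.T i k j * S.h k f :=
      sum_congr rfl fun k _ => sum_mul_kr_right j (fun l => S.T i k l) (fun _ => S.h k f)
    have h3 : ∑ k, ∑ l, S.T i k l * kr k j (S.h l f) = - ∑ k, S.T i k j * S.h k f := by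
      rw [sum_comm, ← sum_neg_distrib]
      refine sum_congr rfl fun l _ => ?_
      rw [sum_mul_kr_right j (fun k => S.T i k l) (fun _ => S.h l f), S.Tanti i j l]; ring
    simp only [h1, sum_sub_distrib, h2, h3]
    module
  have e2 : ∀ i j, S.X (S.h i (S.h j f)) = S.h i (S.h j (S.X f)) - S.h i (S.v j f)
      - 3 * ∑ k, S.P j k * S.h i (S.v k f) - S.v i (S.h j f)
      - 3 * ∑ k, S.P i k * S.v k (S.h j f) + ∑ k, S.T i k j * S.h k f := by
    intro i j
    have h3 : S.h i (3 * ∑ k, S.P j k * S.v k f) = 3 * ∑ k, S.P j k * S.h i (S.v k f) := by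
      rw [show (3 : A) = algebraMap ℝ A 3 from (map_ofNat (algebraMap ℝ A) 3).symm, ← Algebra.smul_def,
        ← Algebra.smul_def, Derivation.map_smul, map_sum]
      congr 1
      exact sum_congr rfl fun k _ => S.h_P_mul i j k _
    rw [S.Xh i (S.h j f), hT, hX, map_sub, map_sub, h3]
  have e3 := hQ.sum_PQ (fun i k => S.h i (S.v k f))
  have e4 : ∑ i, ∑ j, Q i j * (3 * ∑ k, S.P i k * S.v k (S.h j f)) =
      (κ - 1) • S.El Q f := by
    have h1 := hQ.sum_PQ (fun j k => S.v k (S.h j f))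
    rw [sum_comm]
    calc ∑ j, ∑ i, Q i j * (3 * ∑ k, S.P i k * S.v k (S.h j f)) =
        ∑ j, ∑ i, Q j i * (3 * ∑ k, S.P i k * S.v k (S.h j f)) :=
          sum_congr rfl fun j _ => sum_congr rfl fun i _ => by rw [hQ.symm i j]
      _ = _ := h1
      _ = _ := by
          rw [El_apply, sum_comm]
          congr 1
          exact sum_congr rfl fun j _ => sum_congr rfl fun i _ => by rw [hQ.symm i j]
  have e5 : ∑ i, ∑ j, Q i j * ∑ k, S.T i k j * S.h k f = 0 := by
    have h1 : ∀ k, ∑ i, ∑ j, Q i j * S.T i k j = 0 := by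
      intro k
      have h2 := hQ.T k
      rw [← neg_eq_zero, ← sum_neg_distrib, ← h2]
      refine sum_congr rfl fun i _ => ?_
      rw [← sum_neg_distrib]
      refine sum_congr rfl fun j _ => ?_
      rw [S.Tanti i k j]; ring
    have h3 : ∑ i, ∑ j, Q i j * ∑ k, S.T i k j * S.h k f =
        ∑ k, (∑ i, ∑ j, Q i j * S.T i k j) * S.h k f := by
      simp only [mul_sum, sum_mul]
      rw [sum_congr rfl fun i _ => sum_comm, sum_comm]
      refine sum_congr rfl fun k _ => sum_congr rfl fun i _ => sum_congr rfl fun j _ => by ring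
    rw [h3]
    simp [h1]
  rw [e1]
  simp only [e2, mul_sub, mul_add, sum_sub_distrib, sum_add_distrib]
  rw [e3, e4, e5, hQ.sum_h_v, ← El_apply, Sl_apply, two_smul]
  module

/-- equivariance: the second order operators preserve the functions on the unit tangent bundle -/
theorem r_op {a b : Fin m → Derivation ℝ A A}
    (ha : ∀ i j k f, S.r i j (a k f) = a k (S.r i j f) + kr j k (a i f) - kr i k (a j f))
    (hb : ∀ i j k f, S.r i j (b k f) = b k (S.r i j f) + kr j k (b i f) - kr i k (b j f))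
    (k l : Fin m) (f : A) : S.r k l (op Q a b f) = op Q a b (S.r k l f) := by
  have e1 : ∀ i j, S.r k l (Q i j * a i (b j f)) = Q i j * a i (b j (S.r k l f))
      + (Q i j * kr l i (a k (b j f)) - Q i j * kr k i (a l (b j f)))
      + (Q i j * kr l j (a i (b k f)) - Q i j * kr k j (a i (b l f)))
      + ((kr l i (Q k j * a i (b j f)) - kr k i (Q l j * a i (b j f)))
      + (kr l j (Q i k * a i (b j f)) - kr k j (Q i l * a i (b j f)))) := by
    intro i j
    rw [Derivation.leibniz, smul_eq_mul, smul_eq_mul, ha, hb, hQ.r, map_sub, map_add,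
      map_kr', map_kr']
    simp only [kr_eq _ _ (a _ _), kr_eq _ _ (Q _ _), kr_eq _ _ (Q _ _ * _)]
    ring
  have s1 : ∀ (F : Fin m → Fin m → A), ∑ i, ∑ j, Q i j * kr l i (F i j) = ∑ j, Q l j * F l j := by
    intro F
    rw [sum_comm]
    exact sum_congr rfl fun j _ => sum_mul_kr_left l (fun i => Q i j) (fun i => F i j)
  have s1' : ∀ (F : Fin m → Fin m → A), ∑ i, ∑ j, Q i j * kr k i (F i j) = ∑ j, Q k j * F k j := by
    intro F
    rw [sum_comm]
    exact sum_congr rfl fun j _ => sum_mul_kr_left k (fun i => Q i j) (fun i => F i j)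
  have s2 : ∀ (F : Fin m → Fin m → A), ∑ i, ∑ j, Q i j * kr l j (F i j) = ∑ i, Q i l * F i l :=
    fun F => sum_congr rfl fun i _ => sum_mul_kr_left l (fun j => Q i j) (fun j => F i j)
  have s2' : ∀ (F : Fin m → Fin m → A), ∑ i, ∑ j, Q i j * kr k j (F i j) = ∑ i, Q i k * F i k :=
    fun F => sum_congr rfl fun i _ => sum_mul_kr_left k (fun j => Q i j) (fun j => F i j)
  have s3 : ∀ (p : Fin m) (F : Fin m → Fin m → A), ∑ i, ∑ j, kr p i (F i j) = ∑ j, F p j := by
    intro p F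
    rw [sum_comm]
    exact sum_congr rfl fun j _ => sum_kr_left p (fun i => F i j)
  have s4 : ∀ (p : Fin m) (F : Fin m → Fin m → A), ∑ i, ∑ j, kr p j (F i j) = ∑ i, F i p :=
    fun p F => sum_congr rfl fun i _ => sum_kr_left p (fun j => F i j)
  have e2 : S.r k l (op Q a b f) = ∑ i, ∑ j, S.r k l (Q i j * a i (b j f)) := by
    change S.r k l (∑ i, ∑ j, Q i j * a i (b j f)) = _
    rw [map_sum]
    exact sum_congr rfl fun i _ => by rw [map_sum]
  rw [e2]
  simp only [e1, sum_add_distrib, sum_sub_distrib]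
  rw [s1 (fun i j => a k (b j f)), s1' (fun i j => a l (b j f)), s2 (fun i j => a i (b k f)),
    s2' (fun i j => a i (b l f)), s3 l (fun i j => Q k j * a i (b j f)),
    s3 k (fun i j => Q l j * a i (b j f)), s4 l (fun i j => Q i k * a i (b j f)),
    s4 k (fun i j => Q i l * a i (b j f))]
  change _ = ∑ i, ∑ j, Q i j * a i (b j (S.r k l f))
  ring

theorem Dl_mem {f : A} (hf : f ∈ S.B) : S.Dl Q f ∈ S.B := by
  intro i j
  change S.r i j (- op Q S.v S.v f) = 0
  rw [map_neg, hQ.r_op S.rv S.rv, hf i j, map_zero, neg_zero]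

theorem El_mem {f : A} (hf : f ∈ S.B) : S.El Q f ∈ S.B := by
  intro i j
  change S.r i j (op Q S.v S.h f) = 0
  rw [hQ.r_op S.rv S.rh, hf i j, map_zero]

theorem Sl_mem {f : A} (hf : f ∈ S.B) : S.Sl Q f ∈ S.B := by
  intro i j
  change S.r i j (- op Q S.h S.h f) = 0
  rw [map_neg, hQ.r_op S.rh S.rh, hf i j, map_zero, neg_zero]

end IsProj

end Sys

end Vale.Agent.P207.H662
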