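import Vale.Agent.P207.H662.Rel
import Vale.Agent.P207.H662.Lad

/-!
# P207, block QF: the projections `P`, `1 - P`, the commutators of the Laplacians
-/

open Finset

set_option linter.unusedSectionVars false

noncomputable section

namespace Vale.Agent.P207.H662

namespace Sys

variable {m : ℕ} {A : Type*} [CommRing A] [Algebra ℝ A] (S : Sys m A)

/-- the complementary projection `1 - P` -/
def Qc (i j : Fin m) : A := kr i j 1 - S.P i j

theorem Qc_apply (i j : Fin m) : S.Qc i j = kr i j 1 - S.P i j := rfl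

theorem map_kr_one (φ : Derivation ℝ A A) (i j : Fin m) : φ (kr i j (1 : A)) = 0 := by
  unfold kr; split_ifs <;> simp

theorem div_P (j : Fin m) : ∑ i, S.v i (S.P i j) = 0 := by
  have h1 : ∀ i, S.v i (S.P i j) = (1 / 3 : ℝ) • S.T i i j := by
    intro i
    rw [S.vP i i j, T_self, add_zero]
  rw [sum_congr rfl fun i _ => h1 i, ← smul_sum, S.Tric, smul_zero]

theorem isProj_P : S.IsProj S.P 4 S.d where
  symm := S.Psymm
  idem := S.Pidem
  tr := S.Ptr
  X := S.XP
  h := S.hP
  r := S.rP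
  P := by
    intro i k
    rw [S.Pidem, show (3 : A) = algebraMap ℝ A 3 from (map_ofNat (algebraMap ℝ A) 3).symm,
      ← Algebra.smul_def]
    norm_num
  div := S.div_P
  T := S.TP

theorem isProj_Q : S.IsProj S.Qc 1 (m - S.d) where
  symm := by intro i j; rw [Qc_apply, Qc_apply, kr_comm, S.Psymm]
  idem := by
    intro i k
    have h1 : ∀ j, S.Qc i j * S.Qc j k = kr j k (kr i j 1) - S.P i j * kr j k 1 -
        S.P j k * kr i j 1 + S.P i j * S.P j k := by
      intro j
      rw [Qc_apply, Qc_apply, sub_mul, mul_sub, mul_sub, mul_kr j k (kr i j 1) 1, mul_one]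
      ring
    rw [sum_congr rfl fun j _ => h1 j, sum_add_distrib, sum_sub_distrib, sum_sub_distrib,
      S.Pidem, sum_kr_right, sum_mul_kr_right k (fun j => S.P i j) (fun _ => (1 : A)),
      sum_mul_kr_left i (fun j => S.P j k) (fun _ => (1 : A)), Qc_apply]
    ring
  tr := by
    simp only [Qc_apply, sum_sub_distrib, S.Ptr, map_sub]
    congr 1
    simp [kr]
  X := by intro i j; rw [Qc_apply, map_sub, map_kr_one, S.XP, sub_zero]
  h := by intro k i j; rw [Qc_apply, map_sub, map_kr_one, S.hP, sub_zero]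
  r := by
    intro a b i j
    simp only [Qc_apply, map_sub, map_kr_one, S.rP]
    have h1 : ∀ (p q : Fin m) (x y : A), kr p q (x - y) = kr p q x - kr p q y := by
      intro p q x y; unfold kr; split_ifs <;> simp
    rw [h1, h1, h1, h1]
    have h2 : kr b i (kr a j (1 : A)) - kr a i (kr b j 1) + kr b j (kr i a 1) -
        kr a j (kr i b 1) = 0 := by
      rw [kr_comm i a, kr_comm i b, kr_eq b i, kr_eq a i (kr b j 1), kr_eq b j (kr a i 1),
        kr_eq a j (kr b i 1)]
      ring
    linear_combination -h2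
  P := by
    intro i k
    have h1 : ∑ j, S.Qc i j * S.P j k = 0 := by
      have : ∀ j, S.Qc i j * S.P j k = S.P j k * kr i j 1 - S.P i j * S.P j k := by
        intro j; rw [Qc_apply]; ring
      rw [sum_congr rfl fun j _ => this j, sum_sub_distrib, S.Pidem,
        sum_mul_kr_left i (fun j => S.P j k) (fun _ => (1 : A))]
      ring
    rw [h1]; simp
  div := by
    intro j
    simp only [Qc_apply, map_sub, map_kr_one, zero_sub, sum_neg_distrib, S.div_P, neg_zero]
  T := by
    intro k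
    have h1 : ∀ i, ∑ j, S.Qc i j * S.T i j k = S.T i i k - ∑ j, S.P i j * S.T i j k := by
      intro i
      have : ∀ j, S.Qc i j * S.T i j k = S.T i j k * kr i j 1 - S.P i j * S.T i j k := by
        intro j; rw [Qc_apply]; ring
      rw [sum_congr rfl fun j _ => this j, sum_sub_distrib,
        sum_mul_kr_left i (fun j => S.T i j k) (fun _ => (1 : A))]
      ring
    rw [sum_congr rfl fun i _ => h1 i, sum_sub_distrib, S.Tric, S.TP, sub_zero]

theorem P_Qc (i k : Fin m) : ∑ j, S.P i j * S.Qc j k = 0 := by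
  have : ∀ j, S.P i j * S.Qc j k = S.P i j * kr j k 1 - S.P i j * S.P j k := by
    intro j; rw [Qc_apply]; ring
  rw [sum_congr rfl fun j _ => this j, sum_sub_distrib, S.Pidem,
    sum_mul_kr_right k (fun j => S.P i j) (fun _ => (1 : A))]
  ring

/-! ### comparison with the spherical calculi -/

theorem leaf_Del (f : A) : S.leaf.Del f = S.Dl S.P f := by
  rw [Leaf.Del_apply, Dl_apply]
  congr 1
  change ∑ i, S.D i (S.D i f) = _
  have h1 : ∀ i, S.D i (S.D i f) = ∑ j, ∑ k, S.P i j * (S.P i k * S.v k (S.v j f)) := by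
    intro i
    rw [S.D_apply i f, map_sum]
    refine sum_congr rfl fun j _ => ?_
    rw [S.D_P_mul, D_apply, mul_sum]
  rw [sum_congr rfl fun i _ => h1 i, sum_comm]
  have h2 : ∀ j, ∑ i, ∑ k, S.P i j * (S.P i k * S.v k (S.v j f)) =
      ∑ k, S.P k j * S.v k (S.v j f) := by
    intro j
    rw [sum_comm]
    refine sum_congr rfl fun k _ => ?_
    rw [← S.Pidem k j, sum_mul]
    refine sum_congr rfl fun i _ => ?_
    rw [S.Psymm k i]; ring
  rw [sum_congr rfl fun j _ => h2 j, sum_comm]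

theorem tot_Del (f : A) : S.tot.Del f = S.Dl S.Qc f + S.Dl S.P f := by
  rw [Leaf.Del_apply, Dl_apply, Dl_apply, ← neg_add]
  congr 1
  change ∑ i, S.v i (S.v i f) = _
  rw [← sum_add_distrib]
  refine sum_congr rfl fun i _ => ?_
  rw [← sum_add_distrib]
  have : ∀ j, S.Qc i j * S.v i (S.v j f) + S.P i j * S.v i (S.v j f) =
      S.v i (S.v j f) * kr i j 1 := by
    intro j; rw [Qc_apply]; ring
  rw [sum_congr rfl fun j _ => this j,
    sum_mul_kr_left i (fun j => S.v i (S.v j f)) (fun _ => (1 : A)), mul_one]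

/-- `Δ_2` commutes with `S_1` -/
theorem Dl_Sl (f : A) : S.Dl S.P (S.Sl S.Qc f) = S.Sl S.Qc (S.Dl S.P f) := by
  have hD : ∀ l f, S.D l (S.Sl S.Qc f) = S.Sl S.Qc (S.D l f) := by
    intro l f
    have hq : ∀ i j g, S.D l (S.Qc i j * g) = S.Qc i j * S.D l g := by
      intro i j g
      rw [Qc_apply, sub_mul, map_sub, S.D_P_mul, sub_mul]
      congr 1
      unfold kr; split_ifs <;> simp
    have hh : ∀ i g, S.D l (S.h i g) = S.h i (S.D l g) - S.P l i * S.X g := by
      intro i g
      rw [D_apply, D_apply, map_sum]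
      have h1 : ∀ k, S.P l k * S.v k (S.h i g) = S.h i (S.P l k * S.v k g) -
          S.P l k * kr k i (S.X g) := by
        intro k
        rw [S.vh, S.h_P_mul]; ring
      rw [sum_congr rfl fun k _ => h1 k, sum_sub_distrib,
        sum_mul_kr_right i (fun k => S.P l k) (fun _ => S.X g)]
    have h2 : ∀ i j, S.D l (S.Qc i j * S.h i (S.h j f)) =
        S.Qc i j * S.h i (S.h j (S.D l f)) - S.P l j * S.Qc j i * S.h i (S.X f)
        - S.P l i * S.Qc i j * S.X (S.h j f) := by
      intro i j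
      have hc : S.Qc i j = S.Qc j i := (S.isProj_Q).symm i j
      rw [hq, hh, hh, map_sub, S.h_P_mul, hc]; ring
    rw [Sl_apply, Sl_apply, map_neg, map_sum]
    congr 1
    have h3 : ∑ i, ∑ j, S.P l j * S.Qc j i * S.h i (S.X f) = 0 := by
      refine sum_eq_zero fun i _ => ?_
      rw [← sum_mul, S.P_Qc, zero_mul]
    have h4 : ∑ i, ∑ j, S.P l i * S.Qc i j * S.X (S.h j f) = 0 := by
      rw [sum_comm]
      refine sum_eq_zero fun j _ => ?_
      rw [← sum_mul, S.P_Qc, zero_mul]
    have h5 : ∑ i, S.D l (∑ j, S.Qc i j * S.h i (S.h j f)) =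
        ∑ i, ∑ j, (S.Qc i j * S.h i (S.h j (S.D l f)) - S.P l j * S.Qc j i * S.h i (S.X f)
        - S.P l i * S.Qc i j * S.X (S.h j f)) :=
      sum_congr rfl fun i _ => by
        rw [map_sum]; exact sum_congr rfl fun j _ => h2 i j
    rw [h5]
    simp only [sum_sub_distrib, h3, h4, sub_zero]
  have hDel : ∀ f, S.Dl S.P f = - ∑ l, S.D l (S.D l f) := by
    intro f
    rw [← leaf_Del, Leaf.Del_apply]; rfl
  rw [hDel, hDel, map_neg, map_sum]
  congr 1
  exact sum_congr rfl fun l _ => by rw [hD, hD]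

/-! ### `[Δ, Δ_2] = 0` -/

theorem v_G {f : A} (hf : f ∈ S.B) (k i j : Fin m) :
    S.v k (S.v i (S.v j f)) = S.v i (S.v k (S.v j f)) + kr k j (S.v i f) - kr i j (S.v k f) := by
  rw [S.vv k i, S.rv, hf i k, map_zero]; ring

theorem v_comm {f : A} (hf : f ∈ S.B) (i j : Fin m) : S.v i (S.v j f) = S.v j (S.v i f) := by
  rw [S.vv i j, hf j i, add_zero]

/-- the sphere Laplacian of the Hessian -/
theorem sum_v_v_G {f : A} (hf : f ∈ S.B) (i j : Fin m) :
    ∑ k, S.v k (S.v k (S.v i (S.v j f))) = S.v i (S.v j (∑ k, S.v k (S.v k f)))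
      + (2 * m : ℝ) • S.v i (S.v j f) - (2 : ℝ) • kr i j (∑ k, S.v k (S.v k f)) := by
  have hr : ∀ k, S.r i k (S.v k (S.v j f)) = kr k j (S.v k (S.v i f)) -
      kr i j (S.v k (S.v k f)) + S.v i (S.v j f) - kr i k (S.v k (S.v j f)) := by
    intro k
    rw [S.rv, S.rv, hf i k, map_zero, zero_add, map_sub, map_kr', map_kr']
    have : kr k k (S.v i (S.v j f)) = S.v i (S.v j f) := by simp [kr]
    rw [this]
  have h1 : ∀ k, S.v k (S.v k (S.v i (S.v j f))) = S.v i (S.v k (S.v k (S.v j f)))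
      + (kr k j (S.v k (S.v i f)) - kr i j (S.v k (S.v k f)) + S.v i (S.v j f)
        - kr i k (S.v k (S.v j f)))
      + kr k j (S.v k (S.v i f)) - kr i j (S.v k (S.v k f)) := by
    intro k
    rw [S.v_G hf k i j, map_sub, map_add, map_kr', map_kr', S.vv k i, hr]
  have h2 : ∑ k, S.v k (S.v k (S.v j f)) = S.v j (∑ k, S.v k (S.v k f)) +
      (m : ℝ) • S.v j f - S.v j f := by
    have h3 : ∀ k, S.v k (S.v k (S.v j f)) = S.v j (S.v k (S.v k f)) + S.v j f
        - kr j k (S.v k f) := by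
      intro k
      rw [S.v_comm hf k j, S.v_G hf k j k]
      have : kr k k (S.v j f) = S.v j f := by simp [kr]
      rw [this]
    rw [sum_congr rfl fun k _ => h3 k, sum_sub_distrib, sum_add_distrib, sum_kr_left, map_sum,
      sum_const, card_univ, Fintype.card_fin, ← Nat.cast_smul_eq_nsmul ℝ]
  have e2 : ∀ (F : Fin m → A) (i j : Fin m), ∑ c, kr i j (F c) = kr i j (∑ c, F c) := by
    intro F i j; unfold kr; split_ifs <;> simp
  rw [sum_congr rfl fun k _ => h1 k]
  simp only [sum_sub_distrib, sum_add_distrib, sum_kr_left, sum_kr_right, sum_const, card_univ,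
    Fintype.card_fin, ← Nat.cast_smul_eq_nsmul ℝ, e2]
  rw [← map_sum, h2, map_sub, map_add, Derivation.map_smul, S.v_comm hf j i]
  module

/-- the cubic term vanishes -/
theorem cubic {f : A} (hf : f ∈ S.B) :
    ∑ k, ∑ i, ∑ j, S.v k (S.P i j) * S.v k (S.v i (S.v j f)) = 0 := by
  have hc : ∀ k i j, S.v k (S.v i (S.v j f)) - S.v j (S.v i (S.v k f)) =
      kr k i (S.v j f) - kr j i (S.v k f) := by
    intro k i j
    have h1 := S.v_G hf k j i
    rw [S.v_comm hf j i, S.v_comm hf k i] at h1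
    rw [h1]; ring
  -- `∑ T_ikj v_k G_ij = 0`
  have h1 : ∑ k, ∑ i, ∑ j, S.T i k j * S.v k (S.v i (S.v j f)) = 0 := by
    have h2 : ∑ k, ∑ i, ∑ j, S.T i k j * S.v k (S.v i (S.v j f)) =
        - ∑ k, ∑ i, ∑ j, S.T i k j * S.v j (S.v i (S.v k f)) := by
      have : ∑ k, ∑ i, ∑ j, S.T i k j * S.v j (S.v i (S.v k f)) =
          ∑ k, ∑ i, ∑ j, S.T i j k * S.v k (S.v i (S.v j f)) := by
        rw [sum_congr rfl fun k _ => sum_comm, sum_comm]
        exact sum_congr rfl fun k _ => sum_comm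
      rw [this, ← sum_neg_distrib]
      refine sum_congr rfl fun k _ => ?_
      rw [← sum_neg_distrib]
      refine sum_congr rfl fun i _ => ?_
      rw [← sum_neg_distrib]
      refine sum_congr rfl fun j _ => ?_
      rw [S.Tanti i k j]; ring
    have h3 : ∑ k, ∑ i, ∑ j, S.T i k j * S.v k (S.v i (S.v j f)) -
        ∑ k, ∑ i, ∑ j, S.T i k j * S.v j (S.v i (S.v k f)) = 0 := by
      simp only [← sum_sub_distrib, ← mul_sub, hc]
      have h4 : ∀ k i, ∑ j, S.T i k j * (kr k i (S.v j f) - kr j i (S.v k f)) =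
          kr k i (∑ j, S.T i k j * S.v j f) - S.T i k i * S.v k f := by
        intro k i
        simp only [mul_sub, sum_sub_distrib]
        rw [sum_mul_kr_right i (fun j => S.T i k j) (fun _ => S.v k f)]
        congr 1
        unfold kr; split_ifs <;> simp
      simp only [h4, sum_sub_distrib, sum_kr_left]
      have h5 : ∑ k, ∑ i, S.T i k i * S.v k f = 0 := by
        refine sum_eq_zero fun k _ => ?_
        have : ∀ i, S.T i k i * S.v k f = - (S.T i i k * S.v k f) := by
          intro i; rw [S.Tanti i k i]; ring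
        rw [sum_congr rfl fun i _ => this i, sum_neg_distrib, ← sum_mul, S.Tric]; simp
      have h6 : ∑ k, ∑ j, S.T k k j * S.v j f = 0 := by
        rw [sum_comm]
        refine sum_eq_zero fun j _ => ?_
        rw [← sum_mul, S.Tric, zero_mul]
      rw [h5, h6, sub_zero]
    refine eq_zero_of_eq_neg ?_
    have h4 := sub_eq_zero.1 h3
    rw [← h4] at h2
    exact h2
  have h2 : ∑ k, ∑ i, ∑ j, S.T j k i * S.v k (S.v i (S.v j f)) = 0 := by
    rw [← h1]
    refine sum_congr rfl fun k _ => ?_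
    rw [sum_comm]
    exact sum_congr rfl fun i _ => sum_congr rfl fun j _ => by rw [S.v_comm hf i j]
  have h3 : ∀ k i j, S.v k (S.P i j) * S.v k (S.v i (S.v j f)) =
      (1 / 3 : ℝ) • (S.T i k j * S.v k (S.v i (S.v j f)) +
        S.T j k i * S.v k (S.v i (S.v j f))) := by
    intro k i j
    rw [S.vP, smul_mul_assoc, add_mul]
  simp only [h3, ← smul_sum, sum_add_distrib, h1, h2, add_zero, smul_zero]

theorem tot_Dl {f : A} (hf : f ∈ S.B) :
    S.tot.Del (S.Dl S.P f) = S.Dl S.P (S.tot.Del f) := by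
  have hd : S.tot.Del f = - ∑ k, S.v k (S.v k f) := Leaf.Del_apply _ _
  have hd2 : S.tot.Del (S.Dl S.P f) = - ∑ k, S.v k (S.v k (S.Dl S.P f)) := Leaf.Del_apply _ _
  have h1 : ∀ k i j, S.v k (S.v k (S.P i j * S.v i (S.v j f))) =
      S.v k (S.v k (S.P i j)) * S.v i (S.v j f)
      + (2 : ℝ) • (S.v k (S.P i j) * S.v k (S.v i (S.v j f)))
      + S.P i j * S.v k (S.v k (S.v i (S.v j f))) := by
    intro k i j
    rw [Derivation.leibniz, map_add, smul_eq_mul, smul_eq_mul, Derivation.leibniz,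
      Derivation.leibniz, two_smul]
    simp only [smul_eq_mul]
    ring
  have h2 : S.tot.Del (S.Dl S.P f) = ∑ k, ∑ i, ∑ j,
      (S.v k (S.v k (S.P i j)) * S.v i (S.v j f)
      + (2 : ℝ) • (S.v k (S.P i j) * S.v k (S.v i (S.v j f)))
      + S.P i j * S.v k (S.v k (S.v i (S.v j f)))) := by
    rw [hd2, Dl_apply, ← sum_neg_distrib]
    refine sum_congr rfl fun k _ => ?_
    rw [map_neg, map_neg, neg_neg, map_sum, map_sum]
    refine sum_congr rfl fun i _ => ?_
    rw [map_sum, map_sum]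
    exact sum_congr rfl fun j _ => h1 k i j
  have h3 : ∑ k, ∑ i, ∑ j, S.v k (S.v k (S.P i j)) * S.v i (S.v j f) =
      (2 * m : ℝ) • S.Dl S.P f - (2 * S.d) • S.tot.Del f := by
    have h4 : ∑ k, ∑ i, ∑ j, S.v k (S.v k (S.P i j)) * S.v i (S.v j f) =
        ∑ i, ∑ j, (∑ k, S.v k (S.v k (S.P i j))) * S.v i (S.v j f) := by
      rw [sum_comm]
      refine sum_congr rfl fun i _ => ?_
      rw [sum_comm]
      exact sum_congr rfl fun j _ => by rw [sum_mul]
    rw [h4]
    simp only [S.vvP]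
    have h5 : ∀ i j, (-((2 * m : ℝ) • S.P i j) + (2 * S.d) • kr i j 1) * S.v i (S.v j f) =
        -((2 * m : ℝ) • (S.P i j * S.v i (S.v j f))) +
        (2 * S.d) • kr i j (S.v i (S.v j f)) := by
      intro i j
      rw [add_mul, neg_mul, smul_mul_assoc, smul_mul_assoc, kr_mul, one_mul]
    simp only [h5, sum_add_distrib, sum_neg_distrib, ← smul_sum, sum_kr_left]
    rw [Dl_apply, hd]; module
  have h4 : ∑ k, ∑ i, ∑ j, (2 : ℝ) • (S.v k (S.P i j) * S.v k (S.v i (S.v j f))) = 0 := by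
    simp only [← smul_sum]
    rw [S.cubic hf, smul_zero]
  have h5 : ∑ k, ∑ i, ∑ j, S.P i j * S.v k (S.v k (S.v i (S.v j f))) =
      S.Dl S.P (S.tot.Del f) - (2 * m : ℝ) • S.Dl S.P f + (2 * S.d) • S.tot.Del f := by
    have h6 : ∑ k, ∑ i, ∑ j, S.P i j * S.v k (S.v k (S.v i (S.v j f))) =
        ∑ i, ∑ j, S.P i j * ∑ k, S.v k (S.v k (S.v i (S.v j f))) := by
      rw [sum_comm]
      refine sum_congr rfl fun i _ => ?_
      rw [sum_comm]
      exact sum_congr rfl fun j _ => by rw [mul_sum]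
    rw [h6]
    simp only [S.sum_v_v_G hf]
    have h7 : ∀ i j, S.P i j * (S.v i (S.v j (∑ k, S.v k (S.v k f)))
      + (2 * m : ℝ) • S.v i (S.v j f) - (2 : ℝ) • kr i j (∑ k, S.v k (S.v k f))) =
        S.P i j * S.v i (S.v j (∑ k, S.v k (S.v k f))) +
        (2 * m : ℝ) • (S.P i j * S.v i (S.v j f)) -
        (2 : ℝ) • (S.P i j * kr i j (∑ k, S.v k (S.v k f))) := by
      intro i j
      rw [mul_sub, mul_add, mul_smul_comm, mul_smul_comm]
    simp only [h7, sum_sub_distrib, sum_add_distrib, ← smul_sum]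
    have h8 : ∑ i, ∑ j, S.P i j * kr i j (∑ k, S.v k (S.v k f)) =
        S.d • ∑ k, S.v k (S.v k f) := by
      rw [← (S.isProj_P).tr_mul (∑ k, S.v k (S.v k f))]
      exact sum_congr rfl fun i _ => sum_mul_kr_left i (fun j => S.P i j)
        (fun _ => ∑ k, S.v k (S.v k f))
    rw [h8, Dl_apply, Dl_apply, hd]
    simp only [map_neg, mul_neg, sum_neg_distrib]
    module
  rw [h2]
  simp only [sum_add_distrib]
  rw [h3, h4, h5]
  module

theorem Dl_comm {f : A} (hf : f ∈ S.B) :
    S.Dl S.Qc (S.Dl S.P f) = S.Dl S.P (S.Dl S.Qc f) := by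
  have h := S.tot_Dl hf
  rw [tot_Del, tot_Del, map_add] at h
  exact add_right_cancel h

end Sys

end Vale.Agent.P207.H662
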