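import Vale.Agent.P242.H607.PL
import Vale.Agent.P271.F507.PL

/-!
# P207, dimension three: the inequality of Santaló type for horoballs with pairwise intersections

The theorem `sant`: if φ x * χ y * ‖x - y‖² ≤ 1 in the plane, then ∫ φ² ∫ χ² ≤ π².
-/

open MeasureTheory Set Filter
open scoped ENNReal NNReal

noncomputable section

namespace Vale.Agent.P207.H662.Sant

/-- the plane -/
abbrev E2 := EuclideanSpace ℝ (Fin 2)

/-- the Brunn-Minkowski inequality for two sets whose difference lies in a disc -/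
theorem level {A B : Set E2} (hA : MeasurableSet A) (hB : MeasurableSet B) {R : ℝ}
    (h : ∀ x ∈ A, ∀ y ∈ B, ‖x - y‖ ≤ R) {a b : ℝ} (ha : 0 < a) (hb : 0 < b)
    (ha' : ENNReal.ofReal (Real.pi * a ^ 2) ≤ volume A)
    (hb' : ENNReal.ofReal (Real.pi * b ^ 2) ≤ volume B) : a + b ≤ R := by
  have hab : 0 < a + b := add_pos ha hb
  have hne : ∀ {S : Set E2} {c : ℝ}, 0 < c → ENNReal.ofReal (Real.pi * c ^ 2) ≤ volume S →
      S.Nonempty := by
    intro S c hc hS
    by_contra hcon
    rw [Set.not_nonempty_iff_eq_empty] at hcon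
    rw [hcon, measure_empty, nonpos_iff_eq_zero, ENNReal.ofReal_eq_zero] at hS
    have : 0 < Real.pi * c ^ 2 := by positivity
    linarith
  have hR : 0 ≤ R := by
    obtain ⟨x, hx⟩ := hne ha ha'
    obtain ⟨y, hy⟩ := hne hb hb'
    exact (norm_nonneg _).trans (h x hx y hy)
  have hscale : ∀ {S : Set E2} {c : ℝ}, c ≠ 0 → ENNReal.ofReal (Real.pi * c ^ 2) ≤ volume S →
      ENNReal.ofReal Real.pi ≤ volume ((fun x : E2 => c • x) ⁻¹' S) := by
    intro S c hc hS
    rw [Measure.addHaar_preimage_smul _ hc]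
    have hf : Module.finrank ℝ E2 = 2 := by simp
    rw [hf]
    have h1 : |(c ^ 2)⁻¹| = (c ^ 2)⁻¹ := abs_of_nonneg (by positivity)
    rw [h1]
    refine le_trans (le_of_eq ?_) (mul_le_mul_right hS _)
    rw [← ENNReal.ofReal_mul (by positivity)]
    congr 1
    field_simp
  set A' : Set E2 := (fun x : E2 => a • x) ⁻¹' A with hA'
  set B' : Set E2 := (fun x : E2 => (-b) • x) ⁻¹' B with hB'
  set C' : Set E2 := Metric.closedBall 0 (R / (a + b)) with hC'
  have mA' : MeasurableSet A' := measurable_const_smul a hA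
  have mB' : MeasurableSet B' := measurable_const_smul (-b) hB
  have mC' : MeasurableSet C' := Metric.isClosed_closedBall.measurableSet
  have vA : ENNReal.ofReal Real.pi ≤ volume A' := hscale ha.ne' ha'
  have vB : ENNReal.ofReal Real.pi ≤ volume B' :=
    hscale (neg_ne_zero.2 hb.ne') (by rwa [neg_sq])
  have hvp := PiLp.volume_preserving_toLp (Fin 2)
  have tr : ∀ {S : Set E2}, MeasurableSet S →
      volume ((WithLp.toLp 2 : (Fin 2 → ℝ) → E2) ⁻¹' S) = volume S :=
    fun hS => hvp.measure_preimage hS.nullMeasurableSet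
  have key := Vale.Agent.P271.F507.bm_mul (s := a / (a + b)) (t := b / (a + b))
    (div_pos ha hab) (div_pos hb hab) (by field_simp)
    (A := (WithLp.toLp 2 : (Fin 2 → ℝ) → E2) ⁻¹' A')
    (B := (WithLp.toLp 2 : (Fin 2 → ℝ) → E2) ⁻¹' B')
    (C := (WithLp.toLp 2 : (Fin 2 → ℝ) → E2) ⁻¹' C')
    (hvp.measurable mA') (hvp.measurable mB') (hvp.measurable mC') (by
      intro x hx y hy
      rw [mem_preimage] at hx hy ⊢
      rw [hC', mem_closedBall_zero_iff]
      have e1 : (WithLp.toLp 2 ((a / (a + b)) • x + (b / (a + b)) • y) : E2) =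
          (a + b)⁻¹ • (a • (WithLp.toLp 2 x : E2) - (-b) • (WithLp.toLp 2 y : E2)) := by
        ext i
        simp only [PiLp.smul_apply, PiLp.sub_apply, Pi.add_apply, Pi.smul_apply, smul_eq_mul]
        field_simp
        ring
      rw [e1, norm_smul, norm_inv, Real.norm_of_nonneg hab.le, div_eq_inv_mul]
      exact mul_le_mul_of_nonneg_left (h _ hx _ hy) (inv_nonneg.2 hab.le))
  rw [tr mA', tr mB', tr mC', hC', EuclideanSpace.volume_closedBall_fin_two] at key
  have h2 : ENNReal.ofReal Real.pi ≤ ENNReal.ofReal (R / (a + b)) ^ 2 * ENNReal.ofReal Real.pi := by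
    refine le_trans (le_of_eq ?_) (le_trans (mul_le_mul'
      (ENNReal.rpow_le_rpow vA (div_pos ha hab).le) (ENNReal.rpow_le_rpow vB (div_pos hb hab).le))
      key)
    rw [← ENNReal.rpow_add_of_nonneg _ _ (div_pos ha hab).le (div_pos hb hab).le]
    have : a / (a + b) + b / (a + b) = 1 := by field_simp
    rw [this, ENNReal.rpow_one]
  rw [← ENNReal.ofReal_pow (by positivity), ← ENNReal.ofReal_mul (by positivity),
    ENNReal.ofReal_le_ofReal_iff (by positivity)] at h2
  have h3 : 1 ≤ (R / (a + b)) ^ 2 := by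
    have := Real.pi_pos
    by_contra hcon
    push Not at hcon
    nlinarith
  have h4 : 1 ≤ R / (a + b) := by
    have h5 : 0 ≤ R / (a + b) := by positivity
    nlinarith
  rwa [le_div_iff₀ hab, one_mul] at h4

/-- the values whose superlevel set is larger than the disc of radius `e^u` -/
def lv (φ : E2 → ℝ) (u : ℝ) : Set ℝ :=
  {s | 0 < s ∧ ENNReal.ofReal (Real.pi * Real.exp u ^ 2) < volume {x | s < φ x}}

/-- the decreasing rearrangement in the logarithmic radius -/
def star (φ : E2 → ℝ) (u : ℝ) : ℝ := sSup (lv φ u)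

variable {φ χ : E2 → ℝ}

theorem bdd_lv {Mb : ℝ} (hb : ∀ x, φ x ≤ Mb) (u : ℝ) : BddAbove (lv φ u) := by
  refine ⟨Mb, fun s hs => ?_⟩
  by_contra hcon
  push Not at hcon
  have h1 : {x | s < φ x} = ∅ := by
    ext x
    simp only [mem_ofPred_eq, mem_empty_iff_false, iff_false, not_lt]
    exact (hb x).trans hcon.le
  have h2 := hs.2
  rw [h1, measure_empty] at h2
  exact absurd h2 (not_lt.2 zero_le)

theorem star_nonneg (u : ℝ) : 0 ≤ star φ u := Real.sSup_nonneg fun _ hs => hs.1.le

theorem lt_star_iff {Mb : ℝ} (hb : ∀ x, φ x ≤ Mb) {s : ℝ} (hs : 0 ≤ s) (u : ℝ) :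
    s < star φ u ↔ ENNReal.ofReal (Real.pi * Real.exp u ^ 2) < volume {x | s < φ x} := by
  constructor
  · intro h
    have hne : (lv φ u).Nonempty := by
      by_contra hcon
      rw [Set.not_nonempty_iff_eq_empty] at hcon
      rw [star, hcon, Real.sSup_empty] at h
      linarith
    obtain ⟨s', hs', hlt⟩ := exists_lt_of_lt_csSup hne h
    exact hs'.2.trans_le (measure_mono fun x hx => hlt.trans hx)
  · intro h
    have h1 : {x | s < φ x} = ⋃ n : ℕ, {x | s + 1 / ((n : ℝ) + 1) < φ x} := by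
      ext x
      simp only [mem_ofPred_eq, mem_iUnion]
      constructor
      · intro hx
        obtain ⟨n, hn⟩ := exists_nat_one_div_lt (sub_pos.2 hx)
        exact ⟨n, by linarith⟩
      · rintro ⟨n, hn⟩
        have : (0 : ℝ) < 1 / ((n : ℝ) + 1) := by positivity
        linarith
    have hmono : Monotone fun n : ℕ => {x | s + 1 / ((n : ℝ) + 1) < φ x} := by
      intro i j hij x hx
      have : 1 / ((j : ℝ) + 1) ≤ 1 / ((i : ℝ) + 1) :=
        one_div_le_one_div_of_le (by positivity) (by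
          have : (i : ℝ) ≤ j := by exact_mod_cast hij
          linarith)
      have hx' : s + 1 / ((i : ℝ) + 1) < φ x := hx
      exact lt_of_le_of_lt (by linarith) hx'
    rw [h1, hmono.measure_iUnion] at h
    obtain ⟨n, hn⟩ := lt_iSup_iff.1 h
    have hpos : (0 : ℝ) < 1 / ((n : ℝ) + 1) := by positivity
    have hmem : s + 1 / ((n : ℝ) + 1) ∈ lv φ u := ⟨by linarith, hn⟩
    have := le_csSup (bdd_lv hb u) hmem
    exact lt_of_lt_of_le (by linarith) this

theorem star_antitone {Mb : ℝ} (hb : ∀ x, φ x ≤ Mb) : Antitone (star φ) := by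
  intro u v huv
  by_contra hcon
  push Not at hcon
  have h1 := (lt_star_iff hb (star_nonneg u) v).1 hcon
  have h2 : ENNReal.ofReal (Real.pi * Real.exp u ^ 2) < volume {x | star φ u < φ x} := by
    refine lt_of_le_of_lt (ENNReal.ofReal_le_ofReal ?_) h1
    have := Real.exp_le_exp.2 huv
    have := Real.exp_pos u
    gcongr
  exact lt_irrefl _ ((lt_star_iff hb (star_nonneg u) u).2 h2)

theorem star_measurable {Mb : ℝ} (hb : ∀ x, φ x ≤ Mb) : Measurable (star φ) :=
  (star_antitone hb).measurable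

/-- the density of the area in the logarithmic radius -/
def dens (u : ℝ) : ℝ≥0∞ := ENNReal.ofReal (2 * Real.pi * Real.exp u ^ 2)

theorem dens_measurable : Measurable dens :=
  ENNReal.measurable_ofReal.comp ((measurable_const.mul (Real.measurable_exp.pow_const 2)))

/-- the area in the logarithmic radius -/
def mu : Measure ℝ := volume.withDensity dens

theorem mu_star {Mb : ℝ} (hb : ∀ x, φ x ≤ Mb) {s : ℝ} (hs : 0 ≤ s) :
    mu {u | s < star φ u} = volume {x | s < φ x} := by
  set V := volume {x | s < φ x} with hV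
  have hm : MeasurableSet {u | s < star φ u} :=
    measurableSet_lt measurable_const (star_measurable hb)
  rw [mu, withDensity_apply _ hm]
  set f : ℝ → ℝ := fun u => Real.pi * Real.exp u ^ 2 with hf
  have hd : ∀ u ∈ {u | s < star φ u}, HasDerivWithinAt f (2 * Real.pi * Real.exp u ^ 2)
      {u | s < star φ u} u := by
    intro u _
    have h1 : HasDerivAt (fun u => Real.pi * Real.exp u ^ 2)
        (Real.pi * (2 * Real.exp u ^ (2 - 1) * Real.exp u)) u :=
      ((Real.hasDerivAt_exp u).pow 2).const_mul _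
    have h2 : Real.pi * (2 * Real.exp u ^ (2 - 1) * Real.exp u) =
        2 * Real.pi * Real.exp u ^ 2 := by
      simp only [Nat.add_one_sub_one, pow_one]
      ring
    rw [h2] at h1
    exact h1.hasDerivWithinAt
  have hinj : InjOn f {u | s < star φ u} := by
    intro u _ v _ huv
    have h1 : Real.exp u ^ 2 = Real.exp v ^ 2 := mul_left_cancel₀ Real.pi_ne_zero huv
    have h2 : Real.exp u = Real.exp v :=
      (sq_eq_sq₀ (Real.exp_pos u).le (Real.exp_pos v).le).1 h1
    exact Real.exp_injective h2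
  have h1 := lintegral_image_eq_lintegral_abs_deriv_mul hm hd hinj 1
  have h2 : ∫⁻ u in {u | s < star φ u}, dens u =
      ∫⁻ x in {u | s < star φ u}, ENNReal.ofReal |2 * Real.pi * Real.exp x ^ 2| *
        (1 : ℝ → ℝ≥0∞) (f x) := by
    refine lintegral_congr fun u => ?_
    rw [abs_of_nonneg (by positivity), Pi.one_apply, mul_one, dens]
  rw [h2, ← h1]
  simp only [Pi.one_apply, lintegral_one, Measure.restrict_apply MeasurableSet.univ, univ_inter]
  have himg : f '' {u | s < star φ u} = {x | 0 < x ∧ ENNReal.ofReal x < V} := by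
    ext x
    constructor
    · rintro ⟨u, hu, rfl⟩
      exact ⟨by positivity, (lt_star_iff hb hs u).1 hu⟩
    · rintro ⟨hx, hxV⟩
      have hpi := Real.pi_pos
      have e1 : f (Real.log (x / Real.pi) / 2) = x := by
        have h3 : Real.exp (Real.log (x / Real.pi) / 2) ^ 2 = x / Real.pi := by
          rw [← Real.exp_nat_mul]
          have : ((2 : ℕ) : ℝ) * (Real.log (x / Real.pi) / 2) = Real.log (x / Real.pi) := by
            push_cast
            ring
          rw [this, Real.exp_log (by positivity)]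
        simp only [hf]
        rw [h3]
        field_simp
      refine ⟨Real.log (x / Real.pi) / 2, ?_, e1⟩
      rw [mem_ofPred_eq, lt_star_iff hb hs]
      change ENNReal.ofReal (f (Real.log (x / Real.pi) / 2)) < V
      rwa [e1]
  rw [himg]
  rcases eq_or_ne V ⊤ with htop | htop
  · have : {x : ℝ | 0 < x ∧ ENNReal.ofReal x < V} = Ioi 0 := by
      ext x
      simp [htop]
    rw [this, Real.volume_Ioi, htop]
  · have : {x : ℝ | 0 < x ∧ ENNReal.ofReal x < V} = Ioo 0 V.toReal := by
      ext x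
      simp only [mem_ofPred_eq, mem_Ioo]
      refine and_congr_right fun hx => ?_
      rw [ENNReal.ofReal_lt_iff_lt_toReal hx.le htop]
    rw [this, Real.volume_Ioo, sub_zero, ENNReal.ofReal_toReal htop]

/-- the square integral in the logarithmic radius -/
theorem sq_integral {Mb : ℝ} (hb : ∀ x, φ x ≤ Mb) (h0 : ∀ x, 0 ≤ φ x) (hm : Measurable φ) :
    ∫⁻ x, ENNReal.ofReal (φ x ^ 2) =
      ENNReal.ofReal (2 * Real.pi) * ∫⁻ u, ENNReal.ofReal ((star φ u * Real.exp u) ^ 2) := by
  have h1 := lintegral_rpow_eq_lintegral_meas_lt_mul (volume : Measure E2) (f := φ)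
    (Eventually.of_forall h0) hm.aemeasurable (p := 2) (by norm_num)
  have h2 := lintegral_rpow_eq_lintegral_meas_lt_mul mu (f := star φ)
    (Eventually.of_forall star_nonneg) (star_measurable hb).aemeasurable (p := 2) (by norm_num)
  have h3 : ∫⁻ t in Ioi (0 : ℝ), mu {a | t < star φ a} * ENNReal.ofReal (t ^ ((2 : ℝ) - 1)) =
      ∫⁻ t in Ioi (0 : ℝ), volume {a | t < φ a} * ENNReal.ofReal (t ^ ((2 : ℝ) - 1)) := by
    refine setLIntegral_congr_fun measurableSet_Ioi fun t ht => ?_
    rw [mu_star hb (le_of_lt ht)]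
  rw [h3, ← h1] at h2
  simp only [Real.rpow_two] at h2
  have m1 : Measurable fun u => ENNReal.ofReal (star φ u ^ 2) :=
    ENNReal.measurable_ofReal.comp ((star_measurable hb).pow_const 2)
  have m2 : Measurable fun u => ENNReal.ofReal ((star φ u * Real.exp u) ^ 2) :=
    ENNReal.measurable_ofReal.comp (((star_measurable hb).mul Real.measurable_exp).pow_const 2)
  rw [← h2, mu, lintegral_withDensity_eq_lintegral_mul _ dens_measurable m1,
    ← lintegral_const_mul _ m2]
  refine lintegral_congr fun u => ?_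
  rw [Pi.mul_apply, dens, ← ENNReal.ofReal_mul (by positivity), ← ENNReal.ofReal_mul (by positivity)]
  congr 1
  ring

theorem star_mul {Mb Mc : ℝ} (hb : ∀ x, φ x ≤ Mb) (hc : ∀ x, χ x ≤ Mc)
    (hmφ : Measurable φ) (hmχ : Measurable χ)
    (h : ∀ x y, φ x * χ y * ‖x - y‖ ^ 2 ≤ 1) (u v : ℝ) :
    star φ u * star χ v * (Real.exp u + Real.exp v) ^ 2 ≤ 1 := by
  by_contra hcon
  push Not at hcon
  have hE : 0 < Real.exp u + Real.exp v := add_pos (Real.exp_pos _) (Real.exp_pos _)
  have hφ : 0 < star φ u := by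
    rcases (star_nonneg (φ := φ) u).lt_or_eq with h1 | h1
    · exact h1
    · rw [← h1] at hcon
      norm_num at hcon
  have hχ : 0 < star χ v := by
    rcases (star_nonneg (φ := χ) v).lt_or_eq with h1 | h1
    · exact h1
    · rw [← h1] at hcon
      norm_num at hcon
  -- choose levels slightly below
  obtain ⟨s, hs0, hs1, t, ht0, ht1, hst⟩ : ∃ s, 0 < s ∧ s < star φ u ∧ ∃ t, 0 < t ∧
      t < star χ v ∧ 1 < s * t * (Real.exp u + Real.exp v) ^ 2 := by
    have hcont : Continuous fun r : ℝ => (r * star φ u) * (r * star χ v) *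
        (Real.exp u + Real.exp v) ^ 2 := by fun_prop
    have hev : ∀ᶠ r in nhds (1 : ℝ), 1 < (r * star φ u) * (r * star χ v) *
        (Real.exp u + Real.exp v) ^ 2 := by
      refine hcont.continuousAt.eventually (lt_mem_nhds ?_)
      simpa using hcon
    have hev2 : ∀ᶠ r in nhds (1 : ℝ), 0 < r := lt_mem_nhds one_pos
    have hev3 := (hev.and hev2).filter_mono (nhdsWithin_le_nhds (s := Iio 1))
    obtain ⟨r, ⟨h1, h2⟩, h3⟩ := (hev3.and self_mem_nhdsWithin).exists
    have h3' : r < 1 := h3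
    exact ⟨r * star φ u, mul_pos h2 hφ, by nlinarith, r * star χ v, mul_pos h2 hχ,
      by nlinarith, h1⟩
  have hA := (lt_star_iff hb hs0.le u).1 hs1
  have hB := (lt_star_iff hc ht0.le v).1 ht1
  have hst0 : 0 < s * t := mul_pos hs0 ht0
  have hle := level (A := {x | s < φ x}) (B := {x | t < χ x})
    (measurableSet_lt measurable_const hmφ) (measurableSet_lt measurable_const hmχ)
    (R := Real.sqrt (s * t)⁻¹) (by
      intro x hx y hy
      have hx' : s < φ x := hx
      have hy' : t < χ y := hy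
      apply Real.le_sqrt_of_sq_le
      have h1 := h x y
      have h2 : s * t * ‖x - y‖ ^ 2 ≤ φ x * χ y * ‖x - y‖ ^ 2 := by
        have : s * t ≤ φ x * χ y :=
          mul_le_mul hx'.le hy'.le ht0.le (hs0.le.trans hx'.le)
        exact mul_le_mul_of_nonneg_right this (sq_nonneg _)
      rw [← one_div, le_div_iff₀ hst0]
      nlinarith) (Real.exp_pos u) (Real.exp_pos v) hA.le hB.le
  have h5 : (Real.exp u + Real.exp v) ^ 2 ≤ (s * t)⁻¹ := by
    have h6 : (Real.exp u + Real.exp v) ^ 2 ≤ Real.sqrt (s * t)⁻¹ ^ 2 :=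
      pow_le_pow_left₀ hE.le hle 2
    rwa [Real.sq_sqrt (inv_nonneg.2 hst0.le)] at h6
  have h7 : s * t * (Real.exp u + Real.exp v) ^ 2 ≤ s * t * (s * t)⁻¹ :=
    mul_le_mul_of_nonneg_left h5 hst0.le
  rw [mul_inv_cancel₀ hst0.ne'] at h7
  linarith

/-- the kernel -/
def ker (w : ℝ) : ℝ := (Real.exp w / (1 + Real.exp w ^ 2)) ^ 2

theorem ker_integral : ∫⁻ w, ENNReal.ofReal (ker w) ≤ ENNReal.ofReal (1 / 2) := by
  set G : ℝ → ℝ := fun w => Real.exp w ^ 2 / (2 * (1 + Real.exp w ^ 2)) with hG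
  have hd : ∀ w ∈ (univ : Set ℝ), HasDerivWithinAt G (ker w) univ w := by
    intro w _
    have h1 : HasDerivAt (fun w => Real.exp w ^ 2) (2 * Real.exp w ^ (2 - 1) * Real.exp w) w :=
      (Real.hasDerivAt_exp w).pow 2
    have hne : 2 * (1 + Real.exp w ^ 2) ≠ 0 := by positivity
    have h2 := h1.div ((h1.const_add 1).const_mul 2) hne
    have h3 : (2 * Real.exp w ^ (2 - 1) * Real.exp w * (2 * (1 + Real.exp w ^ 2)) -
        Real.exp w ^ 2 * (2 * (2 * Real.exp w ^ (2 - 1) * Real.exp w))) /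
        (2 * (1 + Real.exp w ^ 2)) ^ 2 = ker w := by
      unfold ker
      simp only [Nat.add_one_sub_one, pow_one]
      field_simp
      ring
    rw [h3] at h2
    exact h2.hasDerivWithinAt
  have hinj : InjOn G univ := by
    intro x _ y _ hxy
    have h1 : Real.exp x ^ 2 / (2 * (1 + Real.exp x ^ 2)) =
        Real.exp y ^ 2 / (2 * (1 + Real.exp y ^ 2)) := hxy
    rw [div_eq_div_iff (by positivity) (by positivity)] at h1
    have h2 : Real.exp x ^ 2 = Real.exp y ^ 2 := by nlinarith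
    exact Real.exp_injective ((sq_eq_sq₀ (Real.exp_pos _).le (Real.exp_pos _).le).1 h2)
  have h1 := lintegral_image_eq_lintegral_abs_deriv_mul MeasurableSet.univ hd hinj 1
  have h2 : ∫⁻ w, ENNReal.ofReal (ker w) =
      ∫⁻ x in univ, ENNReal.ofReal |ker x| * (1 : ℝ → ℝ≥0∞) (G x) := by
    rw [Measure.restrict_univ]
    refine lintegral_congr fun u => ?_
    rw [abs_of_nonneg (by unfold ker; positivity), Pi.one_apply, mul_one]
  rw [h2, ← h1]
  simp only [Pi.one_apply, lintegral_one, Measure.restrict_apply MeasurableSet.univ, univ_inter]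
  have hsub : G '' univ ⊆ Ioo 0 (1 / 2) := by
    rintro _ ⟨w, -, rfl⟩
    simp only [hG, mem_Ioo]
    constructor
    · positivity
    · rw [div_lt_div_iff₀ (by positivity) (by norm_num)]
      nlinarith [Real.exp_pos w]
  refine (measure_mono hsub).trans (le_of_eq ?_)
  rw [Real.volume_Ioo, sub_zero]

theorem sant_bdd {Mb Mc : ℝ} (hb : ∀ x, φ x ≤ Mb) (hc : ∀ x, χ x ≤ Mc)
    (hφ : ∀ x, 0 ≤ φ x) (hχ : ∀ x, 0 ≤ χ x) (hmφ : Measurable φ) (hmχ : Measurable χ)
    (h : ∀ x y, φ x * χ y * ‖x - y‖ ^ 2 ≤ 1) :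
    (∫⁻ x, ENNReal.ofReal (φ x ^ 2)) * (∫⁻ x, ENNReal.ofReal (χ x ^ 2)) ≤
      ENNReal.ofReal (Real.pi ^ 2) := by
  rw [sq_integral hb hφ hmφ, sq_integral hc hχ hmχ]
  have hsym : ∫⁻ u, ENNReal.ofReal ((star χ u * Real.exp u) ^ 2) =
      ∫⁻ u, ENNReal.ofReal ((star χ (-u) * Real.exp (-u)) ^ 2) :=
    (lintegral_neg_eq_self fun u => ENNReal.ofReal ((star χ u * Real.exp u) ^ 2)).symm
  have hpl := Vale.Agent.P242.H607.PL.pl_one
    (fun u => ENNReal.ofReal ((star φ u * Real.exp u) ^ 2))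
    (fun u => ENNReal.ofReal ((star χ (-u) * Real.exp (-u)) ^ 2))
    (fun w => ENNReal.ofReal (ker w))
    (ENNReal.measurable_ofReal.comp (((star_measurable hb).mul Real.measurable_exp).pow_const 2))
    (ENNReal.measurable_ofReal.comp ((((star_measurable hc).comp measurable_neg).mul
      (Real.measurable_exp.comp measurable_neg)).pow_const 2))
    (ENNReal.measurable_ofReal.comp ((Real.measurable_exp.div
      (measurable_const.add (Real.measurable_exp.pow_const 2))).pow_const 2))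
    (by
      intro x y
      rw [← ENNReal.ofReal_mul (by positivity), ← ENNReal.ofReal_pow (by unfold ker; positivity)]
      apply ENNReal.ofReal_le_ofReal
      have h1 := star_mul hb hc hmφ hmχ h x (-y)
      have hA : 0 ≤ star φ x * star χ (-y) := mul_nonneg (star_nonneg _) (star_nonneg _)
      -- the kernel
      have h2 : ker ((x + y) / 2) =
          (Real.exp x * Real.exp (-y)) / (Real.exp x + Real.exp (-y)) ^ 2 := by
        unfold ker
        have e1 : Real.exp x = Real.exp ((x + y) / 2) * Real.exp ((x - y) / 2) := by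
          rw [← Real.exp_add]; congr 1; ring
        have e2 : Real.exp (-y) = Real.exp ((x - y) / 2) / Real.exp ((x + y) / 2) := by
          rw [← Real.exp_sub]; congr 1; ring
        rw [e1, e2]
        have p1 := Real.exp_pos ((x + y) / 2)
        have p2 := Real.exp_pos ((x - y) / 2)
        field_simp
        ring
      have hE : 0 < Real.exp x + Real.exp (-y) := add_pos (Real.exp_pos _) (Real.exp_pos _)
      have h3 : star φ x * star χ (-y) ≤ 1 / (Real.exp x + Real.exp (-y)) ^ 2 := by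
        rw [le_div_iff₀ (by positivity)]
        exact h1
      have h4 : (star φ x * star χ (-y)) * (Real.exp x * Real.exp (-y)) ≤ ker ((x + y) / 2) := by
        rw [h2, div_eq_mul_one_div, mul_comm (Real.exp x * Real.exp (-y))]
        exact mul_le_mul_of_nonneg_right h3 (by positivity)
      have h5 : 0 ≤ (star φ x * star χ (-y)) * (Real.exp x * Real.exp (-y)) :=
        mul_nonneg hA (by positivity)
      calc (star φ x * Real.exp x) ^ 2 * (star χ (-y) * Real.exp (-y)) ^ 2
          = ((star φ x * star χ (-y)) * (Real.exp x * Real.exp (-y))) ^ 2 := by ring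
        _ ≤ ker ((x + y) / 2) ^ 2 := pow_le_pow_left₀ h5 h4 2)
  calc ENNReal.ofReal (2 * Real.pi) * (∫⁻ u, ENNReal.ofReal ((star φ u * Real.exp u) ^ 2)) *
      (ENNReal.ofReal (2 * Real.pi) * ∫⁻ u, ENNReal.ofReal ((star χ u * Real.exp u) ^ 2))
      = ENNReal.ofReal (2 * Real.pi) ^ 2 * ((∫⁻ u, ENNReal.ofReal ((star φ u * Real.exp u) ^ 2)) *
        ∫⁻ u, ENNReal.ofReal ((star χ (-u) * Real.exp (-u)) ^ 2)) := by
        rw [hsym]; ring
    _ ≤ ENNReal.ofReal (2 * Real.pi) ^ 2 * (∫⁻ w, ENNReal.ofReal (ker w)) ^ 2 :=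
        mul_le_mul_right hpl _
    _ ≤ ENNReal.ofReal (2 * Real.pi) ^ 2 * ENNReal.ofReal (1 / 2) ^ 2 :=
        mul_le_mul_right (pow_le_pow_left₀ zero_le ker_integral 2) _
    _ = ENNReal.ofReal (Real.pi ^ 2) := by
        rw [← mul_pow, ← ENNReal.ofReal_mul (by positivity), ← ENNReal.ofReal_pow (by positivity)]
        congr 1
        ring

/-- a function which pairs with a nonzero function is bounded -/
theorem bdd_of (hφ : ∀ x, 0 ≤ φ x) (hχ : ∀ x, 0 ≤ χ x)
    (h : ∀ x y, φ x * χ y * ‖x - y‖ ^ 2 ≤ 1)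
    (hne : ∫⁻ x, ENNReal.ofReal (χ x ^ 2) ≠ 0) : ∃ Mb, ∀ x, φ x ≤ Mb := by
  have h1 : ∃ y₀ y₁, y₀ ≠ y₁ ∧ 0 < χ y₀ ∧ 0 < χ y₁ := by
    by_contra hcon
    push Not at hcon
    apply hne
    have hsub : {y | 0 < χ y}.Subsingleton := by
      intro a ha b hb
      by_contra hab
      exact absurd hb (not_lt.2 (hcon a b hab ha))
    have hnull : volume {y | 0 < χ y} = 0 := hsub.measure_zero volume
    rw [lintegral_eq_zero_iff']
    · filter_upwards [compl_mem_ae_iff.2 hnull] with y hy
      have hy' : ¬ 0 < χ y := hy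
      have : χ y = 0 := le_antisymm (not_lt.1 hy') (hχ y)
      rw [this]
      simp
    · refine ⟨0, measurable_const, ?_⟩
      filter_upwards [compl_mem_ae_iff.2 hnull] with y hy
      have hy' : ¬ 0 < χ y := hy
      have : χ y = 0 := le_antisymm (not_lt.1 hy') (hχ y)
      rw [this]
      simp
  obtain ⟨y₀, y₁, hy, h0, h1⟩ := h1
  set δ := ‖y₀ - y₁‖ with hδ
  have hδ0 : 0 < δ := norm_pos_iff.2 (sub_ne_zero.2 hy)
  set mm := min (χ y₀) (χ y₁) with hmm
  have hmm0 : 0 < mm := lt_min h0 h1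
  refine ⟨1 / (mm * (δ / 2) ^ 2), fun x => ?_⟩
  rw [le_div_iff₀ (by positivity)]
  have key : ∀ y, mm ≤ χ y → δ / 2 ≤ ‖x - y‖ → φ x * (mm * (δ / 2) ^ 2) ≤ 1 := by
    intro y hy1 hy2
    refine le_trans ?_ (h x y)
    rw [mul_assoc]
    refine mul_le_mul_of_nonneg_left ?_ (hφ x)
    exact mul_le_mul hy1 (pow_le_pow_left₀ (by positivity) hy2 2) (by positivity) (hχ y)
  rcases le_or_gt (δ / 2) ‖x - y₀‖ with h2 | h2
  · exact key y₀ (min_le_left _ _) h2
  · refine key y₁ (min_le_right _ _) ?_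
    have h3 : δ ≤ ‖x - y₀‖ + ‖x - y₁‖ := by
      calc δ = ‖(x - y₁) - (x - y₀)‖ := by rw [hδ]; congr 1; abel
        _ ≤ ‖x - y₁‖ + ‖x - y₀‖ := norm_sub_le _ _
        _ = _ := add_comm _ _
    linarith

/-- **the inequality of Santaló type in the plane** -/
theorem sant (hφ : ∀ x, 0 ≤ φ x) (hχ : ∀ x, 0 ≤ χ x) (hmφ : Measurable φ) (hmχ : Measurable χ)
    (h : ∀ x y, φ x * χ y * ‖x - y‖ ^ 2 ≤ 1) :
    (∫⁻ x, ENNReal.ofReal (φ x ^ 2)) * (∫⁻ x, ENNReal.ofReal (χ x ^ 2)) ≤
      ENNReal.ofReal (Real.pi ^ 2) := by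
  by_cases h1 : ∫⁻ x, ENNReal.ofReal (φ x ^ 2) = 0
  · rw [h1, zero_mul]; exact zero_le
  by_cases h2 : ∫⁻ x, ENNReal.ofReal (χ x ^ 2) = 0
  · rw [h2, mul_zero]; exact zero_le
  obtain ⟨Mb, hb⟩ := bdd_of hφ hχ h h2
  obtain ⟨Mc, hc⟩ := bdd_of hχ hφ (fun x y => by
    rw [mul_comm (χ x), norm_sub_rev]
    exact h y x) h1
  exact sant_bdd hb hc hφ hχ hmφ hmχ h

/-- the case of one function -/
theorem sant_self (hφ : ∀ x, 0 ≤ φ x) (hmφ : Measurable φ)
    (h : ∀ x y, φ x * φ y * ‖x - y‖ ^ 2 ≤ 1) :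
    ∫⁻ x, ENNReal.ofReal (φ x ^ 2) ≤ ENNReal.ofReal Real.pi := by
  have h1 := sant hφ hφ hmφ hmφ h
  rw [← sq, ENNReal.ofReal_pow Real.pi_pos.le] at h1
  exact (ENNReal.pow_le_pow_left_iff two_ne_zero).1 h1

end Vale.Agent.P207.H662.Sant
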