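import Vale.Agent.P207.H662.ScT
import Vale.Agent.P207.Low.Main

/-!
# P207: scaling of the rotations, and block LOW for a calculus with arbitrary curvature constant
-/

open Finset

set_option linter.unusedSectionVars false

noncomputable section

namespace Vale.Agent.P207.H662

open Vale.Agent.P207.H442 Vale.Agent.P207.H469 Vale.Agent.P207.H158 Vale.Agent.P207
  Vale.Agent.P207.Low

section Rot

variable {n : ℕ} {A : Type*} [CommRing A] [Algebra ℝ A] {C : FrCalc n A}

theorem sc_isRot {a : Matrix (Fin n) (Fin n) ℝ} {E : A →ₐ[ℝ] A} (h : IsRot C a E) (c : ℝ) :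
    IsRot (sc C c) a E where
  orth := h.orth
  H i f := by
    rw [sc_H, map_smul, h.H, smul_sum]
    exact sum_congr rfl fun j _ => by rw [sc_H, smul_comm]
  V := h.V
  R i j k l := by
    rw [sc_R, map_smul, h.R]
    simp only [smul_sum, sc_R]
    exact sum_congr rfl fun p _ => sum_congr rfl fun q _ => sum_congr rfl fun r _ =>
      sum_congr rfl fun s _ => smul_comm _ _ _

variable {ι : Type*}

/-- the same rotations for the scaled calculus -/
def scRot (S : RotAct C ι) (c : ℝ) : RotAct (sc C c) ι where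
  a := S.a
  E := S.E
  rot s := sc_isRot (S.rot s) c

variable [NeZero n]

/-- the same rotations for the scaled calculus -/
def scStab (S : StabAct C ι) (c : ℝ) : StabAct (sc C c) ι where
  toRotAct := scRot S.toRotAct c
  col := S.col

theorem mem_scStab_scal (S : StabAct C ι) (c : ℝ) {f : A} :
    f ∈ (scStab S c).toRotAct.scal ↔ f ∈ S.toRotAct.scal := Iff.rfl

theorem mem_scStab_adm (S : StabAct C ι) (c : ℝ) {y : Fin n → A} :
    y ∈ (scStab S c).adm ↔ y ∈ S.adm := by
  rw [StabAct.mem_adm, StabAct.mem_adm]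
  exact Iff.rfl

end Rot

section Low

universe u

variable {m : ℕ} {A : Type u} [CommRing A] [Algebra ℝ A] {C : FrCalc (m + 1) A}
  {I : A →ₗ[ℝ] ℝ} {ι : Type*}

/-- **LOW** for the calculus with the largest eigenvalue `b²` from the certificate for the scaled
calculus -/
theorem low_of_cert_sc {b c₀ d : ℝ} (hb : 0 < b) (hbc : 2 / b * (2 / b) * c₀ = m + 3 * d)
    (h : Rk1 (sc C (2 / b)) d) (hI : C.IsInt I) (hp : ∀ f, 0 ≤ I (f * f))
    (S : StabAct C ι) (hdef : ∀ f, I (f * f) = 0 → f = 0)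
    {k : Fin (m + 1) → Fin (m + 1) → A}
    (hc : (∀ i, C.H i (trk k) = 0) → trk k = 0)
    (hR : RankOne C b c₀) (hd : 0 ≤ d) {lam : ℝ}
    (hk : (sc C (2 / b)).T2 k) (hs : ∀ i j, k i j = k j i)
    (hcert : ∀ (hφ : phiB h hk ∈ WE h (sc_IsInt C (2 / b) hI) hp (scStab S (2 / b))
        (2 / b * (2 / b) * lam))
      (hw : twoB h hk ∈ WE h (sc_IsInt C (2 / b) hI) hp (scStab S (2 / b))
        (2 / b * (2 / b) * lam))
      (ht : ttB h hk ∈ WE h (sc_IsInt C (2 / b) hI) hp (scStab S (2 / b))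
        (2 / b * (2 / b) * lam)),
      CertAt (ladE h (sc_IsInt C (2 / b) hI) hp (scStab S (2 / b)) (2 / b * (2 / b) * lam))
        (2 / b * (2 / b) * lam) ⟨phiB h hk, hφ⟩ ⟨twoB h hk, hw⟩ ⟨ttB h hk, ht⟩)
    (hS : k 0 0 ∈ S.toRotAct.scal)
    (hcas : ∀ i j, C.cas (k i j) = (-lam) • k i j)
    (hdiv : ∀ j, Kat.divf C (k22 C b c₀ k) j = 0) (hne : k ≠ 0) :
    ∃ y ∈ S.adm, (∀ i, C.cas (y i) = (-lam) • y i) ∧ 0 < Kat.Qf C I k y := by
  have hc0 : (2 / b : ℝ) ≠ 0 := by positivity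
  have hcc : (2 / b * (2 / b) : ℝ) ≠ 0 := mul_ne_zero hc0 hc0
  have hR' : RankOne (sc C (2 / b)) 2 (m + 3 * d) := by
    have h1 := sc_RankOne hR
    rwa [hbc] at h1
  have hc' : (∀ i, (sc C (2 / b)).H i (trk k) = 0) → trk k = 0 := by
    intro h1
    refine hc fun i => ?_
    have h4 := h1 i
    rw [sc_H] at h4
    exact (smul_eq_zero_iff_right hc0).1 h4
  have hcas' : ∀ i j, (sc C (2 / b)).cas (k i j) = (-(2 / b * (2 / b) * lam)) • k i j := by
    intro i j
    rw [sc_cas, hcas, smul_smul]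
    congr 1
    ring
  have hdiv' : ∀ j, Kat.divf (sc C (2 / b)) (k22 (sc C (2 / b)) 2 (m + 3 * d) k) j = 0 := by
    intro j
    rw [← hbc, sc_k22 C hb, sc_divf, hdiv, smul_zero]
  obtain ⟨y, hy, hcy, hQ⟩ := low_of_cert h (sc_IsInt C (2 / b) hI) hp (scStab S (2 / b)) hdef
    hc' hR' hd hk hs hcert hS hcas' hdiv' hne
  refine ⟨fun i => (2 / b) • y i, ?_, ?_, ?_⟩
  · exact S.adm.smul_mem (2 / b) ((mem_scStab_adm S (2 / b)).1 hy)
  · intro i
    have h1 := hcy i
    rw [sc_cas] at h1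
    have h2 : C.cas (y i) = (-lam) • y i := by
      have h3 : (2 / b * (2 / b)) • C.cas (y i) = (2 / b * (2 / b)) • ((-lam) • y i) := by
        rw [h1, smul_smul]
        congr 1
        ring
      exact smul_right_injective A hcc h3
    rw [FrCalc.cas_smul, h2, smul_comm]
  · rwa [sc_Qf] at hQ

end Low

end Vale.Agent.P207.H662
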