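import Vale.Agent.P207.Kat.Q

/-!
# P207, block QF: scaling of the frame calculus (`H' = c H`, `R' = c² R`)
-/

open Finset

set_option linter.unusedSectionVars false

noncomputable section

namespace Vale.Agent.P207.H662

open Vale.Agent.P207.H442 Vale.Agent.P207

variable {n : ℕ} {A : Type*} [CommRing A] [Algebra ℝ A]

theorem ac_smul' (c : ℝ) (a b : Fin n) (T : Fin n → A) (i : Fin n) :
    c • ac a b T i = ac a b (fun i => c • T i) i := (ac_smul a b c T i).symm

/-- the frame calculus of the metric `c⁻² g` -/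
def sc (C : FrCalc n A) (c : ℝ) : FrCalc n A where
  H i := c • C.H i
  V := C.V
  R i j k l := (c * c) • C.R i j k l
  V_swap := C.V_swap
  VH' := by
    intro a b k f
    simp only [Derivation.smul_apply]
    rw [Derivation.map_smul, ← smul_sub, C.VH', ac_smul']
  VV' := C.VV'
  HH' := by
    intro i j f
    simp only [Derivation.smul_apply, Derivation.map_smul]
    rw [smul_smul, smul_smul, ← smul_sub, C.HH', smul_comm]
    congr 1
    rw [smul_sum]
    refine sum_congr rfl fun k _ => ?_
    rw [smul_sum]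
    exact sum_congr rfl fun l _ => by rw [smul_mul_assoc]
  R_anti := by intro i j k l; rw [C.R_anti, smul_neg]
  R_skew := by intro i j k l; rw [C.R_skew, smul_neg]
  R_pair := by intro i j k l; rw [C.R_pair]
  R_bianchi := by
    intro i j k l
    rw [← smul_add, ← smul_add, C.R_bianchi, smul_zero]
  VR := by
    intro a b i j k l
    rw [Derivation.map_smul, C.VR, smul_add, smul_add, smul_add, ac_smul', ac_smul', ac_smul',
      ac_smul']

variable (C : FrCalc n A) (c : ℝ)

@[simp] theorem sc_H (i : Fin n) (f : A) : (sc C c).H i f = c • C.H i f := rfl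

@[simp] theorem sc_V (i j : Fin n) : (sc C c).V i j = C.V i j := rfl

@[simp] theorem sc_R (i j k l : Fin n) : (sc C c).R i j k l = (c * c) • C.R i j k l := rfl

theorem sc_Par (h : C.Par) : (sc C c).Par := by
  intro m i j k l
  rw [sc_H, sc_R, Derivation.map_smul, h, smul_zero, smul_zero]

theorem sc_Ric (i j : Fin n) : (sc C c).Ric i j = (c * c) • C.Ric i j := by
  unfold FrCalc.Ric
  rw [smul_sum]
  rfl

theorem sc_lap (f : A) : (sc C c).lap f = (c * c) • C.lap f := by
  unfold FrCalc.lap
  rw [smul_sum]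
  exact sum_congr rfl fun i _ => by rw [sc_H, sc_H, Derivation.map_smul, smul_smul]

theorem sc_curv (f : A) : (sc C c).curv f = (c * c) • C.curv f := by
  unfold FrCalc.curv
  simp only [smul_sum, sc_R, sc_V, smul_mul_assoc]

theorem sc_cas (f : A) : (sc C c).cas f = (c * c) • C.cas f := by
  unfold FrCalc.cas
  rw [sc_lap, sc_curv, smul_sub, smul_comm (1 / 4 : ℝ)]

theorem sc_IsInt {I : A →ₗ[ℝ] ℝ} (h : C.IsInt I) : (sc C c).IsInt I where
  hor := by intro i f; rw [sc_H, map_smul, h.hor, smul_zero]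
  ver := h.ver

theorem sc_T0 {f : A} : (sc C c).T0 f ↔ C.T0 f := Iff.rfl

theorem sc_T1 {w : Fin n → A} : (sc C c).T1 w ↔ C.T1 w := Iff.rfl

theorem sc_T2 {k : Fin n → Fin n → A} : (sc C c).T2 k ↔ C.T2 k := Iff.rfl

section Kat

variable [NeZero n]

theorem sc_Zf (k : Fin n → Fin n → A) (i : Fin n) :
    Kat.Zf (sc C c) k i = c • Kat.Zf C k i := by
  unfold Kat.Zf
  rw [sc_H, sc_H, smul_sub, smul_comm (1 / 2 : ℝ)]

theorem sc_Kf (i j : Fin n) : Kat.Kf (sc C c) i j = (c * c) • Kat.Kf C i j := by
  unfold Kat.Kf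
  rw [sc_R, smul_neg]

theorem sc_divf (k : Fin n → Fin n → A) (j : Fin n) :
    Kat.divf (sc C c) k j = c • Kat.divf C k j := by
  unfold Kat.divf
  rw [smul_sum]
  rfl

/-- **scaling of `Q_y(k)`** -/
theorem sc_Qf (I : A →ₗ[ℝ] ℝ) (k : Fin n → Fin n → A) (y : Fin n → A) :
    Kat.Qf (sc C c) I k y = Kat.Qf C I k (fun i => c • y i) := by
  have h1 : Kat.Qint (sc C c) k y = Kat.Qint C k (fun i => c • y i) := by
    unfold Kat.Qint
    congr 1
    congr 1
    · congr 1
      · congr 1
        exact sum_congr rfl fun i _ => by rw [sc_Zf, smul_mul_assoc, mul_smul_comm]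
      · refine sum_congr rfl fun i _ => ?_
        rw [sc_H, Derivation.map_smul]
    · refine sum_congr rfl fun i _ => sum_congr rfl fun j _ => ?_
      rw [sc_Kf]
      simp only [smul_mul_assoc, mul_smul_comm, smul_smul]
  unfold Kat.Qf
  rw [h1]

end Kat

end Vale.Agent.P207.H662
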