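import Vale.Agent.P207.H662.Leaf

/-!
# P207, block QF: the operators `X, V_i, H_i` on the frame bundle of a rank one space
-/

open Finset

set_option linter.unusedSectionVars false

noncomputable section

namespace Vale.Agent.P207.H662

/-- Kronecker symbol applied to an element -/
def kr {m : ℕ} {A : Type*} [Zero A] (i j : Fin m) (f : A) : A := if i = j then f else 0

section kr

variable {m : ℕ} {A : Type*} [CommRing A] [Algebra ℝ A]

theorem kr_comm (i j : Fin m) (f : A) : kr i j f = kr j i f := by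
  unfold kr; simp only [eq_comm]

@[simp] theorem sum_kr_left (i : Fin m) (F : Fin m → A) : ∑ j, kr i j (F j) = F i := by
  simp [kr]

@[simp] theorem sum_kr_right (i : Fin m) (F : Fin m → A) : ∑ j, kr j i (F j) = F i := by
  simp [kr]

@[simp] theorem sum_mul_kr_left (i : Fin m) (G F : Fin m → A) :
    ∑ j, G j * kr i j (F j) = G i * F i := by
  simp [kr]

@[simp] theorem sum_mul_kr_right (i : Fin m) (G F : Fin m → A) :
    ∑ j, G j * kr j i (F j) = G i * F i := by
  simp [kr]

theorem mul_kr (i j : Fin m) (g f : A) : g * kr i j f = kr i j (g * f) := by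
  unfold kr; split_ifs <;> simp

theorem kr_mul (i j : Fin m) (g f : A) : kr i j f * g = kr i j (f * g) := by
  unfold kr; split_ifs <;> simp

theorem kr_eq (i j : Fin m) (f : A) : kr i j f = kr i j 1 * f := by
  unfold kr; split_ifs <;> simp

theorem kr_neg (i j : Fin m) (f : A) : kr i j (-f) = - kr i j f := by
  unfold kr; split_ifs <;> simp

theorem kr_zero (i j : Fin m) : kr i j (0 : A) = 0 := by
  unfold kr; split_ifs <;> simp

theorem map_kr (φ : A →ₗ[ℝ] A) (i j : Fin m) (f : A) : φ (kr i j f) = kr i j (φ f) := by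
  unfold kr; split_ifs <;> simp

theorem map_kr' (φ : Derivation ℝ A A) (i j : Fin m) (f : A) : φ (kr i j f) = kr i j (φ f) := by
  unfold kr; split_ifs <;> simp

end kr

/-- The calculus on the frame bundle of a locally symmetric space whose Jacobi operators have the
eigenvalues `1` and `4`: `X = H_0`, `v i = V_{i0}`, `h i = H_i`, `r i j = V_{ij}` for `i, j ≠ 0`;
`P` is the projection onto the eigenspace of the eigenvalue `4`, `T i j k = R_{0ijk}`. -/
structure Sys (m : ℕ) (A : Type*) [CommRing A] [Algebra ℝ A] where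
  X : Derivation ℝ A A
  v : Fin m → Derivation ℝ A A
  h : Fin m → Derivation ℝ A A
  r : Fin m → Fin m → Derivation ℝ A A
  P : Fin m → Fin m → A
  T : Fin m → Fin m → Fin m → A
  d : ℝ
  vX : ∀ i f, v i (X f) = X (v i f) + h i f
  vh : ∀ i j f, v i (h j f) = h j (v i f) - kr i j (X f)
  vv : ∀ i j f, v i (v j f) = v j (v i f) + r j i f
  rX : ∀ i j f, r i j (X f) = X (r i j f)
  rv : ∀ i j k f, r i j (v k f) = v k (r i j f) + kr j k (v i f) - kr i k (v j f)
  rh : ∀ i j k f, r i j (h k f) = h k (r i j f) + kr j k (h i f) - kr i k (h j f)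
  Xh : ∀ i f, X (h i f) = h i (X f) - v i f - 3 * ∑ j, P i j * v j f +
    (1 / 2 : ℝ) • ∑ j, ∑ k, T i j k * r j k f
  Psymm : ∀ i j, P i j = P j i
  Pidem : ∀ i k, ∑ j, P i j * P j k = P i k
  Ptr : ∑ i, P i i = algebraMap ℝ A d
  XP : ∀ i j, X (P i j) = 0
  hP : ∀ k i j, h k (P i j) = 0
  rP : ∀ a b i j, r a b (P i j) = kr b i (P a j) - kr a i (P b j) + kr b j (P i a) - kr a j (P i b)
  vP : ∀ k i j, v k (P i j) = (1 / 3 : ℝ) • (T i k j + T j k i)
  leafP : ∀ l i j, ∑ k, P l k * v k (P i j) = 0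
  Tanti : ∀ i j k, T i j k = - T i k j
  Tric : ∀ k, ∑ i, T i i k = 0
  TP : ∀ k, ∑ i, ∑ j, P i j * T i j k = 0
  vvP : ∀ i j, ∑ k, v k (v k (P i j)) = - ((2 * m : ℝ) • P i j) + (2 * d) • kr i j 1

namespace Sys

variable {m : ℕ} {A : Type*} [CommRing A] [Algebra ℝ A] (S : Sys m A)

/-- functions on the unit tangent bundle -/
def B : Submodule ℝ A where
  carrier := {f | ∀ i j, S.r i j f = 0}
  add_mem' := by intro a b ha hb i j; simp [ha i j, hb i j]
  zero_mem' := by intro i j; simp
  smul_mem' := by intro c a ha i j; simp [ha i j]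

theorem mem_B {f : A} : f ∈ S.B ↔ ∀ i j, S.r i j f = 0 := Iff.rfl

theorem X_mem {f : A} (hf : f ∈ S.B) : S.X f ∈ S.B := by
  intro i j; rw [S.rX, hf, map_zero]

/-! ### the total spherical calculus (`P = 1`) -/

/-- the calculus of the whole sphere -/
def tot : Leaf m A where
  X := S.X
  D i := S.v i
  H i := S.h i
  r i j := S.r i j
  P i j := kr i j 1
  d := m
  Psymm := fun i j => kr_comm i j 1
  Ptr := by
    intro f
    simp only [kr, if_true, one_mul, sum_const, card_univ, Fintype.card_fin]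
    rw [← Nat.cast_smul_eq_nsmul ℝ]
  PD := by intro i f; simp [kr]
  PH := by intro i f; simp [kr]
  DP := by
    intro k i j f
    simp only [kr]; split_ifs <;> simp
  HP := by
    intro k i j f
    simp only [kr]; split_ifs <;> simp
  DX := fun i f => S.vX i f
  DH := by
    intro i j f
    have := S.vh i j f
    rw [kr_mul, one_mul]; exact this
  DD := fun i j f => S.vv i j f
  rD := by
    intro i j k f
    rw [kr_mul, kr_mul, one_mul, one_mul]; exact S.rv i j k f
  rH := by
    intro i j k f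
    rw [kr_mul, kr_mul, one_mul, one_mul]; exact S.rh i j k f

/-! ### the leafwise calculus -/

theorem X_P_mul (i j : Fin m) (f : A) : S.X (S.P i j * f) = S.P i j * S.X f := by
  rw [Derivation.leibniz, S.XP]; simp

theorem h_P_mul (k i j : Fin m) (f : A) : S.h k (S.P i j * f) = S.P i j * S.h k f := by
  rw [Derivation.leibniz, S.hP]; simp

/-- the derivative in the leaf directions -/
def D (i : Fin m) : A →ₗ[ℝ] A where
  toFun f := ∑ j, S.P i j * S.v j f
  map_add' := by intro f g; simp [mul_add, sum_add_distrib]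
  map_smul' := by intro c f; simp [smul_sum]

theorem D_apply (i : Fin m) (f : A) : S.D i f = ∑ j, S.P i j * S.v j f := rfl

/-- the horizontal derivative in the leaf directions -/
def Hl (i : Fin m) : A →ₗ[ℝ] A where
  toFun f := ∑ j, S.P i j * S.h j f
  map_add' := by intro f g; simp [mul_add, sum_add_distrib]
  map_smul' := by intro c f; simp [smul_sum]

theorem Hl_apply (i : Fin m) (f : A) : S.Hl i f = ∑ j, S.P i j * S.h j f := rfl

/-- the rotations of the leaf -/
def rl (i j : Fin m) : A →ₗ[ℝ] A where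
  toFun f := ∑ a, S.P i a * ∑ b, S.P j b * S.r a b f
  map_add' := by intro f g; simp [mul_add, sum_add_distrib]
  map_smul' := by
    intro c f
    simp only [Derivation.map_smul, mul_smul_comm, ← smul_sum, RingHom.id_apply]

theorem rl_apply (i j : Fin m) (f : A) :
    S.rl i j f = ∑ a, S.P i a * ∑ b, S.P j b * S.r a b f := rfl

theorem D_P_mul (k i j : Fin m) (f : A) : S.D k (S.P i j * f) = S.P i j * S.D k f := by
  rw [D_apply, D_apply, mul_sum]
  have h1 : ∀ l, S.P k l * S.v l (S.P i j * f) = S.P i j * (S.P k l * S.v l f) +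
      f * (S.P k l * S.v l (S.P i j)) := by
    intro l
    rw [Derivation.leibniz, smul_eq_mul, smul_eq_mul]; ring
  rw [sum_congr rfl fun l _ => h1 l, sum_add_distrib, ← mul_sum univ _ f, S.leafP]
  ring

theorem Hl_P_mul (k i j : Fin m) (f : A) : S.Hl k (S.P i j * f) = S.P i j * S.Hl k f := by
  rw [Hl_apply, Hl_apply, mul_sum]
  refine sum_congr rfl fun l _ => ?_
  rw [S.h_P_mul]; ring

theorem P_D (i : Fin m) (f : A) : ∑ j, S.P i j * S.D j f = S.D i f := by
  simp only [D_apply, mul_sum]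
  rw [sum_comm]
  refine sum_congr rfl fun k _ => ?_
  rw [← S.Pidem i k, sum_mul]
  exact sum_congr rfl fun j _ => by ring

theorem P_Hl (i : Fin m) (f : A) : ∑ j, S.P i j * S.Hl j f = S.Hl i f := by
  simp only [Hl_apply, mul_sum]
  rw [sum_comm]
  refine sum_congr rfl fun k _ => ?_
  rw [← S.Pidem i k, sum_mul]
  exact sum_congr rfl fun j _ => by ring

theorem D_X (i : Fin m) (f : A) : S.D i (S.X f) = S.X (S.D i f) + S.Hl i f := by
  rw [D_apply, D_apply, Hl_apply, map_sum, ← sum_add_distrib]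
  refine sum_congr rfl fun j _ => ?_
  rw [S.vX, S.X_P_mul]; ring

theorem D_H (i j : Fin m) (f : A) :
    S.D i (S.Hl j f) = S.Hl j (S.D i f) - S.P i j * S.X f := by
  have e1 : S.D i (S.Hl j f) = ∑ k, S.P j k * S.D i (S.h k f) := by
    rw [Hl_apply, map_sum]
    exact sum_congr rfl fun k _ => S.D_P_mul i j k _
  have e2 : ∀ k, S.D i (S.h k f) = S.h k (S.D i f) - S.P i k * S.X f := by
    intro k
    rw [D_apply, D_apply, map_sum]
    have h1 : ∀ l, S.P i l * S.v l (S.h k f) = S.h k (S.P i l * S.v l f) -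
        S.P i l * kr l k (S.X f) := by
      intro l
      rw [S.vh, S.h_P_mul]; ring
    rw [sum_congr rfl fun l _ => h1 l, sum_sub_distrib]
    congr 1
    exact sum_mul_kr_right k (fun l => S.P i l) (fun _ => S.X f)
  have e3 : ∑ k, S.P j k * S.P i k = S.P i j := by
    rw [← S.Pidem i j]
    exact sum_congr rfl fun k _ => by rw [S.Psymm j k]; ring
  rw [e1, Hl_apply, ← e3, sum_mul, ← sum_sub_distrib]
  refine sum_congr rfl fun k _ => ?_
  rw [e2]; ring

theorem D_D (i j : Fin m) (f : A) : S.D i (S.D j f) = S.D j (S.D i f) + S.rl j i f := by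
  have e1 : ∀ i j, S.D i (S.D j f) = ∑ a, S.P i a * ∑ b, S.P j b * S.v a (S.v b f) := by
    intro i j
    rw [S.D_apply j, map_sum]
    have : ∀ k, S.D i (S.P j k * S.v k f) = ∑ a, S.P i a * (S.P j k * S.v a (S.v k f)) := by
      intro k
      rw [S.D_P_mul, D_apply, mul_sum]
      exact sum_congr rfl fun a _ => by ring
    rw [sum_congr rfl fun k _ => this k, sum_comm]
    exact sum_congr rfl fun a _ => by rw [mul_sum]
  have e2 : ∑ a, S.P j a * ∑ b, S.P i b * S.v a (S.v b f) =
      ∑ a, S.P i a * ∑ b, S.P j b * S.v b (S.v a f) := by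
    simp only [mul_sum]
    rw [sum_comm]
    exact sum_congr rfl fun a _ => sum_congr rfl fun b _ => by ring
  have e3 : S.rl j i f = ∑ a, S.P i a * ∑ b, S.P j b * S.r b a f := by
    rw [rl_apply]
    simp only [mul_sum]
    rw [sum_comm]
    exact sum_congr rfl fun a _ => sum_congr rfl fun b _ => by ring
  rw [e1 i j, e1 j i, e2, e3, ← sum_add_distrib]
  refine sum_congr rfl fun a _ => ?_
  rw [← mul_add, ← sum_add_distrib]
  refine congrArg _ (sum_congr rfl fun b _ => ?_)
  rw [S.vv a b]; ring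

/-- equivariance of the leafwise derivative -/
theorem r_D (a b k : Fin m) (f : A) :
    S.r a b (S.D k f) = S.D k (S.r a b f) + kr b k (S.D a f) - kr a k (S.D b f) := by
  have e1 : ∀ c, S.r a b (S.P k c * S.v c f) = S.P k c * S.v c (S.r a b f)
      + (kr b k (S.P a c * S.v c f) - kr a k (S.P b c * S.v c f))
      + (kr b c (S.P k a * S.v c f) - kr a c (S.P k b * S.v c f))
      + (kr b c (S.P k c * S.v a f) - kr a c (S.P k c * S.v b f)) := by
    intro c
    rw [Derivation.leibniz, smul_eq_mul, smul_eq_mul, S.rv, S.rP]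
    rw [kr_eq b c (S.v a f), kr_eq a c (S.v b f), kr_eq b k (S.P a c), kr_eq a k (S.P b c),
      kr_eq b c (S.P k a), kr_eq a c (S.P k b), kr_eq b k (S.P a c * _), kr_eq a k (S.P b c * _),
      kr_eq b c (S.P k a * _), kr_eq a c (S.P k b * _), kr_eq b c (S.P k c * _),
      kr_eq a c (S.P k c * _)]
    ring
  rw [D_apply, map_sum, sum_congr rfl fun c _ => e1 c]
  rw [sum_add_distrib, sum_add_distrib, sum_add_distrib]
  simp only [sum_sub_distrib, sum_kr_left, D_apply]
  have e2 : ∀ (F : Fin m → A) (i j : Fin m), ∑ c, kr i j (F c) = kr i j (∑ c, F c) := by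
    intro F i j; unfold kr; split_ifs <;> simp
  rw [e2, e2]
  ring

theorem r_Hl (a b k : Fin m) (f : A) :
    S.r a b (S.Hl k f) = S.Hl k (S.r a b f) + kr b k (S.Hl a f) - kr a k (S.Hl b f) := by
  have e1 : ∀ c, S.r a b (S.P k c * S.h c f) = S.P k c * S.h c (S.r a b f)
      + (kr b k (S.P a c * S.h c f) - kr a k (S.P b c * S.h c f))
      + (kr b c (S.P k a * S.h c f) - kr a c (S.P k b * S.h c f))
      + (kr b c (S.P k c * S.h a f) - kr a c (S.P k c * S.h b f)) := by
    intro c
    rw [Derivation.leibniz, smul_eq_mul, smul_eq_mul, S.rh, S.rP]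
    rw [kr_eq b c (S.h a f), kr_eq a c (S.h b f), kr_eq b k (S.P a c), kr_eq a k (S.P b c),
      kr_eq b c (S.P k a), kr_eq a c (S.P k b), kr_eq b k (S.P a c * _), kr_eq a k (S.P b c * _),
      kr_eq b c (S.P k a * _), kr_eq a c (S.P k b * _), kr_eq b c (S.P k c * _),
      kr_eq a c (S.P k c * _)]
    ring
  rw [Hl_apply, map_sum, sum_congr rfl fun c _ => e1 c]
  rw [sum_add_distrib, sum_add_distrib, sum_add_distrib]
  simp only [sum_sub_distrib, sum_kr_left, Hl_apply]
  have e2 : ∀ (F : Fin m → A) (i j : Fin m), ∑ c, kr i j (F c) = kr i j (∑ c, F c) := by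
    intro F i j; unfold kr; split_ifs <;> simp
  rw [e2, e2]
  ring

theorem sum2_kr_right (i j k : Fin m) (G : Fin m → A) :
    ∑ a, S.P i a * ∑ b, S.P j b * kr b k (G a) = S.P j k * ∑ a, S.P i a * G a := by
  rw [mul_sum]
  refine sum_congr rfl fun a _ => ?_
  rw [sum_mul_kr_right k (fun b => S.P j b) (fun _ => G a)]; ring

theorem sum2_kr_left (i j k : Fin m) (G : Fin m → A) :
    ∑ a, S.P i a * ∑ b, S.P j b * kr a k (G b) = S.P i k * ∑ b, S.P j b * G b := by
  have : ∀ a, S.P i a * ∑ b, S.P j b * kr a k (G b) =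
      S.P i a * kr a k (∑ b, S.P j b * G b) := by
    intro a
    congr 1
    unfold kr; split_ifs <;> simp
  rw [sum_congr rfl fun a _ => this a]
  exact sum_mul_kr_right k (fun a => S.P i a) (fun _ => ∑ b, S.P j b * G b)

theorem D_rl (k i j : Fin m) (f : A) :
    S.D k (S.rl i j f) = ∑ a, S.P i a * ∑ b, S.P j b * S.D k (S.r a b f) := by
  rw [rl_apply, map_sum]
  refine sum_congr rfl fun a _ => ?_
  rw [S.D_P_mul, map_sum]
  congr 1
  exact sum_congr rfl fun b _ => S.D_P_mul k j b _

theorem Hl_rl (k i j : Fin m) (f : A) :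
    S.Hl k (S.rl i j f) = ∑ a, S.P i a * ∑ b, S.P j b * S.Hl k (S.r a b f) := by
  rw [rl_apply, map_sum]
  refine sum_congr rfl fun a _ => ?_
  rw [S.Hl_P_mul, map_sum]
  congr 1
  exact sum_congr rfl fun b _ => S.Hl_P_mul k j b _

theorem rl_D (i j k : Fin m) (f : A) :
    S.rl i j (S.D k f) = S.D k (S.rl i j f) + S.P j k * S.D i f - S.P i k * S.D j f := by
  rw [S.D_rl, rl_apply]
  have h1 := S.sum2_kr_right i j k (fun a => S.D a f)
  have h2 := S.sum2_kr_left i j k (fun b => S.D b f)
  rw [S.P_D] at h1 h2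
  rw [← h1, ← h2, ← sum_add_distrib, ← sum_sub_distrib]
  refine sum_congr rfl fun a _ => ?_
  rw [← mul_add, ← mul_sub, ← sum_add_distrib, ← sum_sub_distrib]
  refine congrArg _ (sum_congr rfl fun b _ => ?_)
  rw [S.r_D]; ring

theorem rl_Hl (i j k : Fin m) (f : A) :
    S.rl i j (S.Hl k f) = S.Hl k (S.rl i j f) + S.P j k * S.Hl i f - S.P i k * S.Hl j f := by
  rw [S.Hl_rl, rl_apply]
  have h1 := S.sum2_kr_right i j k (fun a => S.Hl a f)
  have h2 := S.sum2_kr_left i j k (fun b => S.Hl b f)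
  rw [S.P_Hl] at h1 h2
  rw [← h1, ← h2, ← sum_add_distrib, ← sum_sub_distrib]
  refine sum_congr rfl fun a _ => ?_
  rw [← mul_add, ← mul_sub, ← sum_add_distrib, ← sum_sub_distrib]
  refine congrArg _ (sum_congr rfl fun b _ => ?_)
  rw [S.r_Hl]; ring

/-- the leafwise calculus -/
def leaf : Leaf m A where
  X := S.X
  D := S.D
  H := S.Hl
  r := S.rl
  P := S.P
  d := S.d
  Psymm := S.Psymm
  Ptr := by
    intro f
    rw [← sum_mul, S.Ptr, Algebra.smul_def]
  PD := S.P_D
  PH := S.P_Hl
  DP := S.D_P_mul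
  HP := S.Hl_P_mul
  DX := S.D_X
  DH := S.D_H
  DD := S.D_D
  rD := S.rl_D
  rH := S.rl_Hl

end Sys

end Vale.Agent.P207.H662
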